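import Vale.Agent.Lib.P328.CapS.Main

/-!
# P328, all margins: rows and columns of sum zero
-/

namespace Vale.Agent.Lib.P328.CapS

open Finset MeasureTheory Vale.Agent.Lib.P328.Cap
open scoped ENNReal Nat

variable {m n : ℕ}

/-- Integrating out one column of a function of the other columns. -/
theorem lintegral_erase_col {k : ℕ} (j0 : Fin (k + 1))
    (F : (Fin k → Fin m → ℝ) → ℝ≥0∞) (hF : Measurable F) :
    ∫⁻ t : Fin (k + 1) → Fin m → ℝ, wmat t * F (fun l => t (j0.succAbove l))
      = ∫⁻ t : Fin k → Fin m → ℝ, wmat t * F t := by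
  have h := (volume_preserving_piFinSuccAbove (fun _ : Fin (k + 1) => Fin m → ℝ) j0).symm
  have hG : Measurable fun t : Fin (k + 1) → Fin m → ℝ => wmat t * F (fun l => t (j0.succAbove l)) :=
    measurable_wmat.mul (hF.comp (measurable_pi_lambda _ fun l => measurable_pi_apply _))
  rw [← h.lintegral_comp hG]
  have hwm : ∀ p : (Fin m → ℝ) × (Fin k → Fin m → ℝ),
      wmat ((MeasurableEquiv.piFinSuccAbove (fun _ : Fin (k + 1) => Fin m → ℝ) j0).symm p)
        * F (fun l => (MeasurableEquiv.piFinSuccAbove (fun _ : Fin (k + 1) => Fin m → ℝ) j0).symm p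
            (j0.succAbove l))
      = wcol p.1 * (wmat p.2 * F p.2) := by
    intro p
    obtain ⟨u, t⟩ := p
    have e : (MeasurableEquiv.piFinSuccAbove (fun _ : Fin (k + 1) => Fin m → ℝ) j0).symm (u, t)
        = j0.insertNth u t := rfl
    rw [e]
    simp only [Fin.insertNth_apply_succAbove]
    have hw : wmat (j0.insertNth u t : Fin (k + 1) → Fin m → ℝ) = wcol u * wmat t := by
      unfold wmat
      rw [Fin.prod_univ_succAbove _ j0]
      simp
    rw [hw]
    ring
  simp only [hwm]
  rw [Measure.volume_eq_prod]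
  have h3 := lintegral_prod_mul (μ := (volume : Measure (Fin m → ℝ)))
    (ν := (volume : Measure (Fin k → Fin m → ℝ)))
    (f := wcol) (g := fun t => wmat t * F t) measurable_wcol.aemeasurable
    (measurable_wmat.mul hF).aemeasurable
  rw [h3, lintegral_wcol_one, one_mul]


/-- Integrating out one row of a function of the other rows. -/
theorem lintegral_erase_row {k : ℕ} (i0 : Fin (k + 1))
    (G : (Fin n → Fin k → ℝ) → ℝ≥0∞) (hG : Measurable G) :
    ∫⁻ t : Fin n → Fin (k + 1) → ℝ, wmat t * G (fun j l => t j (i0.succAbove l))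
      = ∫⁻ t : Fin n → Fin k → ℝ, wmat t * G t := by
  have hm1 : Measurable fun t : Fin n → Fin (k + 1) → ℝ => G (fun j l => t j (i0.succAbove l)) :=
    hG.comp (measurable_pi_lambda _ fun j => measurable_pi_lambda _ fun l =>
      (measurable_pi_apply _).comp (measurable_pi_apply j))
  rw [lintegral_transpose _ hm1, lintegral_transpose _ hG]
  have hG' : Measurable fun s : Fin k → Fin n → ℝ => G (fun j i => s i j) :=
    hG.comp (measurable_pi_lambda _ fun j => measurable_pi_lambda _ fun l =>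
      (measurable_pi_apply _).comp (measurable_pi_apply l))
  exact lintegral_erase_col i0 (fun s : Fin k → Fin n → ℝ => G (fun j i => s i j)) hG'

/-- A column of sum zero: the capacity without it is smaller. -/
theorem capa_erase_col (r : Fin m → ℕ) {k : ℕ} (c : Fin (k + 1) → ℕ) (j0 : Fin (k + 1))
    (h0 : c j0 = 0) (t : Fin (k + 1) → Fin m → ℝ) (ht : ∀ j i, 0 < t j i) :
    capa r (fun l => c (j0.succAbove l)) (fun l => t (j0.succAbove l)) ≤ capa r c t := by
  unfold capa
  refine le_iInf fun b => ?_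
  obtain ⟨b, hb⟩ := b
  refine (iInf_le _ ⟨fun l => b (j0.succAbove l), fun l => hb _⟩).trans ?_
  apply ENNReal.ofReal_le_ofReal
  simp only
  have hden : ∏ j, b j ^ c j = ∏ l, b (j0.succAbove l) ^ c (j0.succAbove l) := by
    rw [Fin.prod_univ_succAbove _ j0, h0]
    simp
  rw [hden]
  refine div_le_div_of_nonneg_right ?_ (Finset.prod_nonneg fun l _ => pow_nonneg (hb _).le _)
  refine Finset.prod_le_prod (fun i _ => pow_nonneg (Finset.sum_nonneg fun l _ =>
    mul_nonneg (ht _ _).le (hb _).le) _) fun i _ => ?_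
  refine pow_le_pow_left₀ (Finset.sum_nonneg fun l _ => mul_nonneg (ht _ _).le (hb _).le) ?_ _
  rw [Fin.sum_univ_succAbove _ j0]
  have := mul_pos (ht j0 i) (hb j0)
  linarith

/-- A row of sum zero: the capacity does not see it. -/
theorem capa_erase_row {k : ℕ} (r : Fin (k + 1) → ℕ) (i0 : Fin (k + 1)) (h0 : r i0 = 0)
    (c : Fin n → ℕ) (t : Fin n → Fin (k + 1) → ℝ) :
    capa (fun l => r (i0.succAbove l)) c (fun j l => t j (i0.succAbove l)) = capa r c t := by
  unfold capa
  refine iInf_congr fun b => ?_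
  congr 2
  rw [Fin.prod_univ_succAbove _ i0, h0]
  simp

theorem betaC_erase_col {k : ℕ} (c : Fin (k + 1) → ℕ) (j0 : Fin (k + 1)) (h0 : c j0 = 0) :
    betaC (fun l => c (j0.succAbove l)) = betaC c := by
  unfold betaC
  have h1 : ∑ j, c j = ∑ l, c (j0.succAbove l) := by
    rw [Fin.sum_univ_succAbove _ j0, h0, zero_add]
  have h2 : ∏ j, ((c j : ℝ) ^ c j / (((c j)! : ℕ) : ℝ))
      = ∏ l, ((c (j0.succAbove l) : ℝ) ^ c (j0.succAbove l) / (((c (j0.succAbove l))! : ℕ) : ℝ)) := by
    rw [Fin.prod_univ_succAbove _ j0, h0]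
    simp
  rw [h1, h2]

theorem card_erase_col (r : Fin m → ℕ) {k : ℕ} (c : Fin (k + 1) → ℕ) (j0 : Fin (k + 1))
    (h0 : c j0 = 0) :
    (tabs r c).card ≤ (tabs r (fun l => c (j0.succAbove l))).card := by
  refine Finset.card_le_card_of_injOn (fun T l => T (j0.succAbove l)) ?_ ?_
  · intro T hT
    obtain ⟨h1, h2⟩ := mem_tabs.1 hT
    refine mem_tabs.2 ⟨fun l => h1 _, fun i => ?_⟩
    have hz : T j0 i = 0 := by
      have := h1 j0
      rw [h0] at this
      exact (Finset.sum_eq_zero_iff.1 this) i (mem_univ _)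
    have := h2 i
    rw [Fin.sum_univ_succAbove _ j0, hz, zero_add] at this
    exact this
  · intro T hT T' hT' h
    have hz : ∀ T'' ∈ (tabs r c : Finset _), T'' j0 = 0 := by
      intro T'' hT''
      have := (mem_tabs.1 hT'').1 j0
      rw [h0] at this
      funext i
      exact (Finset.sum_eq_zero_iff.1 this) i (mem_univ _)
    funext j
    rcases Fin.eq_self_or_eq_succAbove j0 j with rfl | ⟨l, rfl⟩
    · rw [hz T hT, hz T' hT']
    · exact congrFun h l

theorem card_erase_row {k : ℕ} (r : Fin (k + 1) → ℕ) (i0 : Fin (k + 1)) (h0 : r i0 = 0)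
    (c : Fin n → ℕ) :
    (tabs r c).card ≤ (tabs (fun l => r (i0.succAbove l)) c).card := by
  refine Finset.card_le_card_of_injOn (fun T j l => T j (i0.succAbove l)) ?_ ?_
  · intro T hT
    obtain ⟨h1, h2⟩ := mem_tabs.1 hT
    refine mem_tabs.2 ⟨fun j => ?_, fun l => h2 _⟩
    have hz : T j i0 = 0 := by
      have := h2 i0
      rw [h0] at this
      exact (Finset.sum_eq_zero_iff.1 this) j (mem_univ _)
    have := h1 j
    rw [Fin.sum_univ_succAbove _ i0, hz, zero_add] at this
    exact this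
  · intro T hT T' hT' h
    have hz : ∀ T'' ∈ (tabs r c : Finset _), ∀ j, T'' j i0 = 0 := by
      intro T'' hT'' j
      have := (mem_tabs.1 hT'').2 i0
      rw [h0] at this
      exact (Finset.sum_eq_zero_iff.1 this) j (mem_univ _)
    funext j i
    rcases Fin.eq_self_or_eq_succAbove i0 i with rfl | ⟨l, rfl⟩
    · rw [hz T hT, hz T' hT']
    · exact congrFun (congrFun h j) l

theorem Ihat_erase_col (r : Fin m → ℕ) {k : ℕ} (c : Fin (k + 1) → ℕ) (j0 : Fin (k + 1))
    (h0 : c j0 = 0) : Ihat r (fun l => c (j0.succAbove l)) ≤ Ihat r c := by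
  rw [Ihat_eq, Ihat_eq]
  gcongr ?_ / _
  rw [← lintegral_erase_col j0 (fun t => capa r (fun l => c (j0.succAbove l)) t) (capa_measurable _ _)]
  refine lintegral_mono fun t => ?_
  by_cases hw : wmat t = 0
  · simp [hw]
  · exact mul_le_mul' le_rfl (capa_erase_col r c j0 h0 t (wmat_ne_zero_pos hw))

theorem Ihat_erase_row {k : ℕ} (r : Fin (k + 1) → ℕ) (i0 : Fin (k + 1)) (h0 : r i0 = 0)
    (c : Fin n → ℕ) : Ihat (fun l => r (i0.succAbove l)) c ≤ Ihat r c := by
  rw [Ihat_eq, Ihat_eq]
  have hfac : ((∏ i, (r i)! : ℕ) : ℝ≥0∞) = ((∏ l, (r (i0.succAbove l))! : ℕ) : ℝ≥0∞) := by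
    congr 1
    rw [Fin.prod_univ_succAbove _ i0, h0]
    simp
  rw [hfac]
  gcongr ?_ / _
  rw [← lintegral_erase_row i0 (fun t => capa (fun l => r (i0.succAbove l)) c t) (capa_measurable _ _)]
  refine lintegral_mono fun t => ?_
  exact mul_le_mul' le_rfl (le_of_eq (capa_erase_row r i0 h0 c t))

/-- Total zero. -/
theorem card_tabs_zero (r : Fin m → ℕ) (c : Fin n → ℕ) (hsum : ∑ i, r i = ∑ j, c j)
    (h0 : ∑ j, c j = 0) : ((tabs r c).card : ℝ≥0∞) ≤ ENNReal.ofReal (betaC c) * Ihat r c := by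
  have hc0 : ∀ j, c j = 0 := fun j => (Finset.sum_eq_zero_iff.1 h0) j (mem_univ _)
  have hr0 : ∀ i, r i = 0 := fun i => (Finset.sum_eq_zero_iff.1 (hsum.trans h0)) i (mem_univ _)
  have hbeta : betaC c = 1 := by
    unfold betaC
    simp [hc0]
  have hI : Ihat r c = 1 := by
    rw [Ihat_eq]
    have hfac : ((∏ i, (r i)! : ℕ) : ℝ≥0∞) = 1 := by
      simp [hr0]
    rw [hfac, div_one]
    have hcapa : ∀ t, capa r c t = 1 := by
      intro t
      unfold capa
      simp [hr0, hc0]
      have : Nonempty {b : Fin n → ℝ // ∀ j, 0 < b j} := ⟨⟨fun _ => 1, fun _ => one_pos⟩⟩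
      exact ciInf_const
    simp only [hcapa, mul_one]
    exact lintegral_wmat_one
  have hcard : (tabs r c).card ≤ 1 := by
    refine Finset.card_le_one.2 fun a ha b hb => ?_
    funext j i
    have h1 := (mem_tabs.1 ha).1 j
    have h2 := (mem_tabs.1 hb).1 j
    rw [hc0] at h1 h2
    rw [(Finset.sum_eq_zero_iff.1 h1) i (mem_univ _), (Finset.sum_eq_zero_iff.1 h2) i (mem_univ _)]
  rw [hbeta, hI]
  simp only [ENNReal.ofReal_one, mul_one]
  exact_mod_cast hcard

/-- The main theorem for all margins: rows and columns of sum zero are deleted. -/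
theorem card_tabs_poly_pos : ∀ (s m n : ℕ), m + n = s → 0 < n → ∀ (r : Fin m → ℕ) (c : Fin n → ℕ),
    ∑ i, r i = ∑ j, c j → 0 < ∑ j, c j → (∀ j, c j = 0 ∨ c j = 1 ∨ LevelOK (c j)) →
    ((tabs r c).card : ℝ≥0∞)
      ≤ ENNReal.ofReal (10 ^ 18 * ((m : ℝ) + 1) ^ 16 * ((n : ℝ) + 1) ^ 36 * betaC c) * Ihat r c := by
  intro s
  induction s with
  | zero =>
    intro m n hs hn
    omega
  | succ s ih =>
    intro m n hs hn r c hsum hpos hOK
    by_cases hcz : ∃ j0, c j0 = 0
    · obtain ⟨j0, hj0⟩ := hcz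
      obtain ⟨k, rfl⟩ : ∃ k, n = k + 1 := ⟨n - 1, by omega⟩
      have hs1 : ∑ j, c j = ∑ l, c (j0.succAbove l) := by
        rw [Fin.sum_univ_succAbove _ j0, hj0, zero_add]
      have hk : 0 < k := by
        rcases Nat.eq_zero_or_pos k with rfl | h
        · rw [hs1] at hpos
          simp at hpos
        · exact h
      have h1 := ih m k (by omega) hk r (fun l => c (j0.succAbove l)) (by rw [hsum, hs1])
        (by rw [← hs1]; exact hpos) (fun l => hOK _)
      rw [betaC_erase_col c j0 hj0] at h1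
      have hm0 : (0 : ℝ) ≤ m := by positivity
      have hk0 : (0 : ℝ) ≤ k := by positivity
      calc ((tabs r c).card : ℝ≥0∞) ≤ ((tabs r (fun l => c (j0.succAbove l))).card : ℝ≥0∞) := by
            exact_mod_cast card_erase_col r c j0 hj0
        _ ≤ _ := h1
        _ ≤ _ := by
            refine mul_le_mul' ?_ (Ihat_erase_col r c j0 hj0)
            apply ENNReal.ofReal_le_ofReal
            refine mul_le_mul_of_nonneg_right ?_ (betaC_nonneg c)
            push_cast
            gcongr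
            linarith
    by_cases hrz : ∃ i0, r i0 = 0
    · obtain ⟨i0, hi0⟩ := hrz
      obtain ⟨k, rfl⟩ : ∃ k, m = k + 1 := by
        have : 0 < m := i0.pos
        exact ⟨m - 1, by omega⟩
      have hs1 : ∑ i, r i = ∑ l, r (i0.succAbove l) := by
        rw [Fin.sum_univ_succAbove _ i0, hi0, zero_add]
      have h1 := ih k n (by omega) hn (fun l => r (i0.succAbove l)) c (by rw [← hs1, hsum])
        hpos hOK
      have hk0 : (0 : ℝ) ≤ k := by positivity
      have hn0 : (0 : ℝ) ≤ n := by positivity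
      calc ((tabs r c).card : ℝ≥0∞) ≤ ((tabs (fun l => r (i0.succAbove l)) c).card : ℝ≥0∞) := by
            exact_mod_cast card_erase_row r i0 hi0 c
        _ ≤ _ := h1
        _ ≤ _ := by
            refine mul_le_mul' ?_ (Ihat_erase_row r i0 hi0 c)
            apply ENNReal.ofReal_le_ofReal
            refine mul_le_mul_of_nonneg_right ?_ (betaC_nonneg c)
            push_cast
            gcongr
            linarith
    · simp only [not_exists] at hcz hrz
      have hm : 0 < m := by
        rcases Nat.eq_zero_or_pos m with rfl | h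
        · simp at hsum
          omega
        · exact h
      refine card_tabs_poly hm hn r c (fun i => Nat.pos_of_ne_zero (hrz i))
        (fun j => Nat.pos_of_ne_zero (hcz j)) hsum (fun j => ?_)
      rcases hOK j with h | h
      · exact absurd h (hcz j)
      · exact h

/-- THE MAIN THEOREM FOR ALL MARGINS. -/
theorem card_tabs_poly_all (hn : 0 < n) (r : Fin m → ℕ) (c : Fin n → ℕ)
    (hsum : ∑ i, r i = ∑ j, c j) (hOK : ∀ j, c j = 0 ∨ c j = 1 ∨ LevelOK (c j)) :
    ((tabs r c).card : ℝ≥0∞)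
      ≤ ENNReal.ofReal (10 ^ 18 * ((m : ℝ) + 1) ^ 16 * ((n : ℝ) + 1) ^ 36 * betaC c) * Ihat r c := by
  rcases Nat.eq_zero_or_pos (∑ j, c j) with h0 | hpos
  · refine (card_tabs_zero r c hsum h0).trans ?_
    refine mul_le_mul' ?_ le_rfl
    apply ENNReal.ofReal_le_ofReal
    have hβ := betaC_nonneg c
    have hm0 : (1 : ℝ) ≤ (m : ℝ) + 1 := by
      have : (0 : ℝ) ≤ m := by positivity
      linarith
    have hn0 : (1 : ℝ) ≤ (n : ℝ) + 1 := by
      have : (0 : ℝ) ≤ n := by positivity
      linarith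
    have h1 : (1 : ℝ) ≤ 10 ^ 18 * ((m : ℝ) + 1) ^ 16 * ((n : ℝ) + 1) ^ 36 := by
      have h2 := one_le_pow₀ hm0 (n := 16)
      have h3 := one_le_pow₀ hn0 (n := 36)
      have h4 : (1 : ℝ) ≤ 10 ^ 18 := by norm_num
      calc (1 : ℝ) = 1 * 1 * 1 := by norm_num
        _ ≤ _ := by gcongr
    calc betaC c = 1 * betaC c := (one_mul _).symm
      _ ≤ _ := mul_le_mul_of_nonneg_right h1 hβ
  · exact card_tabs_poly_pos (m + n) m n rfl hn r c hsum hpos hOK

end Vale.Agent.Lib.P328.CapS
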