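import Vale.Agent.Lib.P328.CapS.Rec
import Vale.Agent.Lib.P328.Cap.Table
import Vale.Agent.Lib.P328.Cap.Final

/-!
# P328, all margins: the base cases: no regular column, or one regular column and unit columns
-/

namespace Vale.Agent.Lib.P328.CapS

open Finset MeasureTheory Vale.Agent.Lib.P328.Cap
open scoped ENNReal Nat

variable {m n : ℕ}

/-- The level one vectors. -/
theorem lev_one (y : Fin m → ℕ) :
    lev y 1 = (univ.filter fun i => 1 ≤ y i).image fun i => Pi.single i 1 := by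
  ext x
  rw [mem_lev, Finset.mem_image]
  constructor
  · rintro ⟨hx, hs⟩
    have h1 : ∃ i, x i ≠ 0 := by
      by_contra hcon
      have h0 : ∀ i, x i = 0 := fun i => by_contra fun h => hcon ⟨i, h⟩
      simp [h0] at hs
    obtain ⟨i, hi⟩ := h1
    have h2 : x i ≤ 1 := by
      rw [← hs]
      exact Finset.single_le_sum (f := x) (fun _ _ => Nat.zero_le _) (mem_univ i)
    have h3 : x i = 1 := by omega
    have h4 : ∀ k, k ≠ i → x k = 0 := by
      intro k hk
      have h5 : x i + x k ≤ ∑ l, x l := by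
        have := Finset.sum_le_sum_of_subset (f := x) (Finset.subset_univ {i, k})
        rwa [Finset.sum_pair (Ne.symm hk)] at this
      omega
    refine ⟨i, Finset.mem_filter.2 ⟨mem_univ _, ?_⟩, ?_⟩
    · have := hx i
      omega
    · funext k
      by_cases hk : k = i
      · subst hk
        simp [h3]
      · simp [hk, h4 k hk]
  · rintro ⟨i, hi, rfl⟩
    have hi' := (Finset.mem_filter.1 hi).2
    refine ⟨fun k => ?_, ?_⟩
    · by_cases hk : k = i
      · subst hk
        simpa using hi'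
      · simp [hk]
    · simp

/-- Number of tables with columns of sum one: the multinomial coefficient. -/
theorem card_tabs_unit (d : ℕ) : ∀ y : Fin m → ℕ, ∑ i, y i = d →
    (tabs y (fun _ : Fin d => 1)).card * ∏ i, (y i)! = d ! := by
  induction d with
  | zero =>
    intro y hy
    have hy0 : ∀ i, y i = 0 := fun i => by
      have := Finset.single_le_sum (f := y) (fun _ _ => Nat.zero_le _) (mem_univ i)
      omega
    have h1 : (tabs y (fun _ : Fin 0 => 1)) = {fun j => j.elim0} := by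
      ext T
      rw [mem_tabs, Finset.mem_singleton]
      constructor
      · intro _
        funext j
        exact j.elim0
      · intro _
        refine ⟨fun j => j.elim0, fun i => ?_⟩
        simp [hy0 i]
    rw [h1]
    simp [hy0]
  | succ d ih =>
    intro y hy
    have h1 : (fun _ : Fin (d + 1) => 1) = (Fin.cons 1 (fun _ : Fin d => 1) : Fin (d + 1) → ℕ) := by
      funext j
      refine Fin.cases ?_ (fun k => ?_) j <;> simp
    have h2 := sum_first_col y 1 (fun _ : Fin d => 1) (fun _ => (1 : ℝ))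
    simp only [Finset.sum_const, nsmul_eq_mul, mul_one, one_mul] at h2
    have h3 : (tabs y (fun _ : Fin (d + 1) => 1)).card
        = ∑ x ∈ lev y 1, (tabs (fun i => y i - x i) (fun _ : Fin d => 1)).card := by
      rw [h1]
      exact_mod_cast h2
    rw [h3, lev_one, Finset.sum_image, Finset.sum_mul]
    · have h4 : ∀ i ∈ univ.filter fun i => 1 ≤ y i,
          (tabs (fun k => y k - (Pi.single i 1 : Fin m → ℕ) k) (fun _ : Fin d => 1)).card
            * ∏ k, (y k)! = d ! * y i := by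
        intro i hi
        have hi' := (Finset.mem_filter.1 hi).2
        have hs : ∑ k, (y k - (Pi.single i 1 : Fin m → ℕ) k) = d := by
          have h5 : ∑ k, (y k - (Pi.single i 1 : Fin m → ℕ) k) + 1 = ∑ k, y k := by
            have h6 : ∀ k, y k = (y k - (Pi.single i 1 : Fin m → ℕ) k)
                + (Pi.single i 1 : Fin m → ℕ) k := by
              intro k
              by_cases hk : k = i
              · subst hk
                simp only [Pi.single_eq_same]
                omega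
              · simp [hk]
            conv_rhs => rw [Finset.sum_congr rfl (fun k _ => h6 k)]
            rw [Finset.sum_add_distrib]
            simp
          omega
        have h7 := ih _ hs
        have h8 : ∏ k, (y k)! = (∏ k, (y k - (Pi.single i 1 : Fin m → ℕ) k)!) * y i := by
          rw [← Finset.mul_prod_erase univ _ (mem_univ i),
            ← Finset.mul_prod_erase univ (fun k => (y k - (Pi.single i 1 : Fin m → ℕ) k)!)
              (mem_univ i)]
          have h9 : ∏ k ∈ univ.erase i, (y k - (Pi.single i 1 : Fin m → ℕ) k)!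
              = ∏ k ∈ univ.erase i, (y k)! := by
            refine Finset.prod_congr rfl fun k hk => ?_
            have : k ≠ i := (Finset.mem_erase.1 hk).1
            simp [this]
          rw [h9]
          obtain ⟨v, hv⟩ : ∃ v, y i = v + 1 := ⟨y i - 1, by omega⟩
          simp only [Pi.single_eq_same, hv, Nat.add_sub_cancel, Nat.factorial_succ]
          ring
        rw [h8, ← mul_assoc, h7]
      rw [Finset.sum_congr rfl h4, ← Finset.mul_sum, Nat.factorial_succ, mul_comm]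
      congr 1
      have h10 : ∑ i ∈ univ.filter (fun i => 1 ≤ y i), y i = ∑ i, y i := by
        refine Finset.sum_filter_of_ne ?_
        intro i _ hi
        omega
      rw [h10, hy]
    · intro i _ k _ hik
      by_contra hne
      have := congrFun hik i
      simp [Ne.symm hne] at this

/-- Amgm for a finite family: `d ^ d * ∏ b ≤ (∑ b) ^ d`. -/
theorem amgm_fin {d : ℕ} (b : Fin d → ℝ) (hb : ∀ l, 0 < b l) :
    (d : ℝ) ^ d * ∏ l, b l ≤ (∑ l, b l) ^ d := by
  rcases Nat.eq_zero_or_pos d with rfl | hd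
  · simp
  have hB : 0 < ∑ l, b l := Finset.sum_pos (fun l _ => hb l) ⟨⟨0, hd⟩, mem_univ _⟩
  have hdr : (0 : ℝ) < d := by exact_mod_cast hd
  set B := ∑ l, b l with hBdef
  have h1 : ∏ l, ((d : ℝ) * b l / B) ≤ ∏ l, Real.exp ((d : ℝ) * b l / B - 1) := by
    refine Finset.prod_le_prod (fun l _ => ?_) (fun l _ => ?_)
    · have := hb l
      positivity
    · have := Real.add_one_le_exp ((d : ℝ) * b l / B - 1)
      linarith
  rw [← Real.exp_sum] at h1
  have h2 : ∑ l, ((d : ℝ) * b l / B - 1) = 0 := by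
    rw [Finset.sum_sub_distrib, ← Finset.sum_div, ← Finset.mul_sum, ← hBdef]
    simp
    field_simp
    ring
  rw [h2, Real.exp_zero] at h1
  have h3 : ∏ l, ((d : ℝ) * b l / B) = (d : ℝ) ^ d * (∏ l, b l) / B ^ d := by
    rw [Finset.prod_div_distrib, Finset.prod_mul_distrib]
    simp
  rw [h3, div_le_one (by positivity)] at h1
  exact h1


/-- The number of tables with all columns of sum one is at most the multinomial coefficient. -/
theorem card_tabs_ones (y : Fin m → ℕ) (hy : ∑ i, y i = n) :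
    (((tabs y (fun _ : Fin n => 1)).card : ℕ) : ℝ) * ((∏ i, (y i)! : ℕ) : ℝ) ≤ ((n ! : ℕ) : ℝ) := by
  exact_mod_cast (card_tabs_unit n y hy).le

/-- `betaC` of all ones. -/
theorem betaC_ones (hn : 0 < n) : betaC (fun _ : Fin n => 1) = ((n ! : ℕ) : ℝ) / (n : ℝ) ^ n := by
  unfold betaC
  simp

/-- The column density has mass one. -/
theorem lintegral_wcol_one : ∫⁻ u : Fin m → ℝ, wcol u = 1 := by
  have h := lintegral_wcol_mul (m := m) (fun _ => 0)
  simpa using h

/-- The matrix density has mass one. -/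
theorem lintegral_wmat_one : ∫⁻ t : Fin n → Fin m → ℝ, wmat t = 1 := by
  unfold wmat
  rw [lintegral_pi_prod_gen n (fun _ => wcol) (fun _ => measurable_wcol)]
  simp [lintegral_wcol_one]

/-- The capacity of the matrix of ones. -/
theorem capa_ones_ge (hn : 0 < n) (r : Fin m → ℕ) (hsum : ∑ i, r i = n)
    (t : Fin n → Fin m → ℝ) (ht : ∀ j i, t j i = 1) :
    ENNReal.ofReal ((n : ℝ) ^ n) ≤ capa r (fun _ : Fin n => 1) t := by
  unfold capa
  refine le_iInf fun b => ?_
  obtain ⟨b, hb⟩ := b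
  apply ENNReal.ofReal_le_ofReal
  have hP : 0 < ∏ j, b j := Finset.prod_pos fun j _ => hb j
  have h1 : ∏ i, (∑ j, t j i * b j) ^ r i = (∑ j, b j) ^ n := by
    simp only [ht, one_mul]
    rw [Finset.prod_pow_eq_pow_sum, hsum]
  simp only [pow_one]
  rw [h1, le_div_iff₀ hP]
  exact amgm_fin b hb

/-- No regular column: the exact count. -/
theorem base_zero (hn : 0 < n) (r : Fin m → ℕ) (hsum : ∑ i, r i = n) (S : Finset (Fin m)) :
    ((tabs r (fun _ : Fin n => 1)).card : ℝ≥0∞)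
      ≤ ENNReal.ofReal (betaC (fun _ : Fin n => 1)) * IM r (fun _ : Fin n => 1) S univ := by
  have hI : ENNReal.ofReal ((n : ℝ) ^ n) / ((∏ i, (r i)! : ℕ) : ℝ≥0∞)
      ≤ IM r (fun _ : Fin n => 1) S univ := by
    unfold IM
    refine ENNReal.div_le_div_right ?_ _
    calc ENNReal.ofReal ((n : ℝ) ^ n)
        = ∫⁻ t : Fin n → Fin m → ℝ, ENNReal.ofReal ((n : ℝ) ^ n) * wmat t := by
          rw [lintegral_const_mul _ measurable_wmat, lintegral_wmat_one, mul_one]
      _ ≤ ∫⁻ t : Fin n → Fin m → ℝ, wmat t * capa r (fun _ : Fin n => 1) (mask S univ t) := by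
          refine lintegral_mono fun t => ?_
          rw [mul_comm]
          refine mul_le_mul_right ?_ _
          refine capa_ones_ge hn r hsum _ fun j i => ?_
          simp [mask]
  refine le_trans ?_ (mul_le_mul_right hI _)
  rw [betaC_ones hn]
  have hn' : (0 : ℝ) < (n : ℝ) ^ n := by
    have : (0 : ℝ) < n := by exact_mod_cast hn
    positivity
  have hF0 : ((∏ i, (r i)! : ℕ) : ℝ≥0∞) ≠ 0 := by
    exact_mod_cast (Finset.prod_pos fun i _ => Nat.factorial_pos _).ne'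
  have hFt : ((∏ i, (r i)! : ℕ) : ℝ≥0∞) ≠ ⊤ := ENNReal.natCast_ne_top _
  rw [← mul_div_assoc, ← ENNReal.ofReal_mul (by positivity)]
  rw [div_mul_cancel₀ _ hn'.ne', ENNReal.le_div_iff_mul_le (Or.inl hF0) (Or.inl hFt)]
  have h := card_tabs_unit n r hsum
  rw [ENNReal.ofReal_natCast]
  exact_mod_cast h.le

/-- `l ! / l ^ l` decreases at most by the factor `e`. -/
theorem hfun_step {l : ℕ} (hl : 0 < l) :
    ((l ! : ℕ) : ℝ) / (l : ℝ) ^ l * Real.exp (-1)
      ≤ (((l + 1)! : ℕ) : ℝ) / ((l + 1 : ℕ) : ℝ) ^ (l + 1) := by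
  have hlr : (0 : ℝ) < l := by exact_mod_cast hl
  have hl1 : (0 : ℝ) < ((l + 1 : ℕ) : ℝ) := by positivity
  have h1 : (((l + 1)! : ℕ) : ℝ) / ((l + 1 : ℕ) : ℝ) ^ (l + 1)
      = ((l ! : ℕ) : ℝ) / ((l + 1 : ℕ) : ℝ) ^ l := by
    rw [Nat.factorial_succ, pow_succ]
    push_cast
    have : ((l : ℝ) + 1) ≠ 0 := by positivity
    have h2 : ((l : ℝ) + 1) ^ l ≠ 0 := by positivity
    field_simp
  rw [h1]
  have h3 : ((l + 1 : ℕ) : ℝ) ^ l * Real.exp (-1) ≤ (l : ℝ) ^ l := by
    have h4 : ((l + 1 : ℕ) : ℝ) / (l : ℝ) ≤ Real.exp (1 / (l : ℝ)) := by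
      have := Real.add_one_le_exp (1 / (l : ℝ))
      push_cast
      have h5 : ((l : ℝ) + 1) / l = 1 / l + 1 := by
        field_simp
        ring
      rw [h5]
      exact this
    have h6 : (((l + 1 : ℕ) : ℝ) / (l : ℝ)) ^ l ≤ Real.exp 1 := by
      calc (((l + 1 : ℕ) : ℝ) / (l : ℝ)) ^ l ≤ (Real.exp (1 / (l : ℝ))) ^ l :=
            pow_le_pow_left₀ (by positivity) h4 _
        _ = Real.exp 1 := by
            rw [← Real.exp_nat_mul]
            congr 1
            field_simp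
    rw [div_pow, div_le_iff₀ (by positivity)] at h6
    have h7 : Real.exp (-1) * Real.exp 1 = 1 := by
      rw [← Real.exp_add]
      simp
    calc ((l + 1 : ℕ) : ℝ) ^ l * Real.exp (-1)
        ≤ (Real.exp 1 * (l : ℝ) ^ l) * Real.exp (-1) :=
          mul_le_mul_of_nonneg_right h6 (Real.exp_pos _).le
      _ = (l : ℝ) ^ l * (Real.exp (-1) * Real.exp 1) := by ring
      _ = (l : ℝ) ^ l := by rw [h7, mul_one]
  have hF : (0 : ℝ) ≤ ((l ! : ℕ) : ℝ) := Nat.cast_nonneg _
  rw [div_mul_eq_mul_div, div_le_div_iff₀ (by positivity) (by positivity)]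
  calc ((l ! : ℕ) : ℝ) * Real.exp (-1) * ((l + 1 : ℕ) : ℝ) ^ l
      = ((l ! : ℕ) : ℝ) * (((l + 1 : ℕ) : ℝ) ^ l * Real.exp (-1)) := by ring
    _ ≤ ((l ! : ℕ) : ℝ) * (l : ℝ) ^ l := mul_le_mul_of_nonneg_left h3 hF

/-- Iterated form. -/
theorem hfun_iter {l : ℕ} (hl : 0 < l) (k : ℕ) :
    ((l ! : ℕ) : ℝ) / (l : ℝ) ^ l * Real.exp (-(k : ℝ))
      ≤ (((l + k)! : ℕ) : ℝ) / ((l + k : ℕ) : ℝ) ^ (l + k) := by
  induction k with
  | zero => simp
  | succ k ih =>
    have h1 := hfun_step (l := l + k) (by omega)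
    have h2 : Real.exp (-((k + 1 : ℕ) : ℝ)) = Real.exp (-(k : ℝ)) * Real.exp (-1) := by
      rw [← Real.exp_add]
      congr 1
      push_cast
      ring
    rw [h2, ← mul_assoc, ← add_assoc]
    exact (mul_le_mul_of_nonneg_right ih (Real.exp_pos _).le).trans h1

/-- The binomial mode at the mean dominates the Poisson mode. -/
theorem bw_ge_piC {C' c : ℕ} (hc : 0 < c) (hcC : c < C') :
    piC c ≤ bw C' ((c : ℝ) / (C' : ℝ)) c := by
  obtain ⟨l, rfl⟩ : ∃ l, C' = l + c := ⟨C' - c, by omega⟩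
  have hl : 0 < l := by omega
  have hlr : (0 : ℝ) < l := by exact_mod_cast hl
  have hcr : (0 : ℝ) < c := by exact_mod_cast hc
  have hC : (0 : ℝ) < ((l + c : ℕ) : ℝ) := by positivity
  have hit := hfun_iter hl c
  have hbw : bw (l + c) ((c : ℝ) / ((l + c : ℕ) : ℝ)) c
      = ((c : ℝ) ^ c / ((c ! : ℕ) : ℝ)) * ((((l + c)! : ℕ) : ℝ) / ((l + c : ℕ) : ℝ) ^ (l + c))
        * ((l : ℝ) ^ l / ((l ! : ℕ) : ℝ)) := by
    unfold bw
    have h1 : 1 - (c : ℝ) / ((l + c : ℕ) : ℝ) = (l : ℝ) / ((l + c : ℕ) : ℝ) := by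
      push_cast at hC ⊢
      field_simp
      ring
    have h2 : l + c - c = l := by omega
    rw [h1, h2, div_pow, div_pow]
    have h3 : (((l + c)! : ℕ) : ℝ)
        = ((l + c).choose c : ℝ) * ((c ! : ℕ) : ℝ) * ((l ! : ℕ) : ℝ) := by
      have := Nat.choose_mul_factorial_mul_factorial (Nat.le_add_left c l)
      rw [Nat.add_sub_cancel] at this
      exact_mod_cast this.symm
    have h4 : ((l + c : ℕ) : ℝ) ^ (l + c) = ((l + c : ℕ) : ℝ) ^ l * ((l + c : ℕ) : ℝ) ^ c :=
      pow_add _ _ _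
    rw [h3, h4]
    have h5 : ((c ! : ℕ) : ℝ) ≠ 0 := by exact_mod_cast (Nat.factorial_pos c).ne'
    have h6 : ((l ! : ℕ) : ℝ) ≠ 0 := by exact_mod_cast (Nat.factorial_pos l).ne'
    have h7 : ((l + c : ℕ) : ℝ) ^ c ≠ 0 := by positivity
    have h8 : ((l + c : ℕ) : ℝ) ^ l ≠ 0 := by positivity
    field_simp
  rw [hbw]
  unfold piC
  have hll : 0 < (l : ℝ) ^ l / ((l ! : ℕ) : ℝ) := by
    have : (0 : ℝ) < ((l ! : ℕ) : ℝ) := by exact_mod_cast Nat.factorial_pos l
    positivity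
  have hcc : 0 ≤ (c : ℝ) ^ c / ((c ! : ℕ) : ℝ) := by positivity
  have hone : ((l ! : ℕ) : ℝ) / (l : ℝ) ^ l * ((l : ℝ) ^ l / ((l ! : ℕ) : ℝ)) = 1 := by
    have h6 : ((l ! : ℕ) : ℝ) ≠ 0 := by exact_mod_cast (Nat.factorial_pos l).ne'
    have h7 : (l : ℝ) ^ l ≠ 0 := by positivity
    field_simp
  calc Real.exp (-(c : ℝ)) * (c : ℝ) ^ c / ((c ! : ℕ) : ℝ)
      = ((c : ℝ) ^ c / ((c ! : ℕ) : ℝ))
          * (((l ! : ℕ) : ℝ) / (l : ℝ) ^ l * Real.exp (-(c : ℝ)))
          * ((l : ℝ) ^ l / ((l ! : ℕ) : ℝ)) := by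
        have : ((c : ℝ) ^ c / ((c ! : ℕ) : ℝ))
          * (((l ! : ℕ) : ℝ) / (l : ℝ) ^ l * Real.exp (-(c : ℝ)))
          * ((l : ℝ) ^ l / ((l ! : ℕ) : ℝ))
          = ((c : ℝ) ^ c / ((c ! : ℕ) : ℝ)) * Real.exp (-(c : ℝ))
            * (((l ! : ℕ) : ℝ) / (l : ℝ) ^ l * ((l : ℝ) ^ l / ((l ! : ℕ) : ℝ))) := by ring
        rw [this, hone]
        ring
    _ ≤ _ := by
        refine mul_le_mul_of_nonneg_right ?_ hll.le
        exact mul_le_mul_of_nonneg_left hit hcc

/-- The factorial bound behind `piC_ge`. -/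
theorem fact_le {μ : ℕ} (hμ : 0 < μ) :
    ((μ ! : ℕ) : ℝ) ≤ Real.exp 1 * (μ : ℝ) * ((μ : ℝ) ^ μ * Real.exp (-(μ : ℝ))) := by
  induction μ, hμ using Nat.le_induction with
  | base =>
    simp only [Nat.factorial_one, Nat.cast_one, one_mul, pow_one, mul_one]
    rw [← Real.exp_add]
    simp
  | succ μ hμ ih =>
    have hμr : (0 : ℝ) < μ := by exact_mod_cast hμ
    have h1 : ((μ + 1)! : ℕ) = (μ + 1) * μ ! := Nat.factorial_succ μ
    rw [h1]
    push_cast
    -- (1 + 1 / μ) ^ (μ + 1) ≥ e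
    have h2 : Real.exp 1 * (μ : ℝ) ^ (μ + 1) ≤ ((μ : ℝ) + 1) ^ (μ + 1) := by
      have h3 : (1 : ℝ) / ((μ : ℝ) + 1) ≤ Real.log (((μ : ℝ) + 1) / μ) := by
        have h4 := Real.one_sub_inv_le_log_of_pos (x := ((μ : ℝ) + 1) / μ) (by positivity)
        have h5 : 1 - (((μ : ℝ) + 1) / μ)⁻¹ = 1 / ((μ : ℝ) + 1) := by
          field_simp
          ring
        rwa [h5] at h4
      have h6 : Real.exp 1 ≤ (((μ : ℝ) + 1) / μ) ^ (μ + 1) := by
        have h7 : (1 : ℝ) ≤ ((μ + 1 : ℕ) : ℝ) * Real.log (((μ : ℝ) + 1) / μ) := by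
          have := mul_le_mul_of_nonneg_left h3 (by positivity : (0 : ℝ) ≤ ((μ + 1 : ℕ) : ℝ))
          refine le_trans (le_of_eq ?_) this
          push_cast
          field_simp
        have h8 := Real.exp_le_exp.2 h7
        rwa [Real.exp_nat_mul, Real.exp_log (by positivity)] at h8
      rw [div_pow, le_div_iff₀ (by positivity)] at h6
      exact h6
    have h9 : Real.exp (-((μ : ℝ) + 1)) = Real.exp (-(μ : ℝ)) * Real.exp (-1) := by
      rw [← Real.exp_add]
      congr 1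
      ring
    have h10 : Real.exp (-1) * Real.exp 1 = 1 := by
      rw [← Real.exp_add]
      simp
    have hexp : 0 < Real.exp (-(μ : ℝ)) := Real.exp_pos _
    have he1 : 0 < Real.exp 1 := Real.exp_pos _
    have hem : 0 < Real.exp (-1) := Real.exp_pos _
    rw [h9]
    calc ((μ : ℝ) + 1) * ((μ ! : ℕ) : ℝ)
        ≤ ((μ : ℝ) + 1) * (Real.exp 1 * (μ : ℝ) * ((μ : ℝ) ^ μ * Real.exp (-(μ : ℝ)))) :=
          mul_le_mul_of_nonneg_left ih (by positivity)
      _ = Real.exp 1 * ((μ : ℝ) + 1) * (((μ : ℝ) ^ (μ + 1) * (Real.exp (-1) * Real.exp 1))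
            * Real.exp (-(μ : ℝ))) := by
          rw [h10, pow_succ]
          ring
      _ = Real.exp 1 * ((μ : ℝ) + 1) * ((Real.exp 1 * (μ : ℝ) ^ (μ + 1))
            * (Real.exp (-(μ : ℝ)) * Real.exp (-1))) := by ring
      _ ≤ Real.exp 1 * ((μ : ℝ) + 1) * (((μ : ℝ) + 1) ^ (μ + 1)
            * (Real.exp (-(μ : ℝ)) * Real.exp (-1))) := by
          refine mul_le_mul_of_nonneg_left ?_ (by positivity)
          exact mul_le_mul_of_nonneg_right h2 (by positivity)

/-- `1 / piC μ ≤ 3 μ`. -/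
theorem piC_ge {μ : ℕ} (hμ : 0 < μ) : 1 ≤ 3 * (μ : ℝ) * piC μ := by
  have h := fact_le hμ
  have hμr : (0 : ℝ) < μ := by exact_mod_cast hμ
  have hF : (0 : ℝ) < ((μ ! : ℕ) : ℝ) := by exact_mod_cast Nat.factorial_pos μ
  unfold piC
  have he : Real.exp 1 ≤ 3 := by
    have := Real.exp_one_lt_d9
    linarith
  have hexp : 0 < Real.exp (-(μ : ℝ)) := Real.exp_pos _
  rw [show 3 * (μ : ℝ) * (Real.exp (-(μ : ℝ)) * (μ : ℝ) ^ μ / ((μ ! : ℕ) : ℝ))
    = (3 * (μ : ℝ) * ((μ : ℝ) ^ μ * Real.exp (-(μ : ℝ)))) / ((μ ! : ℕ) : ℝ) by ring]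
  rw [le_div_iff₀ hF, one_mul]
  refine h.trans ?_
  refine mul_le_mul_of_nonneg_right ?_ (by positivity)
  exact mul_le_mul_of_nonneg_right he hμr.le

/-- The binomial mode is symmetric in the two parts. -/
theorem bw_symm {a d : ℕ} (ha : 0 < a) (hd : 0 < d) :
    bw (a + d) ((a : ℝ) / ((a + d : ℕ) : ℝ)) a = bw (a + d) ((d : ℝ) / ((a + d : ℕ) : ℝ)) d := by
  have har : (0 : ℝ) < a := by exact_mod_cast ha
  have hdr : (0 : ℝ) < d := by exact_mod_cast hd
  have hC : (0 : ℝ) < ((a + d : ℕ) : ℝ) := by positivity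
  unfold bw
  have h1 : 1 - (a : ℝ) / ((a + d : ℕ) : ℝ) = (d : ℝ) / ((a + d : ℕ) : ℝ) := by
    push_cast at hC ⊢
    field_simp
    ring
  have h2 : 1 - (d : ℝ) / ((a + d : ℕ) : ℝ) = (a : ℝ) / ((a + d : ℕ) : ℝ) := by
    push_cast at hC ⊢
    field_simp
    ring
  rw [h1, h2, Nat.add_sub_cancel_left, Nat.add_sub_cancel_right]
  have h3 : (a + d).choose a = (a + d).choose d := by
    rw [Nat.choose_symm_add]
  rw [h3]
  ring

/-- One regular column `c0` and `d` unit columns: coefficient at most capacity, for any `S` of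
rows of sum at most one. The factor `3 d` replaces `1 / b0`. -/
theorem base_one (r : Fin m → ℕ) (c0 : ℕ) (hc0 : 0 < c0) (d : ℕ) (hd : 0 < d)
    (hsum : ∑ i, r i = c0 + d) (S : Finset (Fin m)) (hS : ∀ i ∈ S, r i ≤ 1) :
    ((tabs r (Fin.cons c0 (fun _ : Fin d => 1) : Fin (d + 1) → ℕ)).card : ℝ≥0∞)
      ≤ ENNReal.ofReal (3 * (d : ℝ) * betaC (Fin.cons c0 (fun _ : Fin d => 1) : Fin (d + 1) → ℕ))
        * IM r (Fin.cons c0 (fun _ : Fin d => 1) : Fin (d + 1) → ℕ) S
            ((univ : Finset (Fin d)).map (Fin.succEmb d)) := by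
  obtain ⟨n', rfl⟩ : ∃ n', d = n' + 1 := ⟨d - 1, by omega⟩
  have hrec := IM_rec_gen r c0 (fun _ : Fin (n' + 1) => 1) S hS univ (fun _ => 1)
    (fun _ _ => zero_le_one) 1 one_pos
    (fun t Si ht hSi _ _ s hs => col_step_one r t Si ht hSi c0 hs)
  simp only [ENNReal.ofReal_one, one_mul] at hrec
  have hcard : ((tabs r (Fin.cons c0 (fun _ : Fin (n' + 1) => 1) : Fin (n' + 1 + 1) → ℕ)).card : ℝ)
      = ∑ x ∈ lev r c0, ((tabs (fun i => r i - x i) (fun _ : Fin (n' + 1) => 1)).card : ℝ) := by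
    have h := sum_first_col r c0 (fun _ : Fin (n' + 1) => 1) (fun _ => (1 : ℝ))
    simpa using h
  have hcard' : ((tabs r (Fin.cons c0 (fun _ : Fin (n' + 1) => 1) : Fin (n' + 1 + 1) → ℕ)).card)
      = ∑ x ∈ lev r c0, ((tabs (fun i => r i - x i) (fun _ : Fin (n' + 1) => 1)).card) := by
    exact_mod_cast hcard
  have hterm : ∀ x ∈ lev r c0, ((tabs (fun i => r i - x i) (fun _ : Fin (n' + 1) => 1)).card : ℝ≥0∞)
      ≤ ENNReal.ofReal (betaC (fun _ : Fin (n' + 1) => 1))
        * IM (fun i => r i - x i) (fun _ : Fin (n' + 1) => 1) S univ := by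
    intro x hx
    obtain ⟨hxr, hxs⟩ := mem_lev.1 hx
    refine base_zero (Nat.succ_pos n') _ ?_ S
    have h1 : ∑ i, (r i - x i) + ∑ i, x i = ∑ i, r i := by
      rw [← Finset.sum_add_distrib]
      exact Finset.sum_congr rfl fun i _ => Nat.sub_add_cancel (hxr i)
    omega
  have hc1 : ((tabs r (Fin.cons c0 (fun _ : Fin (n' + 1) => 1) : Fin (n' + 1 + 1) → ℕ)).card : ℝ≥0∞)
      ≤ ENNReal.ofReal (betaC (fun _ : Fin (n' + 1) => 1))
        * IM r (Fin.cons c0 (fun _ : Fin (n' + 1) => 1) : Fin (n' + 1 + 1) → ℕ) S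
            ((univ : Finset (Fin (n' + 1))).map (Fin.succEmb (n' + 1))) := by
    rw [hcard']
    push_cast
    refine le_trans (Finset.sum_le_sum hterm) ?_
    rw [← Finset.mul_sum]
    exact mul_le_mul_right hrec _
  refine hc1.trans (mul_le_mul_left ?_ _)
  apply ENNReal.ofReal_le_ofReal
  -- the numerical inequality
  have hD : 0 < ∑ j : Fin (n' + 1), (fun _ : Fin (n' + 1) => 1) j := by simp
  rw [betaC_cons c0 _ hc0 hD]
  have hs : ∑ j : Fin (n' + 1), (fun _ : Fin (n' + 1) => 1) j = n' + 1 := by simp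
  rw [hs]
  have h1 := piC_ge (μ := n' + 1) (Nat.succ_pos n')
  have h2 : piC (n' + 1) ≤ bw (c0 + (n' + 1)) ((c0 : ℝ) / ((c0 + (n' + 1) : ℕ) : ℝ)) c0 := by
    rw [bw_symm hc0 (Nat.succ_pos n')]
    have h3 := bw_ge_piC (c := n' + 1) (C' := c0 + (n' + 1)) (Nat.succ_pos n') (by omega)
    exact h3
  have hB := betaC_nonneg (fun _ : Fin (n' + 1) => 1)
  have h4 : (1 : ℝ) ≤ 3 * ((n' + 1 : ℕ) : ℝ)
      * bw (c0 + (n' + 1)) ((c0 : ℝ) / ((c0 + (n' + 1) : ℕ) : ℝ)) c0 := by
    refine h1.trans ?_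
    exact mul_le_mul_of_nonneg_left h2 (by positivity)
  calc betaC (fun _ : Fin (n' + 1) => 1) = 1 * betaC (fun _ : Fin (n' + 1) => 1) := by ring
    _ ≤ (3 * ((n' + 1 : ℕ) : ℝ)
        * bw (c0 + (n' + 1)) ((c0 : ℝ) / ((c0 + (n' + 1) : ℕ) : ℝ)) c0)
        * betaC (fun _ : Fin (n' + 1) => 1) := mul_le_mul_of_nonneg_right h4 hB
    _ = _ := by ring

/-- One regular column alone. -/
theorem base_single (r : Fin m → ℕ) (c : Fin 1 → ℕ) (hc : 0 < c 0) (hsum : ∑ i, r i = c 0)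
    (S : Finset (Fin m)) (hS : ∀ i ∈ S, r i ≤ 1) :
    ((tabs r c).card : ℝ≥0∞) ≤ ENNReal.ofReal (betaC c) * IM r c S ∅ := by
  rw [betaC_one_col c hc, ENNReal.ofReal_one, one_mul]
  refine le_trans ?_ (?_ : (1 : ℝ≥0∞) ≤ _)
  · exact_mod_cast card_tabs_one_col r c
  -- `1 ≤ IM`
  unfold IM
  have hF0 : ((∏ i, (r i)! : ℕ) : ℝ≥0∞) ≠ 0 := by
    exact_mod_cast (Finset.prod_pos fun i _ => Nat.factorial_pos _).ne'
  have hFt : ((∏ i, (r i)! : ℕ) : ℝ≥0∞) ≠ ⊤ := ENNReal.natCast_ne_top _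
  rw [ENNReal.le_div_iff_mul_le (Or.inl hF0) (Or.inl hFt), one_mul]
  set x : Fin m → ℕ := fun i => if i ∈ S then 0 else r i with hx
  have hfact : ∏ i, (x i)! = ∏ i, (r i)! := by
    refine Finset.prod_congr rfl fun i _ => ?_
    by_cases hi : i ∈ S
    · have h1 := hS i hi
      have h2 : (r i)! = 1 := Nat.factorial_eq_one.2 h1
      simp [hx, hi, h2]
    · simp [hx, hi]
  rw [← hfact, ← lintegral_wcol_mul x, lintegral_cons (E := Fin m → ℝ) 0]
  have h1 := lintegral_prod_mul (μ := (volume : Measure (Fin m → ℝ)))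
      (ν := (volume : Measure (Fin 0 → Fin m → ℝ)))
      (f := fun u => wcol u * ENNReal.ofReal (∏ i, u i ^ x i)) (g := fun _ => 1)
      ((measurable_wcol.mul (Measurable.ennreal_ofReal
      (Finset.measurable_prod _ fun i _ => (measurable_pi_apply i).pow_const _))).aemeasurable)
      aemeasurable_const
  have h2 : ∫⁻ _ : Fin 0 → Fin m → ℝ, (1 : ℝ≥0∞) = 1 := by
    simp [volume_pi]
  rw [h2, mul_one] at h1
  rw [← h1]
  refine lintegral_mono fun p => ?_
  obtain ⟨u, t'⟩ := p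
  simp only [mul_one]
  rw [wmat_cons]
  have hw : wmat t' = 1 := by
    unfold wmat
    simp
  rw [hw, mul_one]
  by_cases hu : wcol u = 0
  · simp [hu]
  · refine mul_le_mul_right ?_ _
    have hup := wcol_ne_zero_pos hu
    have hmask : mask S ∅ (Fin.cons u t' : Fin 1 → Fin m → ℝ)
        = Fin.cons (fun i => if i ∈ S then 1 else u i) t' := by
      funext j i
      have hj : j = 0 := Fin.eq_zero j
      subst hj
      simp [mask]
    rw [hmask]
    refine le_trans (le_of_eq ?_) (capa_one_col r c hsum _ (fun i => ?_) t')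
    · congr 1
      refine Finset.prod_congr rfl fun i _ => ?_
      by_cases hi : i ∈ S
      · simp [hx, hi]
      · simp [hx, hi]
    · by_cases hi : i ∈ S
      · simp [hi]
      · simp [hi, hup i]

end Vale.Agent.Lib.P328.CapS
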