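import Vale.Agent.Lib.P328.Cap.Main

/-!
# P328, all margins with a polynomial factor: definitions

Tables are written by columns as in `Vale.Agent.Lib.P328.Cap`: `T j i` is the entry in column `j`,
row `i`. The integrals of the capacity are taken with some rows (`S`, rows of sum at most one) and
some columns (`D`, columns of sum one) set to the constant one.
-/

namespace Vale.Agent.Lib.P328.CapS

open Finset MeasureTheory Vale.Agent.Lib.P328.Cap
open scoped ENNReal Nat

variable {m n : ℕ}

/-- The matrix `t` with the entries in the rows of `S` and in the columns of `D` set to one. -/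
def mask (S : Finset (Fin m)) (D : Finset (Fin n)) (t : Fin n → Fin m → ℝ) : Fin n → Fin m → ℝ :=
  fun j i => if i ∈ S ∨ j ∈ D then 1 else t j i

/-- The expected capacity of the masked matrix, divided by `∏ i, r i !`. -/
noncomputable def IM (r : Fin m → ℕ) (c : Fin n → ℕ) (S : Finset (Fin m)) (D : Finset (Fin n)) :
    ℝ≥0∞ :=
  (∫⁻ t : Fin n → Fin m → ℝ, wmat t * capa r c (mask S D t)) / ((∏ i, (r i)! : ℕ) : ℝ≥0∞)

/-- The rows of sum at most one. -/
def units (r : Fin m → ℕ) : Finset (Fin m) := univ.filter fun i => r i ≤ 1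

/-- The total of `x` over the rows of `S`. -/
def kS (x : Fin m → ℕ) (S : Finset (Fin m)) : ℕ := ∑ i ∈ S, x i

/-- The credit `∑ x (R - x) / (R - 1)`; a row of sum one has credit zero (division by zero). -/
noncomputable def Ypp (R x : Fin m → ℕ) : ℝ :=
  ∑ i, (x i : ℝ) * ((R i : ℝ) - x i) / ((R i : ℝ) - 1)

/-- The credit with the rows of `S` merged into one row. -/
noncomputable def YS (R : Fin m → ℕ) (S : Finset (Fin m)) (x : Fin m → ℕ) : ℝ :=
  ∑ i ∈ univ \ S, (x i : ℝ) * ((R i : ℝ) - x i) / ((R i : ℝ) - 1)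
    + (kS x S : ℝ) * ((kS R S : ℝ) - kS x S) / ((kS R S : ℝ) - 1)

/-- The Poisson point mass at the mean. -/
noncomputable def piC (c : ℕ) : ℝ := Real.exp (-(c : ℝ)) * (c : ℝ) ^ c / ((c ! : ℕ) : ℝ)

/-- The sharp constant of the one column inequality. -/
noncomputable def kappa (c : ℕ) : ℝ := (c : ℝ) * piC c

/-- The one column inequality at level `c`: the input of the main theorem. -/
def PBL (c : ℕ) : Prop :=
  ∀ (m : ℕ) (R : Fin m → ℕ) (p : Fin m → ℝ), (∀ i, R i ≠ 1) → (∀ i, 0 < p i) → (∀ i, p i < 1) →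
    ∑ i, (R i : ℝ) * p i = c → ∑ x ∈ lev R c, Ypp R x * wt R p x ≤ kappa c

/-- What is needed of a column of sum `c ≥ 2`. -/
def LevelOK (c : ℕ) : Prop := PBL c ∧ (c = 2 ∨ PBL (c - 1))

end Vale.Agent.Lib.P328.CapS
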