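import Vale.Agent.Lib.P328.CapS.Rec

/-!
# P328, all margins: transposition

`∏ (e / r) ^ r · capa r c t = ∏ (e / c) ^ c · capa c r tᵀ`: both are the capacity of the exponential
form, symmetric in rows and columns. Hence `betaC c * IM r c S D = betaC r * IM c r D S`.
-/

namespace Vale.Agent.Lib.P328.CapS

open Finset MeasureTheory Vale.Agent.Lib.P328.Cap
open scoped ENNReal Nat

variable {m n : ℕ}

theorem one_row_bound (L a : ℝ) (hL : 0 < L) (ha : 0 < a) (r : ℕ) (hr : 0 < r) :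
    L ^ r * ((r : ℝ) ^ r)⁻¹ ≤ Real.exp (a * L - r) * (a ^ r)⁻¹ := by
  have hr' : (0 : ℝ) < r := by exact_mod_cast hr
  set x := a * L / r with hx_def
  have hx : 0 < x := by positivity
  have h1 : x ≤ Real.exp (x - 1) := by
    have := Real.add_one_le_exp (x - 1)
    linarith
  have h2 : x ^ r ≤ Real.exp (x - 1) ^ r := pow_le_pow_left₀ hx.le h1 r
  rw [← Real.exp_nat_mul] at h2
  have h3 : (r : ℝ) * (x - 1) = a * L - r := by
    rw [hx_def]
    field_simp
  rw [h3] at h2
  have h4 : L ^ r * ((r : ℝ) ^ r)⁻¹ = x ^ r * (a ^ r)⁻¹ := by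
    rw [hx_def, div_pow, mul_pow]
    field_simp
  rw [h4]
  exact mul_le_mul_of_nonneg_right h2 (by positivity)

/-- The real inequality behind `capa_transpose_le`. -/
theorem term_transpose_le (r : Fin m → ℕ) (c : Fin n → ℕ) (hr : ∀ i, 0 < r i) (hc : ∀ j, 0 < c j)
    (hsum : ∑ i, r i = ∑ j, c j) (t : Fin n → Fin m → ℝ) (ht : ∀ j i, 0 < t j i)
    (a : Fin m → ℝ) (ha : ∀ i, 0 < a i) (hne : ∀ _ : Fin n, (univ : Finset (Fin m)).Nonempty) :
    ((∏ i, (∑ j, t j i * ((c j : ℝ) / ∑ i', t j i' * a i')) ^ r i)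
        / ∏ j, ((c j : ℝ) / ∑ i', t j i' * a i') ^ c j) * ∏ i, ((r i : ℝ) ^ r i)⁻¹
      ≤ ((∏ j, (∑ i, t j i * a i) ^ c j) / ∏ i, a i ^ r i) * ∏ j, ((c j : ℝ) ^ c j)⁻¹ := by
  have hD : ∀ j, 0 < ∑ i, t j i * a i := fun j =>
    Finset.sum_pos (fun i _ => mul_pos (ht j i) (ha i)) (hne j)
  set b : Fin n → ℝ := fun j => (c j : ℝ) / ∑ i', t j i' * a i' with hb
  have hc' : ∀ j, (0 : ℝ) < c j := fun j => by exact_mod_cast hc j
  have hb0 : ∀ j, 0 < b j := fun j => div_pos (hc' j) (hD j)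
  have hbD : ∀ j, b j * ∑ i, t j i * a i = c j := fun j => by
    have := hD j
    simp only [hb]
    field_simp
  -- if `m` is empty, all is trivial by the bound below with empty products as well
  by_cases hn0 : IsEmpty (Fin n)
  · have hnn : ∀ i, r i = 0 := by
      have h0 : ∑ i, r i = 0 := by rw [hsum]; exact Finset.sum_of_isEmpty _
      intro i
      exact (Finset.sum_eq_zero_iff.1 h0) i (mem_univ i)
    have hm0 : IsEmpty (Fin m) := ⟨fun i => by have := hr i; rw [hnn i] at this; omega⟩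
    simp
  · have hL : ∀ i, 0 < ∑ j, t j i * b j := by
      intro i
      rw [not_isEmpty_iff] at hn0
      exact Finset.sum_pos (fun j _ => mul_pos (ht j i) (hb0 j)) Finset.univ_nonempty
    have h1 : (∏ i, (∑ j, t j i * b j) ^ r i) * ∏ i, ((r i : ℝ) ^ r i)⁻¹
        ≤ (∏ i, a i ^ r i)⁻¹ := by
      rw [← Finset.prod_mul_distrib]
      have h2 : ∀ i ∈ (univ : Finset (Fin m)), (∑ j, t j i * b j) ^ r i * ((r i : ℝ) ^ r i)⁻¹
          ≤ Real.exp (a i * ∑ j, t j i * b j - r i) * (a i ^ r i)⁻¹ := fun i _ =>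
        one_row_bound _ _ (hL i) (ha i) _ (hr i)
      refine (Finset.prod_le_prod (fun i _ => ?_) h2).trans ?_
      · have := hL i
        have := hr i
        positivity
      · rw [Finset.prod_mul_distrib, ← Real.exp_sum, Finset.prod_inv_distrib]
        have h3 : ∑ i, (a i * ∑ j, t j i * b j - r i) = 0 := by
          rw [Finset.sum_sub_distrib]
          have h4 : ∑ i, a i * ∑ j, t j i * b j = ∑ j, (c j : ℝ) := by
            simp only [Finset.mul_sum]
            rw [Finset.sum_comm]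
            refine Finset.sum_congr rfl fun j _ => ?_
            rw [← hbD j, Finset.mul_sum]
            exact Finset.sum_congr rfl fun i _ => by ring
          rw [h4]
          have h5 : ((∑ i, r i : ℕ) : ℝ) = ((∑ j, c j : ℕ) : ℝ) := by rw [hsum]
          push_cast at h5
          linarith
        rw [h3, Real.exp_zero, one_mul]
    have hbprod : 0 < ∏ j, b j ^ c j := Finset.prod_pos fun j _ => pow_pos (hb0 j) _
    have h2 : (∏ j, b j ^ c j)⁻¹ = (∏ j, (∑ i, t j i * a i) ^ c j) * ∏ j, ((c j : ℝ) ^ c j)⁻¹ := by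
      rw [← Finset.prod_inv_distrib, ← Finset.prod_mul_distrib]
      refine Finset.prod_congr rfl fun j _ => ?_
      have := hD j
      have := hc' j
      simp only [hb]
      rw [div_pow]
      field_simp
    calc ((∏ i, (∑ j, t j i * b j) ^ r i) / ∏ j, b j ^ c j) * ∏ i, ((r i : ℝ) ^ r i)⁻¹
        = ((∏ i, (∑ j, t j i * b j) ^ r i) * ∏ i, ((r i : ℝ) ^ r i)⁻¹) * (∏ j, b j ^ c j)⁻¹ := by
          rw [div_eq_mul_inv]; ring
      _ ≤ (∏ i, a i ^ r i)⁻¹ * (∏ j, b j ^ c j)⁻¹ :=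
          mul_le_mul_of_nonneg_right h1 (inv_nonneg.2 hbprod.le)
      _ = _ := by
          rw [h2, div_eq_mul_inv]; ring

/-- One inequality of the symmetry, `r` and `c` positive. -/
theorem capa_transpose_le (r : Fin m → ℕ) (c : Fin n → ℕ) (hr : ∀ i, 0 < r i) (hc : ∀ j, 0 < c j)
    (hsum : ∑ i, r i = ∑ j, c j) (t : Fin n → Fin m → ℝ) (ht : ∀ j i, 0 < t j i) :
    capa r c t * ENNReal.ofReal (∏ i, ((r i : ℝ) ^ r i)⁻¹)
      ≤ capa c r (fun i j => t j i) * ENNReal.ofReal (∏ j, ((c j : ℝ) ^ c j)⁻¹) := by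
  have hc' : ∀ j, (0 : ℝ) < c j := fun j => by exact_mod_cast hc j
  have hr' : ∀ i, (0 : ℝ) < r i := fun i => by exact_mod_cast hr i
  have hKc : 0 < ∏ j, ((c j : ℝ) ^ c j)⁻¹ :=
    Finset.prod_pos fun j _ => inv_pos.2 (pow_pos (hc' j) _)
  have hKr : 0 < ∏ i, ((r i : ℝ) ^ r i)⁻¹ :=
    Finset.prod_pos fun i _ => inv_pos.2 (pow_pos (hr' i) _)
  have hne : ∀ _ : Fin n, (univ : Finset (Fin m)).Nonempty := by
    intro j
    by_contra h
    rw [Finset.not_nonempty_iff_eq_empty] at h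
    have h0 : ∑ i, r i = 0 := by rw [h]; simp
    rw [hsum] at h0
    have := (Finset.sum_eq_zero_iff.1 h0) j (mem_univ j)
    have := hc j
    omega
  conv_rhs => unfold capa
  rw [ENNReal.iInf_mul_of_ne (ENNReal.ofReal_pos.2 hKc).ne' ENNReal.ofReal_ne_top]
  refine le_iInf fun a => ?_
  have ha := a.2
  have hD : ∀ j, 0 < ∑ i, t j i * a.1 i := fun j =>
    Finset.sum_pos (fun i _ => mul_pos (ht j i) (ha i)) (hne j)
  have hb0 : ∀ j, 0 < (c j : ℝ) / ∑ i', t j i' * a.1 i' := fun j => div_pos (hc' j) (hD j)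
  have h1 : capa r c t ≤ ENNReal.ofReal ((∏ i, (∑ j, t j i * ((c j : ℝ) / ∑ i', t j i' * a.1 i')) ^ r i)
        / ∏ j, ((c j : ℝ) / ∑ i', t j i' * a.1 i') ^ c j) := by
    unfold capa
    exact iInf_le (fun b : {b : Fin n → ℝ // ∀ j, 0 < b j} => ENNReal.ofReal
      ((∏ i, (∑ j, t j i * b.1 j) ^ r i) / ∏ j, b.1 j ^ c j)) ⟨_, hb0⟩
  have h2 := term_transpose_le r c hr hc hsum t ht a.1 ha hne
  have hA0 : 0 ≤ (∏ i, (∑ j, t j i * ((c j : ℝ) / ∑ i', t j i' * a.1 i')) ^ r i)
        / ∏ j, ((c j : ℝ) / ∑ i', t j i' * a.1 i') ^ c j := by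
    refine div_nonneg (Finset.prod_nonneg fun i _ => pow_nonneg ?_ _)
      (Finset.prod_nonneg fun j _ => pow_nonneg (hb0 j).le _)
    exact Finset.sum_nonneg fun j _ => mul_nonneg (ht j i).le (hb0 j).le
  have hB0 : 0 ≤ (∏ j, (∑ i, t j i * a.1 i) ^ c j) / ∏ i, a.1 i ^ r i := by
    refine div_nonneg (Finset.prod_nonneg fun j _ => pow_nonneg (hD j).le _)
      (Finset.prod_nonneg fun i _ => pow_nonneg (ha i).le _)
  calc capa r c t * ENNReal.ofReal (∏ i, ((r i : ℝ) ^ r i)⁻¹)
      ≤ ENNReal.ofReal _ * ENNReal.ofReal (∏ i, ((r i : ℝ) ^ r i)⁻¹) := mul_le_mul_left h1 _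
    _ = ENNReal.ofReal (_ * ∏ i, ((r i : ℝ) ^ r i)⁻¹) := (ENNReal.ofReal_mul hA0).symm
    _ ≤ ENNReal.ofReal (((∏ j, (∑ i, t j i * a.1 i) ^ c j) / ∏ i, a.1 i ^ r i)
          * ∏ j, ((c j : ℝ) ^ c j)⁻¹) := ENNReal.ofReal_le_ofReal h2
    _ = _ := ENNReal.ofReal_mul hB0

/-- Splitting the first entry off every row. -/
theorem lintegral_colSplit (m n : ℕ) (H : (Fin m → Fin (n + 1) → ℝ) → ℝ≥0∞) (hH : Measurable H) :
    ∫⁻ s, H s = ∫⁻ p : (Fin m → ℝ) × (Fin m → Fin n → ℝ),
      H (fun i => Fin.cons (p.1 i) (p.2 i))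
      ∂((volume : Measure (Fin m → ℝ)).prod (volume : Measure (Fin m → Fin n → ℝ))) := by
  have hp0 := (volume_preserving_piFinSuccAbove (fun _ : Fin (n + 1) => ℝ) 0).symm
  have hp1 := measurePreserving_pi (ι := Fin m)
    (fun _ => (volume : Measure (ℝ × (Fin n → ℝ))))
    (fun _ => (volume : Measure (Fin (n + 1) → ℝ))) (fun _ => hp0)
  have h1 := hp1.lintegral_comp (f := H) (by simpa [volume_pi] using hH)
  have hp2 := (measurePreserving_arrowProdEquivProdArrow ℝ (Fin n → ℝ) (Fin m)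
    (fun _ => (volume : Measure ℝ)) (fun _ => (volume : Measure (Fin n → ℝ)))).symm
  have h3 : Measurable (fun a : Fin m → ℝ × (Fin n → ℝ) =>
      H (fun i => (MeasurableEquiv.piFinSuccAbove (fun _ : Fin (n + 1) => ℝ) 0).symm (a i))) :=
    hH.comp hp1.measurable
  have h2 := hp2.lintegral_comp h3
  have e : (volume : Measure (Fin m → Fin (n + 1) → ℝ))
      = Measure.pi fun _ => (volume : Measure (Fin (n + 1) → ℝ)) := volume_pi
  rw [e, ← h1]
  have e2 : (Measure.pi fun _ : Fin m => (volume : Measure (ℝ × (Fin n → ℝ))))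
      = Measure.pi fun _ : Fin m => (volume : Measure ℝ).prod (volume : Measure (Fin n → ℝ)) := rfl
  rw [e2, ← h2]
  have e3 : (volume : Measure (Fin m → ℝ)) = Measure.pi fun _ => (volume : Measure ℝ) := volume_pi
  have e4 : (volume : Measure (Fin m → Fin n → ℝ))
      = Measure.pi fun _ => (volume : Measure (Fin n → ℝ)) := volume_pi
  rw [e3, e4]
  refine lintegral_congr fun p => ?_
  congr 1
  funext i
  have h5 : (MeasurableEquiv.arrowProdEquivProdArrow ℝ (Fin n → ℝ) (Fin m)).symm p i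
      = (p.1 i, p.2 i) := rfl
  rw [h5]
  simp [MeasurableEquiv.piFinSuccAbove_symm_apply, Fin.insertNthEquiv, Fin.insertNth_zero']

/-- Flipping preserves the integral. -/
theorem lintegral_flip (m : ℕ) : ∀ (n : ℕ) (G : (Fin n → Fin m → ℝ) → ℝ≥0∞), Measurable G →
    ∫⁻ t, G t = ∫⁻ s : Fin m → Fin n → ℝ, G (fun j i => s i j) := by
  intro n
  induction n with
  | zero =>
    intro G _
    have h1 : ∀ s : Fin m → Fin 0 → ℝ, G (fun j i => s i j) = G default := by
      intro s
      congr 1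
      exact Subsingleton.elim _ _
    simp only [h1]
    rw [lintegral_const, lintegral_const]
    have h3 : (volume : Measure (Fin 0 → Fin m → ℝ)) Set.univ = 1 := by
      simp [volume_pi]
    have h4 : (volume : Measure (Fin m → Fin 0 → ℝ)) Set.univ = 1 := by
      have h5 : (volume : Measure (Fin 0 → ℝ)) Set.univ = 1 := by simp [volume_pi]
      rw [volume_pi, ← Set.pi_univ, Measure.pi_pi]
      exact Finset.prod_eq_one fun _ _ => h5
    rw [h3, h4]
  | succ n ih =>
    intro G hG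
    have hflip : Measurable fun s : Fin m → Fin (n + 1) → ℝ => G (fun j i => s i j) := by
      refine hG.comp ?_
      exact measurable_pi_iff.2 fun j => measurable_pi_iff.2 fun i =>
        (measurable_pi_apply j).comp (measurable_pi_apply i)
    rw [lintegral_cons, lintegral_colSplit m n _ hflip]
    have hG2 : Measurable fun p : (Fin m → ℝ) × (Fin n → Fin m → ℝ) => G (Fin.cons p.1 p.2) := by
      refine hG.comp ?_
      exact measurable_pi_iff.2 fun j => by
        refine Fin.cases ?_ (fun j' => ?_) j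
        · simp only [Fin.cons_zero]
          exact measurable_fst
        · simp only [Fin.cons_succ]
          exact (measurable_pi_apply j').comp measurable_snd
    have hcons : ∀ u : Fin m → ℝ, Measurable fun t' : Fin n → Fin m → ℝ => G (Fin.cons u t') :=
      fun u => hG2.comp (measurable_const.prodMk measurable_id)
    rw [lintegral_prod _ hG2.aemeasurable]
    have hG3 : Measurable fun p : (Fin m → ℝ) × (Fin m → Fin n → ℝ) =>
        G (fun j i => (Fin.cons (p.1 i) (p.2 i) : Fin (n + 1) → ℝ) j) := by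
      refine hflip.comp ?_
      refine measurable_pi_iff.2 fun i => measurable_pi_iff.2 fun j => ?_
      refine Fin.cases ?_ (fun j' => ?_) j
      · simp only [Fin.cons_zero]
        exact (measurable_pi_apply i).comp measurable_fst
      · simp only [Fin.cons_succ]
        exact (measurable_pi_apply j').comp ((measurable_pi_apply i).comp measurable_snd)
    rw [lintegral_prod _ hG3.aemeasurable]
    refine lintegral_congr fun u => ?_
    rw [ih _ (hcons u)]
    refine lintegral_congr fun s' => ?_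
    congr 1
    funext j i
    refine Fin.cases ?_ (fun j' => ?_) j <;> simp

/-- The transposition of matrices preserves the integral. -/
theorem lintegral_transpose (F : (Fin n → Fin m → ℝ) → ℝ≥0∞) (hF : Measurable F) :
    ∫⁻ t : Fin n → Fin m → ℝ, wmat t * F t
      = ∫⁻ t : Fin m → Fin n → ℝ, wmat t * F (fun j i => t i j) := by
  rw [lintegral_flip m n (fun t => wmat t * F t) (measurable_wmat.mul hF)]
  refine lintegral_congr fun s => ?_
  congr 1
  unfold wmat wcol
  exact Finset.prod_comm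

theorem mask_transpose (S : Finset (Fin m)) (D : Finset (Fin n)) (t : Fin m → Fin n → ℝ) :
    (fun i j => mask S D (fun j i => t i j) j i) = mask D S t := by
  funext i j
  unfold mask
  simp only [or_comm]

/-- The equality form of the symmetry of the capacity. -/
theorem capa_transpose (r : Fin m → ℕ) (c : Fin n → ℕ) (hr : ∀ i, 0 < r i) (hc : ∀ j, 0 < c j)
    (hsum : ∑ i, r i = ∑ j, c j) (t : Fin n → Fin m → ℝ) (ht : ∀ j i, 0 < t j i) :
    capa r c t * ENNReal.ofReal (∏ i, ((r i : ℝ) ^ r i)⁻¹)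
      = capa c r (fun i j => t j i) * ENNReal.ofReal (∏ j, ((c j : ℝ) ^ c j)⁻¹) :=
  le_antisymm (capa_transpose_le r c hr hc hsum t ht)
    (capa_transpose_le c r hc hr hsum.symm (fun i j => t j i) (fun i j => ht j i))

/-- The symmetry of the product of the van der Waerden factor and the masked integral. -/
theorem beta_IM_transpose (r : Fin m → ℕ) (c : Fin n → ℕ) (hr : ∀ i, 0 < r i) (hc : ∀ j, 0 < c j)
    (hsum : ∑ i, r i = ∑ j, c j) (S : Finset (Fin m)) (D : Finset (Fin n)) :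
    ENNReal.ofReal (betaC c) * IM r c S D = ENNReal.ofReal (betaC r) * IM c r D S := by
  have hc' : ∀ j, (0 : ℝ) < c j := fun j => by exact_mod_cast hc j
  have hr' : ∀ i, (0 : ℝ) < r i := fun i => by exact_mod_cast hr i
  set br : ℝ := ∏ i, (r i : ℝ) ^ r i with hbr
  set bc : ℝ := ∏ j, (c j : ℝ) ^ c j with hbc
  have hbr0 : 0 < br := Finset.prod_pos fun i _ => pow_pos (hr' i) _
  have hbc0 : 0 < bc := Finset.prod_pos fun j _ => pow_pos (hc' j) _
  have hinvr : ∏ i, ((r i : ℝ) ^ r i)⁻¹ = br⁻¹ := Finset.prod_inv_distrib _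
  have hinvc : ∏ j, ((c j : ℝ) ^ c j)⁻¹ = bc⁻¹ := Finset.prod_inv_distrib _
  set Ir := ∫⁻ t : Fin n → Fin m → ℝ, wmat t * capa r c (mask S D t) with hIr
  set Ic := ∫⁻ t : Fin m → Fin n → ℝ, wmat t * capa c r (mask D S t) with hIc
  have hmain : Ir * ENNReal.ofReal br⁻¹ = Ic * ENNReal.ofReal bc⁻¹ := by
    have hF : Measurable fun t : Fin n → Fin m → ℝ =>
        capa c r (mask D S (fun i j => t j i)) := by
      refine (capa_measurable c r).comp ((measurable_mask D S).comp ?_)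
      exact measurable_pi_iff.2 fun i => measurable_pi_iff.2 fun j =>
        (measurable_pi_apply i).comp (measurable_pi_apply j)
    have h1 := lintegral_transpose _ hF
    have h1' : Ic = ∫⁻ t : Fin n → Fin m → ℝ, wmat t * capa c r (mask D S (fun i j => t j i)) := by
      rw [h1]
    have hm1 : Measurable fun t : Fin n → Fin m → ℝ => wmat t * capa r c (mask S D t) :=
      measurable_wmat.mul ((capa_measurable r c).comp (measurable_mask S D))
    have hm2 : Measurable fun t : Fin n → Fin m → ℝ =>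
        wmat t * capa c r (mask D S (fun i j => t j i)) := measurable_wmat.mul hF
    rw [h1', hIr, ← lintegral_mul_const _ hm1, ← lintegral_mul_const _ hm2]
    refine lintegral_congr fun t => ?_
    by_cases h0 : wmat t = 0
    · simp [h0]
    · have htpos : ∀ j i, 0 < t j i := fun j i => by
        apply wcol_ne_zero_pos (u := t j) _ i
        intro hw
        apply h0
        unfold wmat
        exact Finset.prod_eq_zero (mem_univ j) hw
      have h2 := capa_transpose r c hr hc hsum (mask S D t) (mask_pos htpos)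
      rw [hinvr, hinvc] at h2
      have h3 : (fun i j => mask S D t j i) = mask D S (fun i j => t j i) :=
        mask_transpose S D (fun i j => t j i)
      rw [h3] at h2
      rw [mul_assoc, h2, mul_assoc]
  have hIr2 : Ir = Ic * ENNReal.ofReal (bc⁻¹ * br) := by
    have h3 : Ir * ENNReal.ofReal (br⁻¹ * br) = Ic * ENNReal.ofReal (bc⁻¹ * br) := by
      rw [ENNReal.ofReal_mul (inv_nonneg.2 hbr0.le), ENNReal.ofReal_mul (inv_nonneg.2 hbc0.le),
        ← mul_assoc, hmain, mul_assoc]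
    rwa [inv_mul_cancel₀ hbr0.ne', ENNReal.ofReal_one, mul_one] at h3
  have hNsum : ∑ j, c j = ∑ i, r i := hsum.symm
  set A : ℝ := (((∑ j, c j)! : ℕ) : ℝ) / ((∑ j, c j : ℕ) : ℝ) ^ (∑ j, c j) with hA
  have hA0 : 0 ≤ A := by positivity
  have hbetac : betaC c = A * (bc * ((∏ j, (c j)! : ℕ) : ℝ)⁻¹) := by
    unfold betaC
    rw [hA, Finset.prod_div_distrib, div_eq_mul_inv (∏ j, (c j : ℝ) ^ c j)]
    push_cast
    rfl
  have hbetar : betaC r = A * (br * ((∏ i, (r i)! : ℕ) : ℝ)⁻¹) := by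
    unfold betaC
    rw [hA, Finset.prod_div_distrib, div_eq_mul_inv (∏ i, (r i : ℝ) ^ r i), hsum]
    push_cast
    rfl
  set fr : ℝ := ((∏ i, (r i)! : ℕ) : ℝ) with hfr
  set fc : ℝ := ((∏ j, (c j)! : ℕ) : ℝ) with hfc
  have hfr0 : 0 < fr := by
    rw [hfr]
    exact_mod_cast Finset.prod_pos fun i _ => Nat.factorial_pos _
  have hfc0 : 0 < fc := by
    rw [hfc]
    exact_mod_cast Finset.prod_pos fun j _ => Nat.factorial_pos _
  have hdivr : ∀ x : ℝ≥0∞, x / ((∏ i, (r i)! : ℕ) : ℝ≥0∞) = x * ENNReal.ofReal fr⁻¹ := by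
    intro x
    rw [div_eq_mul_inv, ENNReal.ofReal_inv_of_pos hfr0, hfr, ENNReal.ofReal_natCast]
  have hdivc : ∀ x : ℝ≥0∞, x / ((∏ j, (c j)! : ℕ) : ℝ≥0∞) = x * ENNReal.ofReal fc⁻¹ := by
    intro x
    rw [div_eq_mul_inv, ENNReal.ofReal_inv_of_pos hfc0, hfc, ENNReal.ofReal_natCast]
  have hIM1 : IM r c S D = Ir / ((∏ i, (r i)! : ℕ) : ℝ≥0∞) := rfl
  have hIM2 : IM c r D S = Ic / ((∏ j, (c j)! : ℕ) : ℝ≥0∞) := rfl
  rw [hIM1, hIM2, hdivr, hdivc, hIr2, hbetac, hbetar]
  have hbcfc : 0 ≤ A * (bc * fc⁻¹) := by positivity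
  have hbrfr : 0 ≤ A * (br * fr⁻¹) := by positivity
  calc ENNReal.ofReal (A * (bc * fc⁻¹)) * (Ic * ENNReal.ofReal (bc⁻¹ * br) * ENNReal.ofReal fr⁻¹)
      = Ic * (ENNReal.ofReal (A * (bc * fc⁻¹)) * ENNReal.ofReal (bc⁻¹ * br)
          * ENNReal.ofReal fr⁻¹) := by ring
    _ = Ic * ENNReal.ofReal (A * (bc * fc⁻¹) * (bc⁻¹ * br) * fr⁻¹) := by
        rw [ENNReal.ofReal_mul (p := A * (bc * fc⁻¹) * (bc⁻¹ * br)) (by positivity),
          ENNReal.ofReal_mul (p := A * (bc * fc⁻¹)) hbcfc]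
    _ = Ic * ENNReal.ofReal (A * (br * fr⁻¹) * fc⁻¹) := by
        congr 2
        field_simp
    _ = ENNReal.ofReal (A * (br * fr⁻¹)) * (Ic * ENNReal.ofReal fc⁻¹) := by
        rw [ENNReal.ofReal_mul hbrfr]
        ring

end Vale.Agent.Lib.P328.CapS
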