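import Vale.Agent.Lib.P328.CapS.U1a

/-!
# P328, all margins: the minimizer of a homogeneous product of linear forms over the simplex
-/

namespace Vale.Agent.Lib.P328.CapS

open Finset

variable {m n : ℕ}

/-- The capacity term. -/
noncomputable def Gfun (R : Fin m → ℕ) (c : Fin n → ℕ) (t : Fin n → Fin m → ℝ) (b : Fin n → ℝ) : ℝ :=
  (∏ i, (∑ j, t j i * b j) ^ R i) / ∏ j, b j ^ c j

/-- The logarithm of the capacity term. -/
noncomputable def LogG (R : Fin m → ℕ) (c : Fin n → ℕ) (t : Fin n → Fin m → ℝ) (b : Fin n → ℝ) : ℝ :=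
  ∑ i, (R i : ℝ) * Real.log (∑ j, t j i * b j) - ∑ j, (c j : ℝ) * Real.log (b j)

/-- The degree zero potential. -/
noncomputable def LogGq (R : Fin m → ℕ) (c : Fin n → ℕ) (t : Fin n → Fin m → ℝ) (q : ℕ)
    (b : Fin n → ℝ) : ℝ :=
  LogG R c t b + ((q : ℝ) + 1) * Real.log (∑ j, b j)

theorem u1b_lin_pos (hn : 0 < n) (t : Fin n → Fin m → ℝ) (ht : ∀ j i, 0 < t j i) (b : Fin n → ℝ)
    (hb : ∀ j, 0 < b j) (i : Fin m) : 0 < ∑ j, t j i * b j := by
  have : Nonempty (Fin n) := ⟨⟨0, hn⟩⟩
  exact Finset.sum_pos (fun j _ => mul_pos (ht j i) (hb j)) Finset.univ_nonempty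

theorem u1b_sum_pos (hn : 0 < n) (b : Fin n → ℝ) (hb : ∀ j, 0 < b j) : 0 < ∑ j, b j := by
  have : Nonempty (Fin n) := ⟨⟨0, hn⟩⟩
  exact Finset.sum_pos (fun j _ => hb j) Finset.univ_nonempty

theorem Gfun_eq_exp (hn : 0 < n) (R : Fin m → ℕ) (c : Fin n → ℕ) (t : Fin n → Fin m → ℝ)
    (ht : ∀ j i, 0 < t j i) (b : Fin n → ℝ) (hb : ∀ j, 0 < b j) :
    Gfun R c t b = Real.exp (LogG R c t b) := by
  unfold Gfun LogG
  rw [Real.exp_sub, Real.exp_sum, Real.exp_sum]
  congr 1
  · refine Finset.prod_congr rfl fun i _ => ?_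
    rw [mul_comm, Real.exp_mul, Real.exp_log (u1b_lin_pos hn t ht b hb i), Real.rpow_natCast]
  · refine Finset.prod_congr rfl fun j _ => ?_
    rw [mul_comm, Real.exp_mul, Real.exp_log (hb j), Real.rpow_natCast]

theorem tangentM_eq_exp (a : Fin n → ℝ) (ha : ∀ j, 0 < a j) (q : ℕ) (b : Fin n → ℝ)
    (hb : ∀ j, 0 < b j) :
    tangentM a q b = Real.exp (((q : ℝ) + 1) * ∑ j, a j * Real.log (b j / a j)) := by
  unfold tangentM
  rw [Finset.mul_sum, Real.exp_sum]
  refine Finset.prod_congr rfl fun j _ => ?_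
  rw [Real.rpow_def_of_pos (div_pos (hb j) (ha j))]
  congr 1
  ring

theorem LogGq_homog (hn : 0 < n) (R : Fin m → ℕ) (c : Fin n → ℕ) (t : Fin n → Fin m → ℝ)
    (ht : ∀ j i, 0 < t j i) (q : ℕ) (hdeg : ∑ i, R i + (q + 1) = ∑ j, c j)
    (s : ℝ) (hs : 0 < s) (b : Fin n → ℝ) (hb : ∀ j, 0 < b j) :
    LogGq R c t q (fun j => s * b j) = LogGq R c t q b := by
  have hdeg' : ∑ i, (R i : ℝ) + ((q : ℝ) + 1) = ∑ j, (c j : ℝ) := by exact_mod_cast hdeg
  unfold LogGq LogG
  have h1 : ∀ i, Real.log (∑ j, t j i * (s * b j)) = Real.log s + Real.log (∑ j, t j i * b j) := by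
    intro i
    have : ∑ j, t j i * (s * b j) = s * ∑ j, t j i * b j := by
      rw [Finset.mul_sum]
      exact Finset.sum_congr rfl fun j _ => by ring
    rw [this, Real.log_mul hs.ne' (u1b_lin_pos hn t ht b hb i).ne']
  have h2 : ∀ j, Real.log (s * b j) = Real.log s + Real.log (b j) := fun j =>
    Real.log_mul hs.ne' (hb j).ne'
  have h3 : Real.log (∑ j, s * b j) = Real.log s + Real.log (∑ j, b j) := by
    rw [← Finset.mul_sum, Real.log_mul hs.ne' (u1b_sum_pos hn b hb).ne']
  simp only [h1, h2, h3, mul_add, Finset.sum_add_distrib]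
  have h4 : ∑ i, (R i : ℝ) * Real.log s = (∑ i, (R i : ℝ)) * Real.log s := by
    rw [Finset.sum_mul]
  have h5 : ∑ j, (c j : ℝ) * Real.log s = (∑ j, (c j : ℝ)) * Real.log s := by
    rw [Finset.sum_mul]
  rw [h4, h5, ← hdeg']
  ring

/-- A global minimizer of the potential on the positive orthant, on the simplex. -/
theorem exists_min_LogGq (hn : 0 < n) (R : Fin m → ℕ) (c : Fin n → ℕ) (t : Fin n → Fin m → ℝ)
    (ht : ∀ j i, 0 < t j i) (hc : ∀ j, 0 < c j) (q : ℕ) (hdeg : ∑ i, R i + (q + 1) = ∑ j, c j) :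
    ∃ a : Fin n → ℝ, (∀ j, 0 < a j) ∧ ∑ j, a j = 1 ∧
      ∀ b : Fin n → ℝ, (∀ j, 0 < b j) → LogGq R c t q a ≤ LogGq R c t q b := by
  classical
  have hn' : (0 : ℝ) < n := by exact_mod_cast hn
  -- a lower bound for the entries
  obtain ⟨τ, hτ, hτt⟩ : ∃ τ : ℝ, 0 < τ ∧ ∀ j i, τ ≤ t j i := by
    refine ⟨1 / (1 + ∑ j, ∑ i, 1 / t j i), ?_, fun j i => ?_⟩
    · have : 0 ≤ ∑ j, ∑ i, 1 / t j i :=
        Finset.sum_nonneg fun j _ => Finset.sum_nonneg fun i _ => (one_div_pos.2 (ht j i)).le
      positivity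
    · have h0 : ∀ j i, 0 ≤ 1 / t j i := fun j i => (one_div_pos.2 (ht j i)).le
      have h1 : 1 / t j i ≤ ∑ i, 1 / t j i :=
        Finset.single_le_sum (f := fun i => 1 / t j i) (fun i _ => h0 j i) (Finset.mem_univ i)
      have h2 : ∑ i, 1 / t j i ≤ ∑ j, ∑ i, 1 / t j i :=
        Finset.single_le_sum (f := fun j => ∑ i, 1 / t j i)
          (fun j _ => Finset.sum_nonneg fun i _ => h0 j i) (Finset.mem_univ j)
      have h3 : 0 ≤ ∑ j, ∑ i, 1 / t j i :=
        Finset.sum_nonneg fun j _ => Finset.sum_nonneg fun i _ => h0 j i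
      have htp := ht j i
      rw [div_le_iff₀ (by positivity)]
      have h4 : 1 / t j i * t j i = 1 := by field_simp
      nlinarith [mul_le_mul_of_nonneg_right (h1.trans h2) htp.le]
  set A : ℝ := (∑ i, (R i : ℝ)) * Real.log τ with hA
  set u : Fin n → ℝ := fun _ => 1 / (n : ℝ) with hu
  have hu_pos : ∀ j, 0 < u j := fun _ => by simp only [hu]; positivity
  have hu_sum : ∑ j, u j = 1 := by
    simp only [hu, Finset.sum_const, Finset.card_univ, Fintype.card_fin, nsmul_eq_mul]
    field_simp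
  set M0 : ℝ := LogGq R c t q u with hM0
  set δ : ℝ := min (1 / (n : ℝ)) (Real.exp (A - M0 - 1)) with hδ
  have hδ_pos : 0 < δ := lt_min (by positivity) (Real.exp_pos _)
  have hδ_log : Real.log δ ≤ A - M0 - 1 := by
    have : δ ≤ Real.exp (A - M0 - 1) := min_le_right _ _
    calc Real.log δ ≤ Real.log (Real.exp (A - M0 - 1)) := Real.log_le_log hδ_pos this
      _ = A - M0 - 1 := Real.log_exp _
  -- the bound on the simplex near the boundary
  have hbig : ∀ b : Fin n → ℝ, (∀ j, 0 < b j) → ∑ j, b j = 1 → (∃ j, b j < δ) →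
      M0 < LogGq R c t q b := by
    rintro b hb hb1 ⟨j0, hj0⟩
    have hb_le : ∀ j, b j ≤ 1 := fun j => by
      rw [← hb1]
      exact Finset.single_le_sum (f := b) (fun l _ => (hb l).le) (Finset.mem_univ j)
    have h1 : A ≤ ∑ i, (R i : ℝ) * Real.log (∑ j, t j i * b j) := by
      rw [hA, Finset.sum_mul]
      refine Finset.sum_le_sum fun i _ => mul_le_mul_of_nonneg_left ?_ (Nat.cast_nonneg _)
      refine Real.log_le_log hτ ?_
      calc τ = ∑ j, τ * b j := by rw [← Finset.mul_sum, hb1, mul_one]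
        _ ≤ ∑ j, t j i * b j := Finset.sum_le_sum fun j _ =>
            mul_le_mul_of_nonneg_right (hτt j i) (hb j).le
    have hneg : ∀ j, (c j : ℝ) * Real.log (b j) ≤ 0 := fun j =>
      mul_nonpos_of_nonneg_of_nonpos (Nat.cast_nonneg _) (Real.log_nonpos (hb j).le (hb_le j))
    have h2 : ∑ j, (c j : ℝ) * Real.log (b j) ≤ Real.log δ := by
      calc ∑ j, (c j : ℝ) * Real.log (b j) ≤ (c j0 : ℝ) * Real.log (b j0) := by
            rw [← Finset.add_sum_erase _ _ (Finset.mem_univ j0)]
            have := Finset.sum_nonpos (s := Finset.univ.erase j0)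
              (f := fun j => (c j : ℝ) * Real.log (b j)) (fun j _ => hneg j)
            linarith
        _ ≤ Real.log (b j0) := by
            have h1c : (1 : ℝ) ≤ c j0 := by exact_mod_cast hc j0
            have hl := Real.log_nonpos (hb j0).le (hb_le j0)
            nlinarith
        _ ≤ Real.log δ := Real.log_le_log (hb j0) hj0.le
    unfold LogGq LogG
    rw [hb1, Real.log_one, mul_zero, add_zero]
    linarith
  -- the compact set
  set K : Set (Fin n → ℝ) := Set.Icc (fun _ => δ) (fun _ => 1) ∩ {b | ∑ j, b j = 1} with hK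
  have hK_compact : IsCompact K := by
    refine isCompact_Icc.inter_right ?_
    exact isClosed_eq (by fun_prop) continuous_const
  have hu_K : u ∈ K := by
    refine ⟨⟨fun j => min_le_left _ _, fun j => ?_⟩, hu_sum⟩
    simp only [hu]
    rw [div_le_one hn']
    exact_mod_cast hn
  have hK_pos : ∀ b ∈ K, ∀ j, 0 < b j := fun b hb j => lt_of_lt_of_le hδ_pos (hb.1.1 j)
  have hcont : ContinuousOn (LogGq R c t q) K := by
    unfold LogGq LogG
    refine ContinuousOn.add (ContinuousOn.sub ?_ ?_) ?_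
    · refine continuousOn_finsetSum _ fun i _ => continuousOn_const.mul ?_
      refine ContinuousOn.log (by fun_prop) fun b hb => ?_
      exact (u1b_lin_pos hn t ht b (hK_pos b hb) i).ne'
    · refine continuousOn_finsetSum _ fun j _ => continuousOn_const.mul ?_
      refine ContinuousOn.log (by fun_prop) fun b hb => ?_
      exact (hK_pos b hb j).ne'
    · refine continuousOn_const.mul ?_
      refine ContinuousOn.log (by fun_prop) fun b hb => ?_
      exact (u1b_sum_pos hn b (hK_pos b hb)).ne'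
  obtain ⟨a, ha_K, ha_min⟩ := hK_compact.exists_isMinOn ⟨u, hu_K⟩ hcont
  have ha_pos := hK_pos a ha_K
  have ha_le_M0 : LogGq R c t q a ≤ M0 := ha_min hu_K
  refine ⟨a, ha_pos, ha_K.2, fun b hb => ?_⟩
  -- normalize b
  set s : ℝ := (∑ j, b j)⁻¹ with hs
  have hsum_pos := u1b_sum_pos hn b hb
  have hs_pos : 0 < s := inv_pos.2 hsum_pos
  set b' : Fin n → ℝ := fun j => s * b j with hb'
  have hb'_pos : ∀ j, 0 < b' j := fun j => mul_pos hs_pos (hb j)
  have hb'_sum : ∑ j, b' j = 1 := by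
    simp only [hb']
    rw [← Finset.mul_sum, hs, inv_mul_cancel₀ hsum_pos.ne']
  have hhom : LogGq R c t q b' = LogGq R c t q b := LogGq_homog hn R c t ht q hdeg s hs_pos b hb
  rw [← hhom]
  by_cases hsmall : ∃ j, b' j < δ
  · exact ha_le_M0.trans (hbig b' hb'_pos hb'_sum hsmall).le
  · push Not at hsmall
    refine ha_min ⟨⟨hsmall, fun j => ?_⟩, hb'_sum⟩
    rw [← hb'_sum]
    exact Finset.single_le_sum (f := b') (fun l _ => (hb'_pos l).le) (Finset.mem_univ j)

/-- Stationarity at a minimizer. -/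
theorem u1b_stationary (hn : 0 < n) (R : Fin m → ℕ) (c : Fin n → ℕ) (t : Fin n → Fin m → ℝ)
    (ht : ∀ j i, 0 < t j i) (q : ℕ) (a : Fin n → ℝ) (ha : ∀ j, 0 < a j) (ha1 : ∑ j, a j = 1)
    (hmin : ∀ b : Fin n → ℝ, (∀ j, 0 < b j) → LogGq R c t q a ≤ LogGq R c t q b) (j : Fin n) :
    ∑ i, (R i : ℝ) * (t j i * a j / ∑ l, t l i * a l) + ((q : ℝ) + 1) * a j = c j := by
  classical
  set Ai : Fin m → ℝ := fun i => ∑ l, t l i * a l with hAi
  have hAi_pos : ∀ i, 0 < Ai i := fun i => u1b_lin_pos hn t ht a ha i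
  -- the section of the potential
  set φ : ℝ → ℝ := fun y => LogGq R c t q (fun l => a l + if l = j then y else 0) with hφ
  have hφ_eq : φ = fun y => ∑ i, (R i : ℝ) * Real.log (Ai i + t j i * y)
      - ∑ l, (c l : ℝ) * Real.log (a l + if l = j then y else 0)
      + ((q : ℝ) + 1) * Real.log (1 + y) := by
    funext y
    simp only [hφ, LogGq, LogG]
    have h1 : ∀ i, ∑ l, t l i * (a l + if l = j then y else 0) = Ai i + t j i * y := by
      intro i
      simp only [mul_add, Finset.sum_add_distrib, hAi, mul_ite, mul_zero, Finset.sum_ite_eq',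
        Finset.mem_univ, if_true]
    have h2 : ∑ l, (a l + if l = j then y else 0) = 1 + y := by
      simp only [Finset.sum_add_distrib, ha1, Finset.sum_ite_eq', Finset.mem_univ, if_true]
    simp only [h1, h2]
  have hder : HasDerivAt φ (∑ i, (R i : ℝ) * (t j i / Ai i) - (c j : ℝ) * (1 / a j)
      + ((q : ℝ) + 1) * 1) 0 := by
    rw [hφ_eq]
    have h1 : HasDerivAt (fun y => ∑ i, (R i : ℝ) * Real.log (Ai i + t j i * y))
        (∑ i, (R i : ℝ) * (t j i / Ai i)) 0 := by
      refine HasDerivAt.fun_sum fun i _ => ?_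
      refine HasDerivAt.const_mul _ ?_
      have h0 : HasDerivAt (fun y => Ai i + t j i * y) (t j i) 0 := by
        simpa using ((hasDerivAt_id (0 : ℝ)).const_mul (t j i)).const_add (Ai i)
      have h00 : Ai i + t j i * 0 ≠ 0 := by simpa using (hAi_pos i).ne'
      have := h0.log h00
      simpa using this
    have h2 : HasDerivAt (fun y => ∑ l, (c l : ℝ) * Real.log (a l + if l = j then y else 0))
        ((c j : ℝ) * (1 / a j)) 0 := by
      have h20 : ∀ l ∈ (Finset.univ : Finset (Fin n)),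
          HasDerivAt (fun y => (c l : ℝ) * Real.log (a l + if l = j then y else 0))
            ((c l : ℝ) * ((if l = j then 1 else 0) / a l)) 0 := by
        intro l _
        refine HasDerivAt.const_mul _ ?_
        have h0 : HasDerivAt (fun y : ℝ => a l + if l = j then y else 0)
            (if l = j then 1 else 0) 0 := by
          by_cases hl : l = j
          · simp only [hl, if_true]
            simpa using (hasDerivAt_id (0 : ℝ)).const_add (a j)
          · simp only [hl, if_false]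
            simpa using hasDerivAt_const (0 : ℝ) (a l + 0)
        have h00 : a l + (if l = j then (0 : ℝ) else 0) ≠ 0 := by
          simpa using (ha l).ne'
        have := h0.log h00
        simpa using this
      have h3 := HasDerivAt.fun_sum h20
      have h4 : ∑ l, (c l : ℝ) * ((if l = j then (1 : ℝ) else 0) / a l) = (c j : ℝ) * (1 / a j) := by
        rw [Finset.sum_eq_single j]
        · simp
        · intro l _ hl
          simp [hl]
        · simp
      rwa [h4] at h3
    have h3 : HasDerivAt (fun y : ℝ => ((q : ℝ) + 1) * Real.log (1 + y)) (((q : ℝ) + 1) * 1) 0 := by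
      refine HasDerivAt.const_mul _ ?_
      have h0 : HasDerivAt (fun y : ℝ => 1 + y) 1 0 := by
        simpa using (hasDerivAt_id (0 : ℝ)).const_add 1
      have := h0.log (by norm_num)
      simpa using this
    exact (h1.sub h2).add h3
  have hlocmin : IsLocalMin φ 0 := by
    have h0 : φ 0 = LogGq R c t q a := by
      simp [hφ]
    have hnhds : Set.Ioo (-a j) (a j) ∈ nhds (0 : ℝ) :=
      Ioo_mem_nhds (by linarith [ha j]) (ha j)
    filter_upwards [hnhds] with y hy
    rw [h0]
    refine hmin _ fun l => ?_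
    by_cases hl : l = j
    · subst hl
      simp only [if_true]
      linarith [hy.1]
    · simp only [hl, if_false, add_zero]
      exact ha l
  have hzero := hlocmin.hasDerivAt_eq_zero hder
  have hne := (ha j).ne'
  have hsum : ∑ i, (R i : ℝ) * (t j i * a j / Ai i) = (∑ i, (R i : ℝ) * (t j i / Ai i)) * a j := by
    rw [Finset.sum_mul]
    refine Finset.sum_congr rfl fun i _ => ?_
    rw [mul_assoc, div_mul_eq_mul_div]
  have hc : (c j : ℝ) * (1 / a j) * a j = c j := by field_simp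
  show ∑ i, (R i : ℝ) * (t j i * a j / Ai i) + ((q : ℝ) + 1) * a j = c j
  rw [hsum]
  have := congrArg (· * a j) hzero
  simp only [zero_mul, add_mul, sub_mul, hc] at this
  linarith

/-- The tangent inequality, from Gibbs on each row. -/
theorem tangent_of_stationary (hn : 0 < n) (R : Fin m → ℕ) (c : Fin n → ℕ) (t : Fin n → Fin m → ℝ)
    (ht : ∀ j i, 0 < t j i) (q : ℕ) (a : Fin n → ℝ) (ha : ∀ j, 0 < a j)
    (hst : ∀ j, ∑ i, (R i : ℝ) * (t j i * a j / ∑ l, t l i * a l) + ((q : ℝ) + 1) * a j = c j)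
    (b : Fin n → ℝ) (hb : ∀ j, 0 < b j) :
    LogG R c t a ≤ LogG R c t b + ((q : ℝ) + 1) * ∑ j, a j * Real.log (b j / a j) := by
  classical
  set Ai : Fin m → ℝ := fun i => ∑ l, t l i * a l with hAi
  have hAi_pos : ∀ i, 0 < Ai i := fun i => u1b_lin_pos hn t ht a ha i
  set lr : Fin n → ℝ := fun j => Real.log (b j / a j) with hlr
  -- Gibbs on row i
  have hrow : ∀ i, Real.log (Ai i) + ∑ j, (t j i * a j / Ai i) * lr j
      ≤ Real.log (∑ j, t j i * b j) := by
    intro i
    have hw : ∀ j, 0 < t j i * a j / Ai i := fun j =>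
      div_pos (mul_pos (ht j i) (ha j)) (hAi_pos i)
    have hw1 : ∑ j, t j i * a j / Ai i = 1 := by
      rw [← Finset.sum_div]
      exact div_self (hAi_pos i).ne'
    have hx : ∀ j, 0 < t j i * b j := fun j => mul_pos (ht j i) (hb j)
    have hG := log_sum_ge (fun j => t j i * a j / Ai i) (fun j => t j i * b j) hw hw1 hx
    refine le_trans (le_of_eq ?_) hG
    have hterm : ∀ j, Real.log (t j i * b j / (t j i * a j / Ai i))
        = Real.log (Ai i) + lr j := by
      intro j
      have hne1 := (ht j i).ne'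
      have hne2 := (ha j).ne'
      have hne3 := (hAi_pos i).ne'
      have : t j i * b j / (t j i * a j / Ai i) = Ai i * (b j / a j) := by
        field_simp
      rw [this, Real.log_mul hne3 (div_pos (hb j) (ha j)).ne']
    simp only [hterm, mul_add, Finset.sum_add_distrib]
    rw [← Finset.sum_mul, hw1, one_mul]
  -- sum the rows
  have hsum : ∑ i, (R i : ℝ) * Real.log (Ai i)
      + ∑ j, ((c j : ℝ) - ((q : ℝ) + 1) * a j) * lr j
      ≤ ∑ i, (R i : ℝ) * Real.log (∑ j, t j i * b j) := by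
    have h1 : ∑ j, ((c j : ℝ) - ((q : ℝ) + 1) * a j) * lr j
        = ∑ i, (R i : ℝ) * ∑ j, (t j i * a j / Ai i) * lr j := by
      simp only [Finset.mul_sum]
      rw [Finset.sum_comm]
      refine Finset.sum_congr rfl fun j _ => ?_
      have h2 : (c j : ℝ) - ((q : ℝ) + 1) * a j = ∑ i, (R i : ℝ) * (t j i * a j / Ai i) := by
        rw [← hst j]; ring
      rw [h2, Finset.sum_mul]
      refine Finset.sum_congr rfl fun i _ => ?_
      ring
    rw [h1, ← Finset.sum_add_distrib]
    refine Finset.sum_le_sum fun i _ => ?_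
    rw [← mul_add]
    exact mul_le_mul_of_nonneg_left (hrow i) (Nat.cast_nonneg _)
  have hlogb : ∀ j, Real.log (b j) = Real.log (a j) + lr j := by
    intro j
    simp only [hlr]
    rw [Real.log_div (hb j).ne' (ha j).ne']
    ring
  unfold LogG
  simp only [hlogb, mul_add, Finset.sum_add_distrib]
  have h5 : ((q : ℝ) + 1) * ∑ j, a j * lr j = ∑ j, ((q : ℝ) + 1) * a j * lr j := by
    rw [Finset.mul_sum]
    exact Finset.sum_congr rfl fun j _ => by ring
  have h6 : ∑ j, ((c j : ℝ) - ((q : ℝ) + 1) * a j) * lr j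
      = ∑ j, (c j : ℝ) * lr j - ∑ j, ((q : ℝ) + 1) * a j * lr j := by
    rw [← Finset.sum_sub_distrib]
    exact Finset.sum_congr rfl fun j _ => by ring
  rw [h6] at hsum
  rw [h5]
  linarith

/-- A minimizer `a` of `Gfun` on the simplex: interior, and `Gfun` dominates the tangent form.
`Gfun` has degree `-(q + 1)`. -/
theorem exists_min (hn : 0 < n) (R : Fin m → ℕ) (c : Fin n → ℕ) (t : Fin n → Fin m → ℝ)
    (ht : ∀ j i, 0 < t j i) (hc : ∀ j, 0 < c j) (q : ℕ) (hdeg : ∑ i, R i + (q + 1) = ∑ j, c j) :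
    ∃ a : Fin n → ℝ, (∀ j, 0 < a j) ∧ ∑ j, a j = 1 ∧ ∀ b : Fin n → ℝ, (∀ j, 0 < b j) →
      Gfun R c t a ≤ Gfun R c t b * tangentM a q b := by
  obtain ⟨a, ha, ha1, hmin⟩ := exists_min_LogGq hn R c t ht hc q hdeg
  refine ⟨a, ha, ha1, fun b hb => ?_⟩
  have hst := u1b_stationary hn R c t ht q a ha ha1 hmin
  have hle := tangent_of_stationary hn R c t ht q a ha hst b hb
  rw [Gfun_eq_exp hn R c t ht a ha, Gfun_eq_exp hn R c t ht b hb, tangentM_eq_exp a ha q b hb,
    ← Real.exp_add]
  exact Real.exp_le_exp.2 hle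

end Vale.Agent.Lib.P328.CapS
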