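import Vale.Agent.Lib.P328.CapS.U1a
import Vale.Agent.Lib.P328.Cap.Int

/-!
# P328, all margins: the two expectations of the unit row lemma

`v` is a vector of independent exponential variables, set to one on the coordinates in `D`.
-/

namespace Vale.Agent.Lib.P328.CapS

open Finset MeasureTheory Vale.Agent.Lib.P328.Cap
open scoped ENNReal

variable {n : ℕ}

/-- The vector `v` set to one on `D`. -/
def vmask (D : Finset (Fin n)) (v : Fin n → ℝ) : Fin n → ℝ := fun j => if j ∈ D then 1 else v j

theorem Gamma_one_add_ge {a : ℝ} (ha : 0 < a) : Real.exp (-(a * Real.log Real.pi)) ≤ Real.Gamma (1 + a) := by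
  have hconv := Real.convexOn_log_Gamma
  have h12 : (1 / 2 : ℝ) ∈ Set.Ioi (0 : ℝ) := by norm_num
  have h1a : (1 + a : ℝ) ∈ Set.Ioi (0 : ℝ) := by
    simp only [Set.mem_Ioi]
    linarith
  have hden : (0 : ℝ) < 1 + 2 * a := by linarith
  have hl0 : (0 : ℝ) ≤ 2 * a / (1 + 2 * a) := by positivity
  have hm0 : (0 : ℝ) ≤ 1 / (1 + 2 * a) := by positivity
  have hlm : 2 * a / (1 + 2 * a) + 1 / (1 + 2 * a) = 1 := by
    field_simp
    ring
  have h := hconv.2 h12 h1a hl0 hm0 hlm
  have hpt : (2 * a / (1 + 2 * a)) • (1 / 2 : ℝ) + (1 / (1 + 2 * a)) • (1 + a) = 1 := by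
    simp only [smul_eq_mul]
    field_simp
    ring
  rw [hpt] at h
  simp only [Function.comp_apply, Real.Gamma_one, Real.log_one, Real.Gamma_one_half_eq,
    smul_eq_mul] at h
  have hsq : Real.log (Real.sqrt Real.pi) = Real.log Real.pi / 2 := by
    rw [Real.log_sqrt Real.pi_pos.le]
  rw [hsq] at h
  have hG : 0 < Real.Gamma (1 + a) := Real.Gamma_pos_of_pos (by linarith)
  have h2 : -(a * Real.log Real.pi) ≤ Real.log (Real.Gamma (1 + a)) := by
    have h3 : 0 ≤ (2 * a * (Real.log Real.pi / 2) + Real.log (Real.Gamma (1 + a))) / (1 + 2 * a) := by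
      refine le_trans h (le_of_eq ?_)
      field_simp
    have h4 := (div_nonneg_iff.1 h3)
    rcases h4 with h4 | h4
    · linarith [h4.1]
    · linarith [h4.2]
  calc Real.exp (-(a * Real.log Real.pi)) ≤ Real.exp (Real.log (Real.Gamma (1 + a))) :=
        Real.exp_le_exp.2 h2
    _ = Real.Gamma (1 + a) := Real.exp_log hG

theorem lintegral_expDens_rpow {a : ℝ} (ha : 0 < a) :
    ∫⁻ y, expDens y * ENNReal.ofReal (y ^ a) = ENNReal.ofReal (Real.Gamma (1 + a)) := by
  have h1 : (fun y : ℝ => expDens y * ENNReal.ofReal (y ^ a))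
      = (Set.Ioi (0 : ℝ)).indicator fun y => ENNReal.ofReal (Real.exp (-y) * y ^ ((1 + a) - 1)) := by
    funext y
    by_cases hy : 0 < y
    · rw [Set.indicator_of_mem (Set.mem_Ioi.2 hy)]
      unfold expDens
      rw [if_pos hy, ← ENNReal.ofReal_mul (Real.exp_pos _).le]
      congr 2
      rw [add_sub_cancel_left]
    · rw [Set.indicator_of_notMem (by simpa using hy)]
      unfold expDens
      rw [if_neg hy, zero_mul]
  rw [h1, lintegral_indicator measurableSet_Ioi]
  have hk : (0 : ℝ) < 1 + a := by linarith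
  have hint := Real.GammaIntegral_convergent hk
  rw [← ofReal_integral_eq_lintegral_ofReal hint]
  · rw [← Real.Gamma_eq_integral hk]
  · filter_upwards [ae_restrict_mem measurableSet_Ioi] with y hy
    have : (0 : ℝ) < y := hy
    positivity

/-- The one dimensional comparison, no calculus: `y (y - 2) (ψ y - ψ 2) ≤ 0` for decreasing `ψ`. -/
theorem one_dim_parts (u A : ℝ) (hu : 0 < u) (hA : 0 ≤ A) :
    ∫⁻ y, expDens y * ENNReal.ofReal (y ^ 2 / (u * y + A))
      ≤ 2 * ∫⁻ y, expDens y * ENNReal.ofReal (y / (u * y + A)) := by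
  set ψ2 : ℝ := 1 / (u * 2 + A) with hψ2
  have hψ2pos : 0 < ψ2 := by
    rw [hψ2]
    positivity
  have hmeasD : Measurable fun y : ℝ => u * y + A := (measurable_const.mul measurable_id).add_const _
  have hm1 : Measurable fun y : ℝ => expDens y * ENNReal.ofReal (y ^ 2 / (u * y + A)) :=
    measurable_expDens.mul (((measurable_id.pow_const 2).div hmeasD).ennreal_ofReal)
  have hm2 : Measurable fun y : ℝ => expDens y * ENNReal.ofReal (y / (u * y + A)) :=
    measurable_expDens.mul ((measurable_id.div hmeasD).ennreal_ofReal)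
  have hm3 : Measurable fun y : ℝ => expDens y * ENNReal.ofReal (2 * y * ψ2) :=
    measurable_expDens.mul (((measurable_const.mul measurable_id).mul_const _).ennreal_ofReal)
  have hm4 : Measurable fun y : ℝ => expDens y * ENNReal.ofReal (y ^ 2 * ψ2) :=
    measurable_expDens.mul (((measurable_id.pow_const 2).mul_const _).ennreal_ofReal)
  -- the pointwise inequality
  have hpt : ∀ y : ℝ, expDens y * ENNReal.ofReal (y ^ 2 / (u * y + A))
      + expDens y * ENNReal.ofReal (2 * y * ψ2)
      ≤ 2 * (expDens y * ENNReal.ofReal (y / (u * y + A)))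
        + expDens y * ENNReal.ofReal (y ^ 2 * ψ2) := by
    intro y
    by_cases hy : 0 < y
    · have hD : 0 < u * y + A := by positivity
      have hD2 : 0 < u * 2 + A := by positivity
      have hreal : y ^ 2 / (u * y + A) + 2 * y * ψ2 ≤ 2 * (y / (u * y + A)) + y ^ 2 * ψ2 := by
        rw [hψ2]
        have h1 : y ^ 2 / (u * y + A) + 2 * y * (1 / (u * 2 + A))
            - (2 * (y / (u * y + A)) + y ^ 2 * (1 / (u * 2 + A)))
            = - (u * y * (y - 2) ^ 2) / ((u * y + A) * (u * 2 + A)) := by
          field_simp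
          ring
        have h2 : - (u * y * (y - 2) ^ 2) / ((u * y + A) * (u * 2 + A)) ≤ 0 := by
          apply div_nonpos_of_nonpos_of_nonneg
          · have : 0 ≤ u * y * (y - 2) ^ 2 := by positivity
            linarith
          · positivity
        linarith
      have h3 : (2 : ℝ≥0∞) * (expDens y * ENNReal.ofReal (y / (u * y + A)))
          = expDens y * ENNReal.ofReal (2 * (y / (u * y + A))) := by
        rw [ENNReal.ofReal_mul (by norm_num : (0 : ℝ) ≤ 2)]
        simp only [ENNReal.ofReal_ofNat]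
        ring
      rw [h3, ← mul_add, ← mul_add, ← ENNReal.ofReal_add (by positivity) (by positivity),
        ← ENNReal.ofReal_add (by positivity) (by positivity)]
      exact mul_le_mul_right (ENNReal.ofReal_le_ofReal hreal) _
    · have : expDens y = 0 := by
        unfold expDens
        rw [if_neg hy]
      simp [this]
  -- the moments
  have hmom1 : ∫⁻ y, expDens y * ENNReal.ofReal (2 * y * ψ2) = ENNReal.ofReal (2 * ψ2) := by
    have h := lintegral_expDens_pow 1
    simp only [pow_one, Nat.factorial_one, Nat.cast_one] at h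
    have h2 : ∀ y : ℝ, expDens y * ENNReal.ofReal (2 * y * ψ2)
        = ENNReal.ofReal (2 * ψ2) * (expDens y * ENNReal.ofReal y) := by
      intro y
      by_cases hy : 0 < y
      · rw [show 2 * y * ψ2 = (2 * ψ2) * y by ring, ENNReal.ofReal_mul (by positivity)]
        ring
      · have : expDens y = 0 := by
          unfold expDens
          rw [if_neg hy]
        simp [this]
    simp only [h2]
    rw [lintegral_const_mul' _ _ ENNReal.ofReal_ne_top, h, mul_one]
  have hmom2 : ∫⁻ y, expDens y * ENNReal.ofReal (y ^ 2 * ψ2) = ENNReal.ofReal (2 * ψ2) := by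
    have h := lintegral_expDens_pow 2
    have h2 : ∀ y : ℝ, expDens y * ENNReal.ofReal (y ^ 2 * ψ2)
        = ENNReal.ofReal ψ2 * (expDens y * ENNReal.ofReal (y ^ 2)) := by
      intro y
      rw [mul_comm (y ^ 2) ψ2, ENNReal.ofReal_mul hψ2pos.le]
      ring
    simp only [h2]
    rw [lintegral_const_mul' _ _ ENNReal.ofReal_ne_top, h]
    rw [mul_comm (2 : ℝ) ψ2, ENNReal.ofReal_mul hψ2pos.le]
    congr 1
    simp [Nat.factorial]
  have hint := lintegral_mono (μ := volume) hpt
  rw [lintegral_add_left hm1, hmom1, lintegral_add_left (hm2.const_mul _), hmom2,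
    lintegral_const_mul _ hm2] at hint
  exact (ENNReal.add_le_add_iff_right ENNReal.ofReal_ne_top).1 hint

/-- Integrating out one coordinate. -/
theorem lintegral_coord {k : ℕ} (j : Fin (k + 1)) (f : (Fin (k + 1) → ℝ) → ℝ≥0∞)
    (hf : Measurable f) :
    ∫⁻ v, f v = ∫⁻ w : Fin k → ℝ, ∫⁻ y : ℝ, f (j.insertNth y w) := by
  have h := (volume_preserving_piFinSuccAbove (fun _ : Fin (k + 1) => ℝ) j).symm
  have h2 := h.lintegral_comp hf
  rw [← h2]
  have hmeas : Measurable fun p : ℝ × (Fin k → ℝ) =>
      f ((MeasurableEquiv.piFinSuccAbove (fun _ : Fin (k + 1) => ℝ) j).symm p) :=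
    hf.comp (MeasurableEquiv.measurable _)
  rw [Measure.volume_eq_prod, lintegral_prod_symm _ hmeas.aemeasurable]
  rfl

theorem wcol_insertNth {k : ℕ} (j : Fin (k + 1)) (y : ℝ) (w : Fin k → ℝ) :
    wcol (j.insertNth y w : Fin (k + 1) → ℝ) = expDens y * wcol w := by
  unfold wcol
  rw [Fin.prod_univ_succAbove _ j]
  simp

theorem measurable_vmask (D : Finset (Fin n)) : Measurable (vmask D) := by
  refine measurable_pi_iff.2 fun j => ?_
  unfold vmask
  by_cases hj : j ∈ D
  · simp [hj]
  · simpa [hj] using measurable_pi_apply j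

theorem measurable_tbar_vmask (a : Fin n → ℝ) (D : Finset (Fin n)) :
    Measurable fun v => tbar a (vmask D v) := by
  unfold tbar
  exact Finset.measurable_sum _ fun j _ =>
    measurable_const.mul ((measurable_pi_apply j).comp (measurable_vmask D))

theorem measurable_sbar_vmask (a : Fin n → ℝ) (D : Finset (Fin n)) :
    Measurable fun v => sbar a (vmask D v) := by
  unfold sbar
  exact Finset.measurable_sum _ fun j _ =>
    measurable_const.mul (((measurable_pi_apply j).comp (measurable_vmask D)).pow_const 2)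

theorem vmask_pos (D : Finset (Fin n)) {v : Fin n → ℝ} (hv : ∀ j, 0 < v j) :
    ∀ j, 0 < vmask D v j := by
  intro j
  unfold vmask
  by_cases hj : j ∈ D
  · simp [hj]
  · simp [hj, hv j]

theorem tbar_pos (a v : Fin n → ℝ) (ha : ∀ j, 0 < a j) (hsum : ∑ j, a j = 1)
    (hv : ∀ j, 0 < v j) : 0 < tbar a v := by
  unfold tbar
  have hne : (univ : Finset (Fin n)).Nonempty := by
    by_contra hcon
    rw [Finset.not_nonempty_iff_eq_empty] at hcon
    rw [hcon] at hsum
    simp at hsum
  exact Finset.sum_pos (fun j _ => mul_pos (ha j) (hv j)) hne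

/-- `E[t̄] = 1`. -/
theorem exp_tbar (a : Fin n → ℝ) (ha : ∀ j, 0 < a j) (hsum : ∑ j, a j = 1) (D : Finset (Fin n)) :
    ∫⁻ v : Fin n → ℝ, wcol v * ENNReal.ofReal (tbar a (vmask D v)) = 1 := by
  have h1 : ∀ v : Fin n → ℝ, wcol v * ENNReal.ofReal (tbar a (vmask D v))
      = ∑ j, ENNReal.ofReal (a j) * (wcol v * ENNReal.ofReal (vmask D v j)) := by
    intro v
    by_cases hv : wcol v = 0
    · simp [hv]
    · have hp := vmask_pos D (wcol_ne_zero_pos hv)
      unfold tbar
      rw [ENNReal.ofReal_sum_of_nonneg fun j _ => mul_nonneg (ha j).le (hp j).le, Finset.mul_sum]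
      refine Finset.sum_congr rfl fun j _ => ?_
      rw [ENNReal.ofReal_mul (ha j).le]
      ring
  simp only [h1]
  have hmj : ∀ j, Measurable fun v : Fin n → ℝ => wcol v * ENNReal.ofReal (vmask D v j) := fun j =>
    measurable_wcol.mul (((measurable_pi_apply j).comp (measurable_vmask D)).ennreal_ofReal)
  have hmj' : ∀ j ∈ (univ : Finset (Fin n)), Measurable fun v : Fin n → ℝ =>
      ENNReal.ofReal (a j) * (wcol v * ENNReal.ofReal (vmask D v j)) := fun j _ =>
    (hmj j).const_mul _
  rw [lintegral_finsetSum _ hmj']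
  have h2 : ∀ j, ∫⁻ v : Fin n → ℝ, wcol v * ENNReal.ofReal (vmask D v j) = 1 := by
    intro j
    by_cases hj : j ∈ D
    · have := lintegral_wcol_mul (m := n) (fun _ => 0)
      simpa [vmask, hj] using this
    · have := lintegral_wcol_mul (m := n) (Pi.single j 1)
      have h3 : ∀ v : Fin n → ℝ, ∏ i, v i ^ (Pi.single j 1 : Fin n → ℕ) i = v j := by
        intro v
        rw [Finset.prod_eq_single j]
        · simp
        · intro b _ hb
          simp [hb]
        · simp
      simp only [h3] at this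
      have h4 : ∏ i, ((Pi.single j 1 : Fin n → ℕ) i).factorial = 1 := by
        refine Finset.prod_eq_one fun i _ => ?_
        by_cases hi : i = j
        · subst hi
          simp
        · simp [hi]
      rw [h4] at this
      simpa [vmask, hj] using this
  have h3 : ∀ j, ∫⁻ v : Fin n → ℝ, ENNReal.ofReal (a j) * (wcol v * ENNReal.ofReal (vmask D v j))
      = ENNReal.ofReal (a j) := by
    intro j
    rw [lintegral_const_mul _ (hmj j), h2 j, mul_one]
  simp only [h3]
  rw [← ENNReal.ofReal_sum_of_nonneg fun j _ => (ha j).le, hsum, ENNReal.ofReal_one]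

/-- The coordinate comparison behind `exp_ratio`. -/
theorem exp_ratio_coord (a : Fin n → ℝ) (ha : ∀ j, 0 < a j) (hsum : ∑ j, a j = 1)
    (D : Finset (Fin n)) (j : Fin n) :
    ∫⁻ v : Fin n → ℝ, wcol v * ENNReal.ofReal (a j * vmask D v j ^ 2 / tbar a (vmask D v))
      ≤ 2 * ∫⁻ v : Fin n → ℝ, wcol v * ENNReal.ofReal (a j * vmask D v j / tbar a (vmask D v)) := by
  have hmT := measurable_tbar_vmask a D
  have hmv : Measurable fun v : Fin n → ℝ => vmask D v j :=
    (measurable_pi_apply j).comp (measurable_vmask D)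
  have hm2 : Measurable fun v : Fin n → ℝ =>
      wcol v * ENNReal.ofReal (a j * vmask D v j ^ 2 / tbar a (vmask D v)) :=
    measurable_wcol.mul (((measurable_const.mul (hmv.pow_const 2)).div hmT).ennreal_ofReal)
  have hm1 : Measurable fun v : Fin n → ℝ =>
      wcol v * ENNReal.ofReal (a j * vmask D v j / tbar a (vmask D v)) :=
    measurable_wcol.mul (((measurable_const.mul hmv).div hmT).ennreal_ofReal)
  by_cases hj : j ∈ D
  · have h1 : ∀ v : Fin n → ℝ, a j * vmask D v j ^ 2 / tbar a (vmask D v)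
        = a j * vmask D v j / tbar a (vmask D v) := by
      intro v
      simp [vmask, hj]
    simp only [h1]
    calc _ = 1 * ∫⁻ v : Fin n → ℝ, wcol v
              * ENNReal.ofReal (a j * vmask D v j / tbar a (vmask D v)) := by rw [one_mul]
      _ ≤ _ := by
          refine mul_le_mul_left ?_ _
          norm_num
  -- `j` is a free coordinate
  obtain ⟨k, rfl⟩ : ∃ k, n = k + 1 := ⟨n - 1, by have := j.isLt; omega⟩
  rw [lintegral_coord j _ hm2, lintegral_coord j _ hm1,
    ← lintegral_const_mul' _ _ (by simp : (2 : ℝ≥0∞) ≠ ⊤)]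
  refine lintegral_mono fun w => ?_
  set A : ℝ := ∑ l : Fin k, a (j.succAbove l) * (if j.succAbove l ∈ D then 1 else w l) with hA
  by_cases hw : wcol w = 0
  · simp [wcol_insertNth, hw]
  have hwp := wcol_ne_zero_pos hw
  have hA0 : 0 ≤ A := Finset.sum_nonneg fun l _ => by
    have h1 := ha (j.succAbove l)
    have h2 := hwp l
    by_cases hl : j.succAbove l ∈ D
    · simp [hl, h1.le]
    · simp only [hl, if_false]
      positivity
  have hvm : ∀ y, vmask D (j.insertNth y w : Fin (k + 1) → ℝ) j = y := by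
    intro y
    simp [vmask, hj]
  have hT : ∀ y, tbar a (vmask D (j.insertNth y w : Fin (k + 1) → ℝ)) = a j * y + A := by
    intro y
    unfold tbar
    rw [Fin.sum_univ_succAbove _ j, hvm]
    congr 1
    refine Finset.sum_congr rfl fun l _ => ?_
    unfold vmask
    by_cases hl : j.succAbove l ∈ D
    · simp [hl]
    · simp [hl]
  simp only [wcol_insertNth, hvm, hT]
  have h1 := one_dim_parts (a j) A (ha j) hA0
  have hrew2 : ∀ y : ℝ, expDens y * wcol w * ENNReal.ofReal (a j * y ^ 2 / (a j * y + A))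
      = (ENNReal.ofReal (a j) * wcol w) * (expDens y * ENNReal.ofReal (y ^ 2 / (a j * y + A))) := by
    intro y
    rw [mul_div_assoc, ENNReal.ofReal_mul (ha j).le]
    ring
  have hrew1 : ∀ y : ℝ, expDens y * wcol w * ENNReal.ofReal (a j * y / (a j * y + A))
      = (ENNReal.ofReal (a j) * wcol w) * (expDens y * ENNReal.ofReal (y / (a j * y + A))) := by
    intro y
    rw [mul_div_assoc, ENNReal.ofReal_mul (ha j).le]
    ring
  simp only [hrew2, hrew1]
  have hmD : Measurable fun y : ℝ => a j * y + A :=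
    (measurable_const.mul measurable_id).add_const _
  have hmy2 : Measurable fun y : ℝ => expDens y * ENNReal.ofReal (y ^ 2 / (a j * y + A)) :=
    measurable_expDens.mul (((measurable_id.pow_const 2).div hmD).ennreal_ofReal)
  have hmy1 : Measurable fun y : ℝ => expDens y * ENNReal.ofReal (y / (a j * y + A)) :=
    measurable_expDens.mul ((measurable_id.div hmD).ennreal_ofReal)
  rw [lintegral_const_mul _ hmy2, lintegral_const_mul _ hmy1]
  calc _ ≤ (ENNReal.ofReal (a j) * wcol w)
        * (2 * ∫⁻ y, expDens y * ENNReal.ofReal (y / (a j * y + A))) :=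
        mul_le_mul_right h1 _
    _ = _ := by ring

/-- `E[s / t̄] ≤ 2`. -/
theorem exp_ratio (a : Fin n → ℝ) (ha : ∀ j, 0 < a j) (hsum : ∑ j, a j = 1) (D : Finset (Fin n)) :
    ∫⁻ v : Fin n → ℝ, wcol v * ENNReal.ofReal (sbar a (vmask D v) / tbar a (vmask D v)) ≤ 2 := by
  have hmT := measurable_tbar_vmask a D
  have hmv : ∀ j, Measurable fun v : Fin n → ℝ => vmask D v j := fun j =>
    (measurable_pi_apply j).comp (measurable_vmask D)
  have h1 : ∀ v : Fin n → ℝ, wcol v * ENNReal.ofReal (sbar a (vmask D v) / tbar a (vmask D v))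
      = ∑ j, wcol v * ENNReal.ofReal (a j * vmask D v j ^ 2 / tbar a (vmask D v)) := by
    intro v
    by_cases hv : wcol v = 0
    · simp [hv]
    · have hp := vmask_pos D (wcol_ne_zero_pos hv)
      have hT := tbar_pos a _ ha hsum hp
      rw [← Finset.mul_sum, ← ENNReal.ofReal_sum_of_nonneg fun j _ => by
        have := ha j
        have := hp j
        positivity]
      congr 2
      unfold sbar
      rw [Finset.sum_div]
  have h2 : ∀ v : Fin n → ℝ, ∑ j, wcol v * ENNReal.ofReal (a j * vmask D v j / tbar a (vmask D v))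
      = wcol v := by
    intro v
    by_cases hv : wcol v = 0
    · simp [hv]
    · have hp := vmask_pos D (wcol_ne_zero_pos hv)
      have hT := tbar_pos a _ ha hsum hp
      rw [← Finset.mul_sum, ← ENNReal.ofReal_sum_of_nonneg fun j _ => by
        have := ha j
        have := hp j
        positivity, ← Finset.sum_div]
      have h3 : (∑ j, a j * vmask D v j) / tbar a (vmask D v) = 1 := by
        have : ∑ j, a j * vmask D v j = tbar a (vmask D v) := rfl
        rw [this, div_self hT.ne']
      rw [h3, ENNReal.ofReal_one, mul_one]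
  simp only [h1]
  have hm2j : ∀ j ∈ (univ : Finset (Fin n)), Measurable fun v : Fin n → ℝ =>
      wcol v * ENNReal.ofReal (a j * vmask D v j ^ 2 / tbar a (vmask D v)) := fun j _ =>
    measurable_wcol.mul (((measurable_const.mul ((hmv j).pow_const 2)).div hmT).ennreal_ofReal)
  have hm1j : ∀ j ∈ (univ : Finset (Fin n)), Measurable fun v : Fin n → ℝ =>
      wcol v * ENNReal.ofReal (a j * vmask D v j / tbar a (vmask D v)) := fun j _ =>
    measurable_wcol.mul (((measurable_const.mul (hmv j)).div hmT).ennreal_ofReal)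
  rw [lintegral_finsetSum _ hm2j]
  calc _ ≤ ∑ j, 2 * ∫⁻ v : Fin n → ℝ, wcol v
          * ENNReal.ofReal (a j * vmask D v j / tbar a (vmask D v)) :=
        Finset.sum_le_sum fun j _ => exp_ratio_coord a ha hsum D j
    _ = 2 * ∑ j, ∫⁻ v : Fin n → ℝ, wcol v
          * ENNReal.ofReal (a j * vmask D v j / tbar a (vmask D v)) := by
        rw [Finset.mul_sum]
    _ = 2 * ∫⁻ v : Fin n → ℝ, ∑ j, wcol v
          * ENNReal.ofReal (a j * vmask D v j / tbar a (vmask D v)) := by
        rw [lintegral_finsetSum _ hm1j]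
    _ = 2 := by
        simp only [h2]
        have h5 := lintegral_wcol_mul (m := n) (fun _ => 0)
        simp at h5
        rw [h5, mul_one]

/-- The large `q` bound. -/
theorem exp_L (a : Fin n → ℝ) (ha : ∀ j, 0 < a j) (hsum : ∑ j, a j = 1) (D : Finset (Fin n))
    (q : ℕ) (hq : 1 ≤ q) :
    ENNReal.ofReal (1 - 8 / (q : ℝ)) ≤ ∫⁻ v : Fin n → ℝ, wcol v * ENNReal.ofReal
      (tbar a (vmask D v) - (4 / (q : ℝ)) * (sbar a (vmask D v) / tbar a (vmask D v))) := by
  have hqr : (0 : ℝ) < q := by exact_mod_cast hq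
  have hmT := measurable_tbar_vmask a D
  have hmS := measurable_sbar_vmask a D
  set L : (Fin n → ℝ) → ℝ := fun v =>
    tbar a (vmask D v) - (4 / (q : ℝ)) * (sbar a (vmask D v) / tbar a (vmask D v)) with hL
  have hmL : Measurable L := hmT.sub (measurable_const.mul (hmS.div hmT))
  have hm1 : Measurable fun v : Fin n → ℝ => wcol v * ENNReal.ofReal (L v) :=
    measurable_wcol.mul hmL.ennreal_ofReal
  have hm2 : Measurable fun v : Fin n → ℝ =>
      wcol v * ENNReal.ofReal (sbar a (vmask D v) / tbar a (vmask D v)) :=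
    measurable_wcol.mul (hmS.div hmT).ennreal_ofReal
  have hpt : ∀ v : Fin n → ℝ, wcol v * ENNReal.ofReal (tbar a (vmask D v))
      ≤ wcol v * ENNReal.ofReal (L v) + ENNReal.ofReal (4 / (q : ℝ))
        * (wcol v * ENNReal.ofReal (sbar a (vmask D v) / tbar a (vmask D v))) := by
    intro v
    rw [mul_left_comm, ← mul_add, ← ENNReal.ofReal_mul (by positivity)]
    refine mul_le_mul_right ?_ _
    refine le_trans ?_ ENNReal.ofReal_add_le
    apply ENNReal.ofReal_le_ofReal
    simp only [hL]
    linarith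
  have hint := lintegral_mono (μ := volume) hpt
  rw [exp_tbar a ha hsum D, lintegral_add_left hm1, lintegral_const_mul _ hm2] at hint
  have h2 := exp_ratio a ha hsum D
  have h3 : (1 : ℝ≥0∞) ≤ (∫⁻ v : Fin n → ℝ, wcol v * ENNReal.ofReal (L v))
      + ENNReal.ofReal (8 / (q : ℝ)) := by
    refine hint.trans (add_le_add le_rfl ?_)
    calc ENNReal.ofReal (4 / (q : ℝ)) * ∫⁻ v : Fin n → ℝ, wcol v
          * ENNReal.ofReal (sbar a (vmask D v) / tbar a (vmask D v))
        ≤ ENNReal.ofReal (4 / (q : ℝ)) * 2 := mul_le_mul_right h2 _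
      _ = ENNReal.ofReal (8 / (q : ℝ)) := by
          rw [show (8 : ℝ) / (q : ℝ) = (4 / (q : ℝ)) * 2 by ring,
            ENNReal.ofReal_mul (by positivity)]
          simp
  by_cases hcase : 1 - 8 / (q : ℝ) ≤ 0
  · rw [ENNReal.ofReal_of_nonpos hcase]
    exact zero_le
  · push Not at hcase
    have h4 : ENNReal.ofReal (1 - 8 / (q : ℝ)) + ENNReal.ofReal (8 / (q : ℝ)) = 1 := by
      rw [← ENNReal.ofReal_add hcase.le (by positivity)]
      simp
    rw [← h4] at h3
    have h5 := (ENNReal.add_le_add_iff_right (ENNReal.ofReal_ne_top (r := 8 / (q : ℝ)))).1 h3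
    exact h5

/-- The geometric mean bound. -/
theorem exp_G (a : Fin n → ℝ) (ha : ∀ j, 0 < a j) (hsum : ∑ j, a j = 1) (D : Finset (Fin n)) :
    ENNReal.ofReal (1 / Real.pi) ≤ ∫⁻ v : Fin n → ℝ, wcol v * ENNReal.ofReal
      (∏ j, vmask D v j ^ a j) := by
  set f : Fin n → ℝ → ℝ≥0∞ := fun j y =>
    expDens y * ENNReal.ofReal ((if j ∈ D then 1 else y) ^ a j) with hf
  have hfm : ∀ j, Measurable (f j) := by
    intro j
    simp only [hf]
    refine measurable_expDens.mul (Measurable.ennreal_ofReal ?_)
    by_cases hj : j ∈ D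
    · simp [hj]
    · simp only [hj, if_false]
      exact measurable_id.pow_const _
  have h1 : ∀ v : Fin n → ℝ, wcol v * ENNReal.ofReal (∏ j, vmask D v j ^ a j)
      = ∏ j, f j (v j) := by
    intro v
    by_cases hv : wcol v = 0
    · rw [hv, zero_mul]
      obtain ⟨j, _, hj⟩ := Finset.prod_eq_zero_iff.1 hv
      exact (Finset.prod_eq_zero (mem_univ j) (by simp [hf, hj])).symm
    · have hp := vmask_pos D (wcol_ne_zero_pos hv)
      rw [ENNReal.ofReal_prod_of_nonneg fun j _ => Real.rpow_nonneg (hp j).le _]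
      unfold wcol
      rw [← Finset.prod_mul_distrib]
      rfl
  simp only [h1]
  rw [lintegral_pi_prod n f hfm]
  have h2 : ∀ j, ENNReal.ofReal (Real.exp (-(a j * Real.log Real.pi))) ≤ ∫⁻ y, f j y := by
    intro j
    by_cases hj : j ∈ D
    · have hmass : ∫⁻ y, expDens y = 1 := by
        have := lintegral_expDens_pow 0
        simpa using this
      simp only [hf, hj, if_true, Real.one_rpow, ENNReal.ofReal_one, mul_one, hmass]
      refine ENNReal.ofReal_le_of_le_toReal ?_
      simp only [ENNReal.toReal_one]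
      apply Real.exp_le_one_iff.2
      have hl : 0 < Real.log Real.pi := Real.log_pos (by linarith [Real.pi_gt_three])
      have := ha j
      have : 0 < a j * Real.log Real.pi := by positivity
      linarith
    · simp only [hf, hj, if_false]
      rw [lintegral_expDens_rpow (ha j)]
      exact ENNReal.ofReal_le_ofReal (Gamma_one_add_ge (ha j))
  calc ENNReal.ofReal (1 / Real.pi)
      = ∏ j, ENNReal.ofReal (Real.exp (-(a j * Real.log Real.pi))) := by
        rw [← ENNReal.ofReal_prod_of_nonneg fun j _ => (Real.exp_pos _).le, ← Real.exp_sum]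
        congr 1
        have h3 : ∑ j, -(a j * Real.log Real.pi) = -Real.log Real.pi := by
          rw [Finset.sum_neg_distrib, ← Finset.sum_mul, hsum, one_mul]
        rw [h3, Real.exp_neg, Real.exp_log Real.pi_pos, one_div]
    _ ≤ ∏ j, ∫⁻ y, f j y := Finset.prod_le_prod' fun j _ => h2 j

end Vale.Agent.Lib.P328.CapS
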