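import Vale.Agent.Lib.P328.CapS.Rec
import Vale.Agent.Lib.P328.CapS.U1b
import Vale.Agent.Lib.P328.CapS.U1c

/-!
# P328, all margins: the unit row lemma, pointwise and integrated
-/

namespace Vale.Agent.Lib.P328.CapS

open Finset MeasureTheory Vale.Agent.Lib.P328.Cap
open scoped ENNReal Nat

variable {m n : ℕ}

/-- The matrix `t` with row `u` replaced by `v`. -/
def setRow (u : Fin m) (v : Fin n → ℝ) (t : Fin n → Fin m → ℝ) : Fin n → Fin m → ℝ :=
  fun j i => if i = u then v j else t j i

theorem measurable_setRow (u : Fin m) :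
    Measurable fun p : (Fin n → ℝ) × (Fin n → Fin m → ℝ) => setRow u p.1 p.2 := by
  refine measurable_pi_iff.2 fun j => measurable_pi_iff.2 fun i => ?_
  unfold setRow
  by_cases h : i = u
  · simp only [h, if_true]
    exact (measurable_pi_apply j).comp measurable_fst
  · simp only [h, if_false]
    exact (measurable_pi_apply i).comp ((measurable_pi_apply j).comp measurable_snd)

theorem u1d_lintegral_expDens_one : ∫⁻ y, expDens y = 1 := by
  have := lintegral_expDens_pow 0
  simpa using this

theorem u1d_measurable_cons_pair {E : Type} [MeasurableSpace E] (k : ℕ) :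
    Measurable fun p : E × (Fin k → E) => (Fin.cons p.1 p.2 : Fin (k + 1) → E) := by
  refine measurable_pi_iff.2 fun j => ?_
  refine Fin.cases ?_ (fun j => ?_) j
  · simpa using measurable_fst
  · simp only [Fin.cons_succ]
    exact (measurable_pi_apply j).comp measurable_snd

theorem u1d_lintegral_insertNth (k : ℕ) (u : Fin (k + 1)) (F : (Fin (k + 1) → ℝ) → ℝ≥0∞) :
    ∫⁻ t, F t = ∫⁻ p : ℝ × (Fin k → ℝ), F (u.insertNth p.1 p.2)
      ∂((volume : Measure ℝ).prod (volume : Measure (Fin k → ℝ))) := by
  have h := (volume_preserving_piFinSuccAbove (fun _ : Fin (k + 1) => ℝ) u).symm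
  have h2 := h.lintegral_comp_emb (MeasurableEquiv.measurableEmbedding _) F
  rw [← h2]
  refine lintegral_congr fun a => ?_
  congr 1

theorem u1d_measurable_insertNth_pair (k : ℕ) (u : Fin (k + 1)) :
    Measurable fun p : ℝ × (Fin k → ℝ) => (u.insertNth p.1 p.2 : Fin (k + 1) → ℝ) :=
  (MeasurableEquiv.piFinSuccAbove (fun _ : Fin (k + 1) => ℝ) u).symm.measurable

theorem u1d_wcol_insertNth (k : ℕ) (u : Fin (k + 1)) (y : ℝ) (z : Fin k → ℝ) :
    wcol (u.insertNth y z : Fin (k + 1) → ℝ) = expDens y * wcol z := by
  unfold wcol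
  rw [Fin.prod_univ_succAbove _ u]
  simp

/-- Resampling one coordinate. -/
theorem u1d_lintegral_resample (u : Fin m) (f : (Fin m → ℝ) → ℝ≥0∞) (hf : Measurable f) :
    ∫⁻ x, wcol x * ∫⁻ y, expDens y * f (Function.update x u y) = ∫⁻ x, wcol x * f x := by
  obtain ⟨k, rfl⟩ : ∃ k, m = k + 1 := ⟨m - 1, by have := u.pos; omega⟩
  have hjoint : Measurable fun p : ℝ × (Fin k → ℝ) => f (u.insertNth p.1 p.2) :=
    hf.comp (u1d_measurable_insertNth_pair k u)
  set K : (Fin k → ℝ) → ℝ≥0∞ := fun z => ∫⁻ y, expDens y * f (u.insertNth y z) with hK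
  have hKm : Measurable K := by
    have h : Measurable fun p : (Fin k → ℝ) × ℝ => expDens p.2 * f (u.insertNth p.2 p.1) :=
      (measurable_expDens.comp measurable_snd).mul (hjoint.comp measurable_swap)
    exact h.lintegral_prod_right'
  have h1 : ∫⁻ x, wcol x * ∫⁻ y, expDens y * f (Function.update x u y)
      = ∫⁻ z, wcol z * K z := by
    rw [u1d_lintegral_insertNth k u]
    have h2 : ∀ p : ℝ × (Fin k → ℝ),
        wcol (u.insertNth p.1 p.2 : Fin (k + 1) → ℝ)
          * ∫⁻ y, expDens y * f (Function.update (u.insertNth p.1 p.2) u y)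
        = expDens p.1 * (wcol p.2 * K p.2) := by
      intro p
      rw [u1d_wcol_insertNth, mul_assoc]
      congr 2
      simp only [hK]
      refine lintegral_congr fun y => ?_
      rw [Fin.update_insertNth]
    simp only [h2]
    have h4 := lintegral_prod_mul (μ := (volume : Measure ℝ)) (ν := (volume : Measure (Fin k → ℝ)))
      (f := expDens) (g := fun z => wcol z * K z) measurable_expDens.aemeasurable
      (measurable_wcol.mul hKm).aemeasurable
    rw [h4, u1d_lintegral_expDens_one, one_mul]
  rw [h1, u1d_lintegral_insertNth k u (fun x => wcol x * f x)]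
  have h3 : ∀ p : ℝ × (Fin k → ℝ), wcol (u.insertNth p.1 p.2 : Fin (k + 1) → ℝ) * f (u.insertNth p.1 p.2)
      = expDens p.1 * wcol p.2 * f (u.insertNth p.1 p.2) := by
    intro p
    rw [u1d_wcol_insertNth]
  simp only [h3]
  rw [lintegral_prod_symm]
  · refine lintegral_congr fun z => ?_
    simp only [hK]
    have hm : Measurable fun y : ℝ => expDens y * f (u.insertNth y z) :=
      measurable_expDens.mul (hjoint.comp (measurable_id.prodMk measurable_const))
    rw [← lintegral_const_mul _ hm]
    refine lintegral_congr fun y => ?_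
    ring
  · exact (((measurable_expDens.comp measurable_fst).mul (measurable_wcol.comp measurable_snd)).mul
      hjoint).aemeasurable

theorem setRow_cons (u : Fin m) (v0 : ℝ) (v' : Fin n → ℝ) (t0 : Fin m → ℝ)
    (t' : Fin n → Fin m → ℝ) :
    setRow u (Fin.cons v0 v' : Fin (n + 1) → ℝ) (Fin.cons t0 t' : Fin (n + 1) → Fin m → ℝ)
      = Fin.cons (Function.update t0 u v0) (setRow u v' t') := by
  funext j i
  refine Fin.cases ?_ (fun j => ?_) j
  · simp [setRow, Function.update_apply]
  · simp [setRow]

theorem u1d_wcol_cons (y : ℝ) (v : Fin n → ℝ) :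
    wcol (Fin.cons y v : Fin (n + 1) → ℝ) = expDens y * wcol v := by
  unfold wcol
  rw [Fin.prod_univ_succ]
  simp

/-- Resampling one row. -/
theorem lintegral_setRow (u : Fin m) (F : (Fin n → Fin m → ℝ) → ℝ≥0∞) (hF : Measurable F) :
    ∫⁻ t, wmat t * F t = ∫⁻ t, wmat t * ∫⁻ v : Fin n → ℝ, wcol v * F (setRow u v t) := by
  induction n with
  | zero =>
    have h1 : ∀ t : Fin 0 → Fin m → ℝ, wmat t * ∫⁻ v : Fin 0 → ℝ, wcol v * F (setRow u v t)
        = wmat t * F t := by
      intro t
      congr 1
      have h2 : ∀ v : Fin 0 → ℝ, wcol v * F (setRow u v t) = F t := by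
        intro v
        have : setRow u v t = t := Subsingleton.elim _ _
        rw [this]
        simp [wcol]
      simp only [h2]
      simp [volume_pi]
    simp only [h1]
  | succ n ih =>
    -- the joint function
    have hcons := u1d_measurable_cons_pair (E := Fin m → ℝ) n
    have hF2 : Measurable fun p : (Fin m → ℝ) × (Fin n → Fin m → ℝ) => F (Fin.cons p.1 p.2) :=
      hF.comp hcons
    set K : (Fin m → ℝ) → ℝ≥0∞ := fun x => ∫⁻ t', wmat t' * F (Fin.cons x t') with hK
    have hKm : Measurable K := by
      have : Measurable fun p : (Fin m → ℝ) × (Fin n → Fin m → ℝ) => wmat p.2 * F (Fin.cons p.1 p.2) :=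
        (measurable_wmat.comp measurable_snd).mul hF2
      exact this.lintegral_prod_right'
    have hL : ∫⁻ t, wmat t * F t = ∫⁻ x, wcol x * K x := by
      rw [lintegral_cons (E := Fin m → ℝ) n, lintegral_prod]
      · refine lintegral_congr fun x => ?_
        simp only [hK, wmat_cons]
        have hm : Measurable fun t' : Fin n → Fin m → ℝ => wmat t' * F (Fin.cons x t') :=
          measurable_wmat.mul (hF2.comp (measurable_const.prodMk measurable_id))
        rw [← lintegral_const_mul _ hm]
        refine lintegral_congr fun t' => ?_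
        ring
      · exact ((measurable_wmat.comp hcons).mul hF2).aemeasurable
    have hGm : Measurable fun t : Fin (n + 1) → Fin m → ℝ =>
        ∫⁻ v : Fin (n + 1) → ℝ, wcol v * F (setRow u v t) := by
      have : Measurable fun p : (Fin (n + 1) → Fin m → ℝ) × (Fin (n + 1) → ℝ) =>
          wcol p.2 * F (setRow u p.2 p.1) :=
        (measurable_wcol.comp measurable_snd).mul
          (hF.comp ((measurable_setRow u).comp (measurable_snd.prodMk measurable_fst)))
      exact this.lintegral_prod_right'
    have hR : ∫⁻ t, wmat t * ∫⁻ v : Fin (n + 1) → ℝ, wcol v * F (setRow u v t)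
        = ∫⁻ x, wcol x * ∫⁻ y, expDens y * K (Function.update x u y) := by
      have hmeas : AEMeasurable (fun p : (Fin m → ℝ) × (Fin n → Fin m → ℝ) =>
          wmat (Fin.cons p.1 p.2 : Fin (n + 1) → Fin m → ℝ)
            * ∫⁻ v : Fin (n + 1) → ℝ, wcol v * F (setRow u v (Fin.cons p.1 p.2)))
          ((volume : Measure (Fin m → ℝ)).prod (volume : Measure (Fin n → Fin m → ℝ))) :=
        ((measurable_wmat.comp hcons).mul (hGm.comp hcons)).aemeasurable
      rw [lintegral_cons (E := Fin m → ℝ) n, lintegral_prod _ hmeas]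
      refine lintegral_congr fun x => ?_
      set H : ℝ → (Fin n → Fin m → ℝ) → ℝ≥0∞ := fun y t' =>
        ∫⁻ v' : Fin n → ℝ, wcol v' * F (Fin.cons (Function.update x u y) (setRow u v' t')) with hH
      have hHm : Measurable fun q : ℝ × (Fin n → Fin m → ℝ) => H q.1 q.2 := by
        have : Measurable fun p : (ℝ × (Fin n → Fin m → ℝ)) × (Fin n → ℝ) =>
            wcol p.2 * F (Fin.cons (Function.update x u p.1.1) (setRow u p.2 p.1.2)) :=
          (measurable_wcol.comp measurable_snd).mul (hF.comp (hcons.comp
            (((measurable_update x).comp (measurable_fst.comp measurable_fst)).prodMk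
              ((measurable_setRow u).comp (measurable_snd.prodMk
                (measurable_snd.comp measurable_fst))))))
        exact this.lintegral_prod_right'
      have hinner : ∀ t' : Fin n → Fin m → ℝ,
          ∫⁻ v : Fin (n + 1) → ℝ, wcol v * F (setRow u v (Fin.cons x t'))
            = ∫⁻ y, expDens y * H y t' := by
        intro t'
        have hm : Measurable fun v : Fin (n + 1) → ℝ => wcol v * F (setRow u v (Fin.cons x t')) :=
          measurable_wcol.mul (hF.comp ((measurable_setRow u).comp
            (measurable_id.prodMk measurable_const)))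
        have hmeas2 : AEMeasurable (fun p : ℝ × (Fin n → ℝ) =>
            wcol (Fin.cons p.1 p.2 : Fin (n + 1) → ℝ)
              * F (setRow u (Fin.cons p.1 p.2) (Fin.cons x t')))
            ((volume : Measure ℝ).prod (volume : Measure (Fin n → ℝ))) :=
          (hm.comp (u1d_measurable_cons_pair (E := ℝ) n)).aemeasurable
        rw [lintegral_cons (E := ℝ) n, lintegral_prod _ hmeas2]
        refine lintegral_congr fun y => ?_
        simp only [hH]
        have hm2 : Measurable fun v' : Fin n → ℝ =>
            wcol v' * F (Fin.cons (Function.update x u y) (setRow u v' t')) :=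
          measurable_wcol.mul (hF.comp (hcons.comp (measurable_const.prodMk
            ((measurable_setRow u).comp (measurable_id.prodMk measurable_const)))))
        rw [← lintegral_const_mul _ hm2]
        refine lintegral_congr fun v' => ?_
        rw [u1d_wcol_cons, setRow_cons]
        ring
      simp only [hinner, wmat_cons]
      have hswap : ∫⁻ t' : Fin n → Fin m → ℝ, wmat t' * ∫⁻ y, expDens y * H y t'
          = ∫⁻ y, expDens y * K (Function.update x u y) := by
        have h1 : ∀ t' : Fin n → Fin m → ℝ, wmat t' * ∫⁻ y, expDens y * H y t'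
            = ∫⁻ y, wmat t' * (expDens y * H y t') := by
          intro t'
          rw [lintegral_const_mul]
          exact measurable_expDens.mul (hHm.comp (measurable_id.prodMk measurable_const))
        simp only [h1]
        rw [lintegral_lintegral_swap]
        · refine lintegral_congr fun y => ?_
          have h2 : ∀ t' : Fin n → Fin m → ℝ, wmat t' * (expDens y * H y t')
              = expDens y * (wmat t' * H y t') := fun t' => by ring
          simp only [h2]
          rw [lintegral_const_mul]
          · congr 1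
            simp only [hK, hH]
            exact (ih (fun t' => F (Fin.cons (Function.update x u y) t'))
              (hF.comp (hcons.comp (measurable_const.prodMk measurable_id)))).symm
          · exact measurable_wmat.mul (hHm.comp (measurable_const.prodMk measurable_id))
        · have : Measurable fun q : (Fin n → Fin m → ℝ) × ℝ =>
              wmat q.1 * (expDens q.2 * H q.2 q.1) :=
            (measurable_wmat.comp measurable_fst).mul
              ((measurable_expDens.comp measurable_snd).mul (hHm.comp measurable_swap))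
          exact this.aemeasurable
      rw [← hswap]
      rw [← lintegral_const_mul]
      · refine lintegral_congr fun t' => ?_
        ring
      · refine measurable_wmat.mul ?_
        have : Measurable fun q : (Fin n → Fin m → ℝ) × ℝ => expDens q.2 * H q.2 q.1 :=
          (measurable_expDens.comp measurable_snd).mul (hHm.comp measurable_swap)
        exact this.lintegral_prod_right'
    rw [hL, hR, u1d_lintegral_resample u K hKm]

/-- The constant of the unit row lemma. -/
noncomputable def lq (q : ℕ) : ℝ := (((q : ℝ) + 1) / ((q : ℝ) + 2)) ^ 16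

theorem lq_le (q : ℕ) : lq q ≤ 1 / Real.pi ∨ (1 ≤ q ∧ lq q ≤ 1 - 8 / (q : ℝ)) := by
  unfold lq
  have hpi : (1 : ℝ) / (315 / 100) ≤ 1 / Real.pi :=
    one_div_le_one_div_of_le Real.pi_pos (by have := Real.pi_lt_d2; norm_num at this ⊢; linarith)
  by_cases h12 : q ≤ 12
  · left
    refine le_trans ?_ hpi
    interval_cases q <;> norm_num
  · right
    push Not at h12
    refine ⟨by omega, ?_⟩
    by_cases h17 : q ≤ 17
    · interval_cases q <;> norm_num
    · push Not at h17
      have hq : (18 : ℝ) ≤ q := by exact_mod_cast h17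
      -- `(1 - x) ^ 16 ≤ 1 / (1 + 16 x)`, `x = 1 / (q + 2)`
      set y : ℝ := (q : ℝ) + 2 with hy
      have hy0 : 0 < y := by linarith
      have h1 : ((q : ℝ) + 1) / y ≤ y / (y + 1) := by
        rw [div_le_div_iff₀ hy0 (by linarith)]
        nlinarith
      have hnn : 0 ≤ ((q : ℝ) + 1) / y := by positivity
      have h2 : (((q : ℝ) + 1) / y) ^ 16 ≤ (y / (y + 1)) ^ 16 := pow_le_pow_left₀ hnn h1 16
      have h3 : (y / (y + 1)) ^ 16 ≤ y / (y + 16) := by
        have hb := one_add_mul_le_pow (a := 1 / y) (by have : 0 < 1 / y := by positivity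
                                                       linarith) 16
        have h4 : (y / (y + 1)) ^ 16 = 1 / (1 + 1 / y) ^ 16 := by
          rw [div_pow, one_add_div hy0.ne', div_pow]
          field_simp
        rw [h4]
        have h5 : 1 + (16 : ℕ) * (1 / y) = (y + 16) / y := by
          push_cast
          field_simp
        rw [h5] at hb
        calc 1 / (1 + 1 / y) ^ 16 ≤ 1 / ((y + 16) / y) :=
              one_div_le_one_div_of_le (by positivity) hb
          _ = y / (y + 16) := by field_simp
      have h6 : y / (y + 16) ≤ 1 - 8 / (q : ℝ) := by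
        have hq0 : (0 : ℝ) < q := by linarith
        rw [div_le_iff₀ (by linarith)]
        have h7 : 8 / (q : ℝ) * (y + 16) ≤ 16 := by
          rw [div_mul_eq_mul_div, div_le_iff₀ hq0]
          rw [hy]
          nlinarith
        have h8 : (1 - 8 / (q : ℝ)) * (y + 16) = (y + 16) - 8 / (q : ℝ) * (y + 16) := by ring
        rw [h8]
        linarith
      linarith

theorem u1d_vmask_pos {v : Fin n → ℝ} (hv : ∀ j, 0 < v j) (D : Finset (Fin n)) :
    ∀ j, 0 < vmask D v j := by
  intro j
  unfold vmask
  split_ifs
  · exact one_pos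
  · exact hv j

/-- The capacity term after the replacement of row `u`, factored. -/
theorem u1d_term_factor (r : Fin m → ℕ) (S : Finset (Fin m)) (u : Fin m) (hu : r u = 1) (huS : u ∉ S)
    (D : Finset (Fin n)) (t : Fin n → Fin m → ℝ) (v b : Fin n → ℝ) :
    ∏ i, (∑ j, mask S D (setRow u v t) j i * b j) ^ r i
      = (∏ i, (∑ j, mask (insert u S) D t j i * b j) ^ (if i ∈ insert u S then 0 else r i))
        * ((∑ j, b j) ^ kS r S * ∑ j, vmask D v j * b j) := by
  have hpt : ∀ i, (∑ j, mask S D (setRow u v t) j i * b j) ^ r i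
      = (∑ j, mask (insert u S) D t j i * b j) ^ (if i ∈ insert u S then 0 else r i)
        * ((if i ∈ S then (∑ j, b j) ^ r i else 1) * (if i = u then ∑ j, vmask D v j * b j else 1)) := by
    intro i
    by_cases hiu : i = u
    · subst hiu
      have h1 : ∀ j, mask S D (setRow i v t) j i = vmask D v j := by
        intro j
        simp [mask, setRow, vmask, huS]
      simp [h1, hu, huS]
    · by_cases hiS : i ∈ S
      · have h1 : ∀ j, mask S D (setRow u v t) j i = 1 := by
          intro j
          simp [mask, hiS]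
        simp [h1, hiS, hiu]
      · have h1 : ∀ j, mask S D (setRow u v t) j i = mask (insert u S) D t j i := by
          intro j
          simp [mask, setRow, hiS, hiu]
        simp [h1, hiS, hiu]
  simp only [hpt]
  rw [Finset.prod_mul_distrib, Finset.prod_mul_distrib, Finset.prod_ite_mem, Finset.prod_ite_eq']
  simp only [mem_univ, if_true, Finset.univ_inter]
  rw [Finset.prod_pow_eq_pow_sum]
  rfl

/-- The capacity term of the masked matrix at a vector of total one. -/
theorem u1d_term_at_simplex (r : Fin m → ℕ) (Sx : Finset (Fin m)) (D : Finset (Fin n))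
    (t : Fin n → Fin m → ℝ) (a : Fin n → ℝ) (ha1 : ∑ j, a j = 1) :
    ∏ i, (∑ j, mask Sx D t j i * a j) ^ r i
      = ∏ i, (∑ j, mask Sx D t j i * a j) ^ (if i ∈ Sx then 0 else r i) := by
  refine Finset.prod_congr rfl fun i _ => ?_
  by_cases hi : i ∈ Sx
  · have h1 : ∀ j, mask Sx D t j i = 1 := by
      intro j
      simp [mask, hi]
    simp [h1, hi, ha1]
  · simp [hi]

/-- The unit row lemma, pointwise in the other rows. -/
theorem u1_point (hn : 0 < n) (r : Fin m → ℕ) (c : Fin n → ℕ) (hc : ∀ j, 0 < c j)
    (hsum : ∑ i, r i = ∑ j, c j) (S : Finset (Fin m)) (hS : ∀ i ∈ S, r i ≤ 1) (u : Fin m)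
    (hu : r u = 1) (huS : u ∉ S) (D : Finset (Fin n)) (t : Fin n → Fin m → ℝ)
    (ht : ∀ j i, 0 < t j i) :
    ENNReal.ofReal (lq (kS r S)) * capa r c (mask (insert u S) D t)
      ≤ ∫⁻ v : Fin n → ℝ, wcol v * capa r c (mask S D (setRow u v t)) := by
  classical
  set q := kS r S with hq
  set R' : Fin m → ℕ := fun i => if i ∈ insert u S then 0 else r i with hR'
  set t' := mask (insert u S) D t with ht'def
  have ht' : ∀ j i, 0 < t' j i := mask_pos ht
  have hdeg : ∑ i, R' i + (q + 1) = ∑ j, c j := by
    rw [← hsum]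
    have h1 : ∀ i, r i = R' i + (if i ∈ insert u S then r i else 0) := by
      intro i
      by_cases hi : i ∈ insert u S
      · simp only [hR', if_pos hi, zero_add]
      · simp only [hR', if_neg hi, add_zero]
    have h2 : ∑ i, r i = ∑ i, R' i + ∑ i, (if i ∈ insert u S then r i else 0) := by
      rw [← Finset.sum_add_distrib]
      exact Finset.sum_congr rfl fun i _ => h1 i
    rw [h2, Finset.sum_ite_mem, Finset.univ_inter, Finset.sum_insert huS, hu]
    simp only [hq, kS]
    ring
  obtain ⟨a, ha, ha1, hmin⟩ := exists_min hn R' c t' ht' hc q hdeg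
  set V := Gfun R' c t' a with hV
  have hne : (univ : Finset (Fin n)).Nonempty := nonempty_of_sum_one a ha1
  have hGnn : ∀ b : Fin n → ℝ, (∀ j, 0 < b j) → 0 ≤ Gfun R' c t' b := by
    intro b hb
    unfold Gfun
    refine div_nonneg (Finset.prod_nonneg fun i _ => pow_nonneg ?_ _)
      (Finset.prod_nonneg fun j _ => pow_nonneg (hb j).le _)
    exact Finset.sum_nonneg fun j _ => mul_nonneg (ht' j i).le (hb j).le
  have hV0 : 0 ≤ V := hGnn a ha
  -- upper bound
  have hup : capa r c t' ≤ ENNReal.ofReal V := by
    unfold capa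
    refine (iInf_le _ ⟨a, ha⟩).trans (le_of_eq ?_)
    have h : ∏ i, (∑ j, t' j i * a j) ^ r i = ∏ i, (∑ j, t' j i * a j) ^ R' i :=
      u1d_term_at_simplex r (insert u S) D t a ha1
    show ENNReal.ofReal ((∏ i, (∑ j, t' j i * a j) ^ r i) / ∏ j, a j ^ c j) = ENNReal.ofReal V
    rw [h]
    rfl
  -- lower bound, for a generic bound `Lw`
  have hlow : ∀ (Lw : (Fin n → ℝ) → ℝ) (X : ℝ≥0∞),
      (∀ v : Fin n → ℝ, (∀ j, 0 < v j) → ∀ b : Fin n → ℝ, (∀ j, 0 < b j) →
        Lw v * tangentM a q b ≤ (∑ j, b j) ^ q * ∑ j, vmask D v j * b j) →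
      X ≤ ∫⁻ v : Fin n → ℝ, wcol v * ENNReal.ofReal (Lw v) →
      X * ENNReal.ofReal V ≤ ∫⁻ v : Fin n → ℝ, wcol v * capa r c (mask S D (setRow u v t)) := by
    intro Lw X hLw hX
    have h1 : ∀ v : Fin n → ℝ, wcol v * ENNReal.ofReal (Lw v) * ENNReal.ofReal V
        ≤ wcol v * capa r c (mask S D (setRow u v t)) := by
      intro v
      rw [mul_assoc]
      by_cases hw : wcol v = 0
      · simp [hw]
      have hv := wcol_ne_zero_pos hw
      refine mul_le_mul_right ?_ _
      rw [mul_comm, ← ENNReal.ofReal_mul hV0]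
      unfold capa
      refine le_iInf fun b => ?_
      obtain ⟨b, hb⟩ := b
      refine ENNReal.ofReal_le_ofReal ?_
      simp only
      rw [u1d_term_factor r S u hu huS D t v b]
      have hden : 0 < ∏ j, b j ^ c j := Finset.prod_pos fun j _ => pow_pos (hb j) _
      have hG : Gfun R' c t' b
          = (∏ i, (∑ j, t' j i * b j) ^ R' i) / ∏ j, b j ^ c j := rfl
      have hgoal : (∏ i, (∑ j, mask (insert u S) D t j i * b j) ^
            (if i ∈ insert u S then 0 else r i))
            * ((∑ j, b j) ^ kS r S * ∑ j, vmask D v j * b j) / ∏ j, b j ^ c j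
          = Gfun R' c t' b * ((∑ j, b j) ^ q * ∑ j, vmask D v j * b j) := by
        rw [hG]
        ring
      rw [hgoal]
      have hXnn : 0 ≤ (∑ j, b j) ^ q * ∑ j, vmask D v j * b j := by
        have h2 : 0 < ∑ j, b j := Finset.sum_pos (fun j _ => hb j) hne
        have h3 : 0 < ∑ j, vmask D v j * b j :=
          Finset.sum_pos (fun j _ => mul_pos (u1d_vmask_pos hv D j) (hb j)) hne
        positivity
      by_cases hL : Lw v ≤ 0
      · have h4 : V * Lw v ≤ 0 := mul_nonpos_of_nonneg_of_nonpos hV0 hL
        exact h4.trans (mul_nonneg (hGnn b hb) hXnn)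
      · push Not at hL
        calc V * Lw v ≤ (Gfun R' c t' b * tangentM a q b) * Lw v :=
              mul_le_mul_of_nonneg_right (hmin b hb) hL.le
          _ = Gfun R' c t' b * (Lw v * tangentM a q b) := by ring
          _ ≤ _ := mul_le_mul_of_nonneg_left (hLw v hv b hb) (hGnn b hb)
    calc X * ENNReal.ofReal V
        ≤ (∫⁻ v : Fin n → ℝ, wcol v * ENNReal.ofReal (Lw v)) * ENNReal.ofReal V := by gcongr
      _ = ∫⁻ v : Fin n → ℝ, wcol v * ENNReal.ofReal (Lw v) * ENNReal.ofReal V :=
          (lintegral_mul_const' _ _ ENNReal.ofReal_ne_top).symm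
      _ ≤ _ := lintegral_mono h1
  have hq0 : kS r S = q := rfl
  refine le_trans (mul_le_mul_right hup _) ?_
  rcases lq_le q with h | ⟨hq1, h⟩
  · have h2 := hlow (fun v => ∏ j, vmask D v j ^ a j) (ENNReal.ofReal (1 / Real.pi))
      (fun v hv b hb => u1_G a (vmask D v) ha ha1 (u1d_vmask_pos hv D) q b hb) (exp_G a ha ha1 D)
    exact (mul_le_mul_left (ENNReal.ofReal_le_ofReal h) _).trans h2
  · have h2 := hlow (fun v => tbar a (vmask D v)
        - (4 / (q : ℝ)) * (sbar a (vmask D v) / tbar a (vmask D v)))
      (ENNReal.ofReal (1 - 8 / (q : ℝ)))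
      (fun v hv b hb => u1_L a (vmask D v) ha ha1 (u1d_vmask_pos hv D) q hq1 b hb)
      (exp_L a ha ha1 D q hq1)
    exact (mul_le_mul_left (ENNReal.ofReal_le_ofReal h) _).trans h2

/-- One more unit row in the mask. -/
theorem IM_step (hn : 0 < n) (r : Fin m → ℕ) (c : Fin n → ℕ) (hc : ∀ j, 0 < c j)
    (hsum : ∑ i, r i = ∑ j, c j) (S : Finset (Fin m)) (hS : ∀ i ∈ S, r i ≤ 1) (u : Fin m)
    (hu : r u = 1) (huS : u ∉ S) (D : Finset (Fin n)) :
    ENNReal.ofReal (lq (kS r S)) * IM r c (insert u S) D ≤ IM r c S D := by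
  unfold IM
  rw [← mul_div_assoc]
  refine ENNReal.div_le_div_right ?_ _
  rw [lintegral_setRow u (fun t => capa r c (mask S D t))
    ((capa_measurable r c).comp (measurable_mask S D))]
  rw [← lintegral_const_mul' _ _ ENNReal.ofReal_ne_top]
  refine lintegral_mono fun t => ?_
  by_cases hw : wmat t = 0
  · simp [hw]
  have htp := wmat_ne_zero_pos hw
  have h := u1_point hn r c hc hsum S hS u hu huS D t htp
  calc ENNReal.ofReal (lq (kS r S)) * (wmat t * capa r c (mask (insert u S) D t))
      = wmat t * (ENNReal.ofReal (lq (kS r S)) * capa r c (mask (insert u S) D t)) := by ring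
    _ ≤ _ := by gcongr

/-- A row of sum zero in the mask changes nothing. -/
theorem IM_insert_zero (r : Fin m → ℕ) (c : Fin n → ℕ) (S : Finset (Fin m)) (u : Fin m)
    (hu : r u = 0) (D : Finset (Fin n)) : IM r c (insert u S) D = IM r c S D := by
  have hterm : ∀ (t : Fin n → Fin m → ℝ) (b : Fin n → ℝ),
      ∏ i, (∑ j, mask (insert u S) D t j i * b j) ^ r i
        = ∏ i, (∑ j, mask S D t j i * b j) ^ r i := by
    intro t b
    refine Finset.prod_congr rfl fun i _ => ?_
    by_cases hi : i = u
    · subst hi
      simp [hu]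
    · have h1 : ∀ j, mask (insert u S) D t j i = mask S D t j i := by
        intro j
        simp [mask, hi]
      simp [h1]
  simp only [IM, capa, hterm]

/-- The chain from `S` to a larger `S'` of rows of sum at most one. -/
theorem IM_chain (hn : 0 < n) (r : Fin m → ℕ) (c : Fin n → ℕ) (hc : ∀ j, 0 < c j)
    (hsum : ∑ i, r i = ∑ j, c j) (S S' : Finset (Fin m)) (hSS : S ⊆ S') (hS' : ∀ i ∈ S', r i ≤ 1)
    (D : Finset (Fin n)) :
    ENNReal.ofReal ((((kS r S : ℝ) + 1) / ((kS r S' : ℝ) + 1)) ^ 16) * IM r c S' D ≤ IM r c S D := by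
  classical
  have key : ∀ T : Finset (Fin m), Disjoint S T → (∀ i ∈ T, r i ≤ 1) →
      ENNReal.ofReal ((((kS r S : ℝ) + 1) / ((kS r (S ∪ T) : ℝ) + 1)) ^ 16) * IM r c (S ∪ T) D
        ≤ IM r c S D := by
    intro T
    induction T using Finset.induction_on with
    | empty =>
      intro _ _
      have h0 : ((kS r S : ℝ) + 1) ≠ 0 := by positivity
      simp [h0]
    | insert w T hw ih =>
      intro hdis hT
      have hdis1 : Disjoint S T := hdis.mono_right (Finset.subset_insert _ _)
      have hwS : w ∉ S := Finset.disjoint_right.1 hdis (Finset.mem_insert_self _ _)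
      have hih := ih hdis1 fun i hi => hT i (Finset.mem_insert_of_mem hi)
      have hU : S ∪ insert w T = insert w (S ∪ T) := Finset.union_insert _ _ _
      have hwU : w ∉ S ∪ T := by simp [hwS, hw]
      have hcard : kS r (insert w (S ∪ T)) = r w + kS r (S ∪ T) := by
        unfold kS
        rw [Finset.sum_insert hwU]
      rw [hU]
      have hrw := hT w (Finset.mem_insert_self _ _)
      have hcases : r w = 0 ∨ r w = 1 := by omega
      rcases hcases with h0 | h1
      · rw [IM_insert_zero r c _ w h0 D, hcard, h0, zero_add]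
        exact hih
      · have hstep := IM_step hn r c hc hsum (S ∪ T) (fun i hi => by
          rcases Finset.mem_union.1 hi with h | h
          · exact hS' i (hSS h)
          · exact hT i (Finset.mem_insert_of_mem h)) w h1 hwU D
        set s : ℝ := (kS r S : ℝ) with hs
        set k : ℝ := (kS r (S ∪ T) : ℝ) with hk
        have hs0 : 0 ≤ s := Nat.cast_nonneg _
        have hk0 : 0 ≤ k := Nat.cast_nonneg _
        have hfact : ((s + 1) / (((kS r (insert w (S ∪ T)) : ℕ) : ℝ) + 1)) ^ 16
            = ((s + 1) / (k + 1)) ^ 16 * lq (kS r (S ∪ T)) := by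
          rw [hcard, h1]
          unfold lq
          push_cast
          rw [← hk, ← mul_pow]
          congr 1
          field_simp
          ring
        rw [hfact, ENNReal.ofReal_mul (by positivity), mul_assoc]
        exact (mul_le_mul_right hstep _).trans hih
  have h := key (S' \ S) Finset.disjoint_sdiff (fun i hi => hS' i (Finset.mem_sdiff.1 hi).1)
  rwa [Finset.union_sdiff_of_subset hSS] at h

end Vale.Agent.Lib.P328.CapS
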