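import Vale.Agent.Lib.P328.CapS.TabS
import Vale.Agent.Lib.P328.CapS.U1d
import Vale.Agent.Lib.P328.CapS.Trans
import Vale.Agent.Lib.P328.CapS.Base
import Vale.Agent.Lib.P328.Cap.Sym

/-!
# P328, all margins: the induction over the columns
-/

namespace Vale.Agent.Lib.P328.CapS

open Finset MeasureTheory Vale.Agent.Lib.P328.Cap
open scoped ENNReal Nat

variable {m n : ℕ}

/-- The columns of sum one. -/
def Dset (c : Fin n → ℕ) : Finset (Fin n) := univ.filter fun j => c j = 1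

/-- Column order of the induction: `ν` regular columns (sum at least two) in increasing order,
then columns of sum one. -/
def RegFirst (ν : ℕ) (c : Fin n → ℕ) : Prop :=
  ν ≤ n ∧ (∀ j : Fin n, (j : ℕ) < ν → 2 ≤ c j) ∧ (∀ j : Fin n, ν ≤ (j : ℕ) → c j = 1) ∧
    ∀ j j' : Fin n, j ≤ j' → (j' : ℕ) < ν → c j ≤ c j'

theorem kappa_pos {c : ℕ} (hc : 0 < c) : 0 < kappa c := by
  unfold kappa piC
  have h : (0 : ℝ) < c := by exact_mod_cast hc
  have h2 : (0 : ℝ) < ((c ! : ℕ) : ℝ) := by exact_mod_cast Nat.factorial_pos c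
  positivity

/-- The unified column step: from the bound of the later columns, weighted by `ω`, and the table
estimate `E`, to the bound of all columns. -/
theorem step_core (R : Fin m → ℕ) (c0 : ℕ) (c' : Fin (n + 1) → ℕ)
    (D : Finset (Fin (n + 1))) (hc0 : 2 ≤ c0) (hL : LevelOK c0)
    (ω : ℕ → ℝ) (hω : ∀ k, 0 ≤ ω k) (E G : ℝ) (hE : 0 < E) (hG : 0 ≤ G)
    (hTab : E * ((tabs R (Fin.cons c0 c')).card : ℝ)
      ≤ ∑ T ∈ tabs R (Fin.cons c0 c'), YS R (units R) (T 0) * ω (kS (T 0) (units R)))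
    (hIH : ∀ x ∈ lev R c0, ((tabs (fun i => R i - x i) c').card : ℝ≥0∞)
        * ENNReal.ofReal (ω (kS x (units R)))
      ≤ ENNReal.ofReal G * IM (fun i => R i - x i) c' (units R) D) :
    ((tabs R (Fin.cons c0 c')).card : ℝ≥0∞)
      ≤ ENNReal.ofReal (G * kappa c0 / E)
        * IM R (Fin.cons c0 c') (units R) (D.map (Fin.succEmb (n + 1))) := by
  set Ω := (tabs R (Fin.cons c0 c')).card with hΩ
  have hκ : 0 < kappa c0 := kappa_pos (by omega)
  have hYn : ∀ x ∈ lev R c0, 0 ≤ YS R (units R) x := fun x hx => YS_nonneg _ _ (mem_lev.1 hx).1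
  have hunits : ∀ i ∈ units R, R i ≤ 1 := fun i hi => (mem_filter.1 hi).2
  have hrec := IM_rec_gen R c0 c' (units R) hunits D (YS R (units R)) hYn (kappa c0) hκ
    (fun t Si ht hSi ht1 hS1 s hs => col_step_S hc0 hL R t Si ht hSi ht1 hS1 hs)
  have hsumT := sum_first_col R c0 c' (fun x => YS R (units R) x * ω (kS x (units R)))
  rw [hsumT] at hTab
  have h1 : ENNReal.ofReal E * (Ω : ℝ≥0∞)
      ≤ ∑ x ∈ lev R c0, ENNReal.ofReal (YS R (units R) x)
          * (((tabs (fun i => R i - x i) c').card : ℝ≥0∞) * ENNReal.ofReal (ω (kS x (units R)))) := by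
    have h2 : ENNReal.ofReal (E * (Ω : ℝ)) ≤ ENNReal.ofReal (∑ x ∈ lev R c0,
        YS R (units R) x * ω (kS x (units R)) * ((tabs (fun i => R i - x i) c').card : ℝ)) :=
      ENNReal.ofReal_le_ofReal hTab
    rw [ENNReal.ofReal_mul hE.le, ENNReal.ofReal_natCast, ENNReal.ofReal_sum_of_nonneg] at h2
    · refine h2.trans (le_of_eq (Finset.sum_congr rfl fun x hx => ?_))
      have h3 := hYn x hx
      rw [ENNReal.ofReal_mul (mul_nonneg h3 (hω _)), ENNReal.ofReal_mul h3, ENNReal.ofReal_natCast]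
      ring
    · intro x hx
      have h3 := hYn x hx
      have h4 := hω (kS x (units R))
      positivity
  have h5 : ENNReal.ofReal E * (Ω : ℝ≥0∞)
      ≤ ENNReal.ofReal G * (ENNReal.ofReal (kappa c0)
        * IM R (Fin.cons c0 c') (units R) (D.map (Fin.succEmb (n + 1)))) := by
    refine h1.trans ?_
    calc _ ≤ ∑ x ∈ lev R c0, ENNReal.ofReal (YS R (units R) x)
          * (ENNReal.ofReal G * IM (fun i => R i - x i) c' (units R) D) := by
          refine Finset.sum_le_sum fun x hx => ?_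
          exact mul_le_mul' le_rfl (hIH x hx)
      _ = ENNReal.ofReal G * ∑ x ∈ lev R c0, ENNReal.ofReal (YS R (units R) x)
          * IM (fun i => R i - x i) c' (units R) D := by
          rw [Finset.mul_sum]
          refine Finset.sum_congr rfl fun x _ => ?_
          ring
      _ ≤ _ := by gcongr
  have hinv : ENNReal.ofReal (1 / E) * ENNReal.ofReal E = 1 := by
    rw [← ENNReal.ofReal_mul (by positivity), one_div, inv_mul_cancel₀ hE.ne', ENNReal.ofReal_one]
  calc (Ω : ℝ≥0∞) = ENNReal.ofReal (1 / E) * (ENNReal.ofReal E * (Ω : ℝ≥0∞)) := by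
        rw [← mul_assoc, hinv, one_mul]
    _ ≤ ENNReal.ofReal (1 / E) * (ENNReal.ofReal G * (ENNReal.ofReal (kappa c0)
        * IM R (Fin.cons c0 c') (units R) (D.map (Fin.succEmb (n + 1))))) := by gcongr
    _ = _ := by
        rw [← mul_assoc, ← mul_assoc, ← ENNReal.ofReal_mul (by positivity),
          ← ENNReal.ofReal_mul (by positivity)]
        congr 2
        field_simp

/-- `kappa` against the binomial mode: `kappa c0 ≤ c0 * b0`. -/
theorem kappa_le_bw {C' c : ℕ} (hc : 0 < c) (hcC : c < C') :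
    kappa c ≤ (c : ℝ) * bw C' ((c : ℝ) / (C' : ℝ)) c := by
  unfold kappa
  exact mul_le_mul_of_nonneg_left (bw_ge_piC hc hcC) (by positivity)

/-- The constants of the induction. `Ay ν` is `y'` of `tab_YS_omega` for `ν` regular columns. -/
noncomputable def Ay (ν : ℕ) : ℝ :=
  (((ν : ℝ) - 1) / ((ν : ℝ) + 1)) * (1 - 1 / (2 * (ν : ℝ)))

/-- The factor of one step with the unit row potential. -/
noncomputable def Arho (ν : ℕ) : ℝ := 1 / (Ay ν * (1 - 1 / ((ν : ℝ) * Ay ν)) ^ 16)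

/-- The constant after `ν` regular columns. -/
noncomputable def Aseq : ℕ → ℝ
  | 0 => 1
  | 1 => 1
  | 2 => 4
  | (ν + 3) => Aseq (ν + 2) * Arho (ν + 3)

/-- `kappa` against the factor of one column of `betaC`. -/
theorem kappa_mul_beta (c0 : ℕ) (c' : Fin n → ℕ) (hc0 : 0 < c0) (hD : 0 < ∑ j, c' j) :
    kappa c0 * betaC c' ≤ (c0 : ℝ) * betaC (Fin.cons c0 c' : Fin (n + 1) → ℕ) := by
  rw [betaC_cons c0 c' hc0 hD]
  have h := kappa_le_bw (C' := c0 + ∑ j, c' j) hc0 (by omega)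
  have h2 := betaC_nonneg c'
  calc kappa c0 * betaC c' ≤ _ := mul_le_mul_of_nonneg_right h h2
    _ = _ := by ring

theorem units_step (R : Fin m → ℕ) (c0 : ℕ) (c' : Fin (n + 1) → ℕ)
    (D : Finset (Fin (n + 1))) (hc0 : 2 ≤ c0) (hL : LevelOK c0) (hD : 0 < ∑ j, c' j)
    (ω : ℕ → ℝ) (hω : ∀ k, 0 ≤ ω k) (E' G0 : ℝ) (hE : 0 < E') (hG : 0 ≤ G0)
    (hTab : E' * (c0 : ℝ) * ((tabs R (Fin.cons c0 c')).card : ℝ)
      ≤ ∑ T ∈ tabs R (Fin.cons c0 c'), YS R (units R) (T 0) * ω (kS (T 0) (units R)))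
    (hIH : ∀ x ∈ lev R c0, ((tabs (fun i => R i - x i) c').card : ℝ≥0∞)
        * ENNReal.ofReal (ω (kS x (units R)))
      ≤ ENNReal.ofReal (G0 * betaC c') * IM (fun i => R i - x i) c' (units R) D) :
    ((tabs R (Fin.cons c0 c')).card : ℝ≥0∞)
      ≤ ENNReal.ofReal (G0 / E' * betaC (Fin.cons c0 c' : Fin (n + 1 + 1) → ℕ))
        * IM R (Fin.cons c0 c') (units R) (D.map (Fin.succEmb (n + 1))) := by
  have hc0r : (0 : ℝ) < c0 := by exact_mod_cast (by omega : 0 < c0)
  have hβ := betaC_nonneg c'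
  have h1 := step_core R c0 c' D hc0 hL ω hω (E' * c0) (G0 * betaC c') (by positivity)
    (by positivity) hTab hIH
  refine h1.trans ?_
  gcongr ENNReal.ofReal ?_ * _
  have h2 := kappa_mul_beta c0 c' (by omega) hD
  have h3 : G0 * betaC c' * kappa c0 / (E' * c0)
      = (G0 / E') * (kappa c0 * betaC c' / c0) := by
    field_simp
  rw [h3]
  refine mul_le_mul_of_nonneg_left ?_ (by positivity)
  rw [div_le_iff₀ hc0r]
  linarith

/-- From the full mask of small rows to any mask, by the unit row lemma. -/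
theorem extend_mask (hn : 0 < n) (R : Fin m → ℕ) (c : Fin n → ℕ) (hc : ∀ j, 0 < c j)
    (hsum : ∑ i, R i = ∑ j, c j) (D : Finset (Fin n)) (M : ℕ) (K : ℝ)
    (hk : ((tabs R c).card : ℝ≥0∞)
        * ENNReal.ofReal ((((kS R (units R) : ℝ) + 1) / ((M : ℝ) + 1)) ^ 16)
      ≤ ENNReal.ofReal K * IM R c (units R) D)
    (S : Finset (Fin m)) (hS : ∀ i ∈ S, R i ≤ 1) :
    ((tabs R c).card : ℝ≥0∞) * ENNReal.ofReal ((((kS R S : ℝ) + 1) / ((M : ℝ) + 1)) ^ 16)
      ≤ ENNReal.ofReal K * IM R c S D := by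
  have hSS : S ⊆ units R := fun i hi => mem_filter.2 ⟨mem_univ _, hS i hi⟩
  have hun : ∀ i ∈ units R, R i ≤ 1 := fun i hi => (mem_filter.1 hi).2
  have hch := IM_chain hn R c hc hsum S (units R) hSS hun D
  set ρ : ℝ := (((kS R S : ℝ) + 1) / ((kS R (units R) : ℝ) + 1)) ^ 16 with hρ
  have hρ0 : 0 ≤ ρ := by positivity
  have hk1 : (0 : ℝ) < (kS R (units R) : ℝ) + 1 := by positivity
  have hM1 : (0 : ℝ) < (M : ℝ) + 1 := by positivity
  have e1 : (((kS R S : ℝ) + 1) / ((M : ℝ) + 1)) ^ 16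
      = ρ * (((kS R (units R) : ℝ) + 1) / ((M : ℝ) + 1)) ^ 16 := by
    rw [hρ, ← mul_pow]
    congr 1
    field_simp
  rw [e1, ENNReal.ofReal_mul hρ0]
  calc _ = ENNReal.ofReal ρ * (((tabs R c).card : ℝ≥0∞)
        * ENNReal.ofReal ((((kS R (units R) : ℝ) + 1) / ((M : ℝ) + 1)) ^ 16)) := by ring
    _ ≤ ENNReal.ofReal ρ * (ENNReal.ofReal K * IM R c (units R) D) := by gcongr
    _ = ENNReal.ofReal K * (ENNReal.ofReal ρ * IM R c (units R) D) := by ring
    _ ≤ _ := by gcongr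

theorem kS_le_card (R : Fin m → ℕ) (S : Finset (Fin m)) (hS : ∀ i ∈ S, R i ≤ 1) : kS R S ≤ m := by
  unfold kS
  calc ∑ i ∈ S, R i ≤ ∑ _i ∈ S, 1 := Finset.sum_le_sum hS
    _ = S.card := by simp
    _ ≤ (univ : Finset (Fin m)).card := Finset.card_le_card (Finset.subset_univ S)
    _ = m := by simp

theorem potential_le_one (R : Fin m → ℕ) (S : Finset (Fin m)) (hS : ∀ i ∈ S, R i ≤ 1) (M : ℕ)
    (hM : m ≤ M) : (((kS R S : ℝ) + 1) / ((M : ℝ) + 1)) ^ 16 ≤ 1 := by
  have h := kS_le_card R S hS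
  have h1 : (kS R S : ℝ) ≤ M := by exact_mod_cast h.trans hM
  have hM1 : (0 : ℝ) < (M : ℝ) + 1 := by positivity
  have h2 : ((kS R S : ℝ) + 1) / ((M : ℝ) + 1) ≤ 1 := by
    rw [div_le_one hM1]
    linarith
  exact pow_le_one₀ (by positivity) h2

/-- The tail of a column order. -/
theorem RegFirst.tail {ν : ℕ} {c : Fin (n + 1) → ℕ} (h : RegFirst (ν + 1) c) :
    RegFirst ν (fun l : Fin n => c l.succ) := by
  obtain ⟨h1, h2, h3, h4⟩ := h
  refine ⟨by omega, fun j hj => h2 _ (by simpa using hj), fun j hj => h3 _ (by simpa using hj),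
    fun j j' hjj hj' => h4 _ _ (Fin.succ_le_succ_iff.2 hjj) (by simpa using hj')⟩

theorem Dset_cons {c0 : ℕ} (hc0 : c0 ≠ 1) (c' : Fin n → ℕ) :
    Dset (Fin.cons c0 c' : Fin (n + 1) → ℕ) = (Dset c').map (Fin.succEmb n) := by
  ext j
  refine Fin.cases ?_ (fun l => ?_) j
  · simp [Dset, hc0]
  · simp [Dset]

/-- The comparison columns of the induction. -/
def Lset (ν : ℕ) : Finset (Fin n) := univ.filter fun l => (l : ℕ) < ν

theorem Lset_card {ν : ℕ} (hν : ν ≤ n) : (Lset ν : Finset (Fin n)).card = ν := by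
  unfold Lset
  rw [Fin.card_filter_val_lt]
  exact min_eq_right hν


theorem Ay_pos {ν : ℕ} (hν : 2 ≤ ν) : 0 < Ay ν := by
  unfold Ay
  have h : (2 : ℝ) ≤ ν := by exact_mod_cast hν
  have h1 : 0 < (ν : ℝ) - 1 := by linarith
  have h2 : 0 < 1 - 1 / (2 * (ν : ℝ)) := by
    have : 1 / (2 * (ν : ℝ)) < 1 := by
      rw [div_lt_one (by positivity)]
      linarith
    linarith
  positivity

theorem one_lt_mul_Ay {ν : ℕ} (hν : 3 ≤ ν) : 1 < (ν : ℝ) * Ay ν := by
  unfold Ay
  have h : (3 : ℝ) ≤ ν := by exact_mod_cast hν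
  have e : (ν : ℝ) * (((ν : ℝ) - 1) / ((ν : ℝ) + 1) * (1 - 1 / (2 * (ν : ℝ))))
      = ((ν : ℝ) - 1) * (2 * (ν : ℝ) - 1) / (2 * ((ν : ℝ) + 1)) := by
    have : (ν : ℝ) ≠ 0 := by positivity
    field_simp
  rw [e, one_lt_div (by positivity)]
  nlinarith

theorem Arho_pos {ν : ℕ} (hν : 3 ≤ ν) : 0 < Arho ν := by
  unfold Arho
  have h1 := Ay_pos (by omega : 2 ≤ ν)
  have h2 := one_lt_mul_Ay hν
  have h3 : 1 / ((ν : ℝ) * Ay ν) < 1 := by
    rw [div_lt_one (by linarith)]
    exact h2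
  have h4 : 0 < 1 - 1 / ((ν : ℝ) * Ay ν) := by linarith
  positivity

theorem Aseq_pos : ∀ ν, 0 < Aseq ν
  | 0 => by simp [Aseq]
  | 1 => by simp [Aseq]
  | 2 => by simp [Aseq]
  | (ν + 3) => by
      have h1 := Aseq_pos (ν + 2)
      have h2 := Arho_pos (ν := ν + 3) (by omega)
      rw [Aseq]
      positivity

theorem Ay_succ (ν : ℕ) : Ay (ν + 1) = ((ν : ℝ) / ((ν : ℝ) + 2)) * (1 - 1 / (2 * ((ν : ℝ) + 1))) := by
  unfold Ay
  push_cast
  rw [show (ν : ℝ) + 1 - 1 = ν by ring, show (ν : ℝ) + 1 + 1 = ν + 2 by ring]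

theorem kS_sub {R x : Fin m → ℕ} (hx : ∀ i, x i ≤ R i) (S : Finset (Fin m)) :
    (kS (fun i => R i - x i) S : ℝ) = (kS R S : ℝ) - kS x S := by
  unfold kS
  push_cast
  rw [← Finset.sum_sub_distrib]
  refine Finset.sum_congr rfl fun i _ => ?_
  rw [Nat.cast_sub (hx i)]

theorem base_all (c : Fin n → ℕ) (hn : 0 < n) (hc : ∀ j, 0 < c j) (ν : ℕ) (hν : ν ≤ 1)
    (hreg : RegFirst ν c) (R : Fin m → ℕ) (hsum : ∑ i, R i = ∑ j, c j) (S : Finset (Fin m))
    (hS : ∀ i ∈ S, R i ≤ 1) :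
    ((tabs R c).card : ℝ≥0∞)
      ≤ ENNReal.ofReal (3 * ((n : ℝ) + 1) * betaC c) * IM R c S (Dset c) := by
  have hβ := betaC_nonneg c
  have hn0 : (0 : ℝ) ≤ n := by positivity
  obtain ⟨h1, h2, h3, h4⟩ := hreg
  interval_cases ν
  · have hc1 : c = fun _ => 1 := funext fun j => h3 j (Nat.zero_le _)
    subst hc1
    have hsum' : ∑ i, R i = n := by simpa using hsum
    have hD : Dset (fun _ : Fin n => 1) = univ := by
      ext j
      simp [Dset]
    rw [hD]
    refine (base_zero hn R hsum' S).trans ?_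
    gcongr ENNReal.ofReal ?_ * _
    nlinarith
  · obtain ⟨d, rfl⟩ : ∃ d, n = d + 1 := ⟨n - 1, by omega⟩
    have hc0 : 2 ≤ c 0 := h2 0 (by simp)
    have hone : Fin.tail c = fun _ => 1 := by
      funext l
      exact h3 l.succ (by simp)
    have hcons : c = Fin.cons (c 0) (fun _ : Fin d => 1) := by
      rw [← hone]
      exact (Fin.cons_self_tail c).symm
    rcases Nat.eq_zero_or_pos d with rfl | hd
    · have hD : Dset c = ∅ := by
        ext j
        have hj : j = 0 := Fin.ext (by have := j.2; simp)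
        subst hj
        simp [Dset]
        omega
      rw [hD]
      refine (base_single R c (by omega) (by simpa using hsum) S hS).trans ?_
      gcongr ENNReal.ofReal ?_ * _
      push_cast
      nlinarith
    · generalize c 0 = c0 at hcons hc0
      subst hcons
      have hD : Dset (Fin.cons c0 (fun _ : Fin d => 1) : Fin (d + 1) → ℕ)
          = (univ : Finset (Fin d)).map (Fin.succEmb d) := by
        rw [Dset_cons (by omega)]
        congr 1
        ext j
        simp [Dset]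
      rw [hD]
      have hs : ∑ i, R i = c0 + d := by
        rw [hsum, Fin.sum_univ_succ]
        simp
      refine (base_one R c0 (by omega) d hd hs S hS).trans ?_
      gcongr ENNReal.ofReal ?_ * _
      refine mul_le_mul_of_nonneg_right ?_ hβ
      push_cast
      linarith

theorem main_all (M : ℕ) (hM : m ≤ M) : ∀ (ν n : ℕ) (c : Fin n → ℕ), 0 < n → (∀ j, 0 < c j) →
    RegFirst ν c → (∀ j, c j = 1 ∨ LevelOK (c j)) →
    ∀ (R : Fin m → ℕ), ∑ i, R i = ∑ j, c j → ∀ S : Finset (Fin m), (∀ i ∈ S, R i ≤ 1) →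
      ((tabs R c).card : ℝ≥0∞) * ENNReal.ofReal ((((kS R S : ℝ) + 1) / ((M : ℝ) + 1)) ^ 16)
        ≤ ENNReal.ofReal (3 * ((n : ℝ) + 1) * Aseq ν * betaC c) * IM R c S (Dset c) := by
  have hbase : ∀ (ν n : ℕ) (c : Fin n → ℕ), ν ≤ 1 → 0 < n → (∀ j, 0 < c j) →
      RegFirst ν c → ∀ (R : Fin m → ℕ), ∑ i, R i = ∑ j, c j → ∀ S : Finset (Fin m),
      (∀ i ∈ S, R i ≤ 1) →
      ((tabs R c).card : ℝ≥0∞) * ENNReal.ofReal ((((kS R S : ℝ) + 1) / ((M : ℝ) + 1)) ^ 16)
        ≤ ENNReal.ofReal (3 * ((n : ℝ) + 1) * Aseq ν * betaC c) * IM R c S (Dset c) := by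
    intro ν n c hν hn hc hreg R hsum S hS
    have h1 := base_all c hn hc ν hν hreg R hsum S hS
    have h2 := potential_le_one R S hS M hM
    have hA : Aseq ν = 1 := by
      interval_cases ν <;> simp [Aseq]
    rw [hA, mul_one]
    calc _ ≤ ((tabs R c).card : ℝ≥0∞) * 1 := by
          gcongr
          exact ENNReal.ofReal_le_one.2 h2
      _ = ((tabs R c).card : ℝ≥0∞) := mul_one _
      _ ≤ _ := h1
  intro ν
  induction ν with
  | zero =>
    intro n c hn hc hreg _ R hsum S hS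
    exact hbase 0 n c (by omega) hn hc hreg R hsum S hS
  | succ ν ih =>
    intro n c hn hc hreg hOK R hsum S hS
    rcases Nat.eq_zero_or_pos ν with rfl | hνpos
    · exact hbase 1 n c le_rfl hn hc hreg R hsum S hS
    obtain ⟨hνn, h2, h3, h4⟩ := id hreg
    obtain ⟨n', rfl⟩ : ∃ n', n = n' + 1 + 1 := ⟨n - 2, by omega⟩
    obtain ⟨c0, c', rfl⟩ : ∃ (c0 : ℕ) (c' : Fin (n' + 1) → ℕ), c = Fin.cons c0 c' :=
      ⟨c 0, Fin.tail c, (Fin.cons_self_tail c).symm⟩
    have hreg' : RegFirst ν c' := by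
      have := RegFirst.tail hreg
      simpa using this
    have hc0 : 2 ≤ c0 := by
      have := h2 0 (by simp)
      simpa using this
    have hL0 : LevelOK c0 := by
      rcases hOK 0 with h | h
      · simp at h
        omega
      · simpa using h
    have hc' : ∀ j, 0 < c' j := fun j => by
      have := hc j.succ
      simpa using this
    have hOK' : ∀ j, c' j = 1 ∨ LevelOK (c' j) := fun j => by
      have := hOK j.succ
      simpa using this
    have hmono : ∀ l : Fin (n' + 1), (l : ℕ) < ν → c0 ≤ c' l := by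
      intro l hl
      have := h4 0 l.succ (Fin.zero_le _) (by simpa using hl)
      simpa using this
    have hDpos : 0 < ∑ j, c' j := Finset.sum_pos (fun j _ => hc' j) ⟨0, mem_univ _⟩
    set L : Finset (Fin (n' + 1)) := Lset ν with hLdef
    have hLcard : L.card = ν := Lset_card hreg'.1
    have hLc : ∀ l ∈ L, (Fin.cons c0 c' : Fin (n' + 1 + 1) → ℕ) 0
        ≤ (Fin.cons c0 c' : Fin (n' + 1 + 1) → ℕ) l.succ := by
      intro l hl
      have : (l : ℕ) < ν := (mem_filter.1 hl).2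
      simpa using hmono l this
    have hc00 : 2 ≤ (Fin.cons c0 c' : Fin (n' + 1 + 1) → ℕ) 0 := by simpa using hc0
    have hDset := Dset_cons (c0 := c0) (by omega) c'
    rw [hDset]
    have hsumcons : ∑ j, (Fin.cons c0 c' : Fin (n' + 1 + 1) → ℕ) j = c0 + ∑ j, c' j :=
      Fin.sum_univ_succ _
    have hun : ∀ i ∈ units R, R i ≤ 1 := fun i hi => (mem_filter.1 hi).2
    have hsubsum : ∀ x ∈ lev R c0, ∑ i, (R i - x i) = ∑ j, c' j := by
      intro x hx
      obtain ⟨hxR, hxc⟩ := mem_lev.1 hx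
      have : ∑ i, (R i - x i) + ∑ i, x i = ∑ i, R i := by
        rw [← Finset.sum_add_distrib]
        refine Finset.sum_congr rfl fun i _ => ?_
        have := hxR i
        omega
      omega
    have hsubun : ∀ x ∈ lev R c0, ∀ i ∈ units R, R i - x i ≤ 1 := by
      intro x _ i hi
      have := hun i hi
      omega
    refine extend_mask (by omega) R _ hc hsum _ M _ ?_ S hS
    have hβ0 := betaC_nonneg (Fin.cons c0 c' : Fin (n' + 1 + 1) → ℕ)
    rcases Nat.lt_or_ge ν 2 with hν2 | hν2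
    · -- two regular columns: no potential needed
      have hν1 : ν = 1 := by omega
      subst hν1
      have htab := tab_YS R (Fin.cons c0 c') L hLc hc00
      rw [hLcard] at htab
      simp only [Fin.cons_zero] at htab
      have hstep := units_step R c0 c' (Dset c') hc0 hL0 hDpos (fun _ => 1) (fun _ => zero_le_one)
        (1 / 4) (3 * (((n' + 1 : ℕ) : ℝ) + 1)) (by norm_num) (by positivity)
        (by
          simp only [mul_one]
          refine le_trans (le_of_eq ?_) htab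
          norm_num)
        (fun x hx => by
          rw [ENNReal.ofReal_one, mul_one]
          exact base_all c' (by omega) hc' 1 le_rfl hreg' _ (hsubsum x hx) _ (hsubun x hx))
      have h6 := potential_le_one R (units R) hun M hM
      calc _ ≤ ((tabs R (Fin.cons c0 c')).card : ℝ≥0∞) * 1 := by
            gcongr
            exact ENNReal.ofReal_le_one.2 h6
        _ = ((tabs R (Fin.cons c0 c')).card : ℝ≥0∞) := mul_one _
        _ ≤ _ := hstep
        _ ≤ _ := by
            gcongr ENNReal.ofReal ?_ * _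
            refine mul_le_mul_of_nonneg_right ?_ hβ0
            have hn0 : (0 : ℝ) ≤ n' := by positivity
            have e : Aseq (1 + 1) = 4 := by simp [Aseq]
            rw [e]
            push_cast
            nlinarith
    · -- at least three regular columns
      obtain ⟨ν₂, rfl⟩ : ∃ ν₂, ν = ν₂ + 2 := ⟨ν - 2, by omega⟩
      set k := kS R (units R) with hk
      set ψ : ℝ := (((k : ℝ) + 1) / ((M : ℝ) + 1)) ^ 16 with hψ
      have hψ0 : 0 < ψ := by positivity
      set y' : ℝ := Ay (ν₂ + 2 + 1) with hy'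
      set a : ℝ := 1 / (((ν₂ + 2 + 1 : ℕ) : ℝ) * y') with ha
      have hy0 : 0 < y' := Ay_pos (by omega)
      have ha1 : a < 1 := by
        have := one_lt_mul_Ay (ν := ν₂ + 2 + 1) (by omega)
        rw [ha, div_lt_one (by positivity)]
        exact this
      have hE' : 0 < y' * (1 - a) ^ 16 := by
        have : 0 < 1 - a := by linarith
        positivity
      have hAeq : Aseq (ν₂ + 2 + 1) = Aseq (ν₂ + 2) * (1 / (y' * (1 - a) ^ 16)) := by
        rw [Aseq]
        rfl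
      have hA0 := Aseq_pos (ν₂ + 2)
      have htab := tab_YS_omega R (Fin.cons c0 c') L hLc hc00 (by rw [hLcard]; omega) 16 y' a
        (by
          rw [hLcard, hy', Ay_succ])
        (by
          rw [hLcard, ha]
          push_cast
          rfl)
      simp only [Fin.cons_zero] at htab
      have hnn : (0 : ℝ) ≤ 3 * (((n' + 1 : ℕ) : ℝ) + 1) * Aseq (ν₂ + 2) / ψ := by positivity
      have hstep := units_step R c0 c' (Dset c') hc0 hL0 hDpos
        (fun x => (1 - (x : ℝ) / ((k : ℝ) + 1)) ^ 16)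
        (fun x => by positivity) (y' * (1 - a) ^ 16)
        (3 * (((n' + 1 : ℕ) : ℝ) + 1) * Aseq (ν₂ + 2) / ψ) hE' hnn
        htab
        (fun x hx => by
          have hxR := (mem_lev.1 hx).1
          have h1 := ih (n' + 1) c' (by omega) hc' hreg' hOK' (fun i => R i - x i) (hsubsum x hx)
            (units R) (hsubun x hx)
          rw [kS_sub hxR] at h1
          have hk1 : (0 : ℝ) < (k : ℝ) + 1 := by positivity
          have hM1 : (0 : ℝ) < (M : ℝ) + 1 := by positivity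
          have e1 : (((k : ℝ) - (kS x (units R) : ℝ) + 1) / ((M : ℝ) + 1)) ^ 16
              = ψ * (1 - ((kS x (units R) : ℕ) : ℝ) / ((k : ℝ) + 1)) ^ 16 := by
            rw [hψ, ← mul_pow]
            congr 1
            field_simp
            ring
          rw [e1, ENNReal.ofReal_mul hψ0.le] at h1
          have hinv : ENNReal.ofReal (1 / ψ) * ENNReal.ofReal ψ = 1 := by
            rw [← ENNReal.ofReal_mul (by positivity), one_div, inv_mul_cancel₀ hψ0.ne',
              ENNReal.ofReal_one]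
          have hβ' := betaC_nonneg c'
          calc _ = ENNReal.ofReal (1 / ψ) * (ENNReal.ofReal ψ * (((tabs (fun i => R i - x i) c').card : ℝ≥0∞)
                * ENNReal.ofReal ((1 - ((kS x (units R) : ℕ) : ℝ) / ((k : ℝ) + 1)) ^ 16))) := by
                rw [← mul_assoc, hinv, one_mul]
            _ ≤ ENNReal.ofReal (1 / ψ) * (ENNReal.ofReal (3 * (((n' + 1 : ℕ) : ℝ) + 1)
                  * Aseq (ν₂ + 2) * betaC c') * IM (fun i => R i - x i) c' (units R) (Dset c')) := by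
                refine mul_le_mul' le_rfl ?_
                refine le_trans (le_of_eq ?_) h1
                ring
            _ = _ := by
                rw [← mul_assoc, ← ENNReal.ofReal_mul (by positivity)]
                congr 2
                field_simp)
      have hinvψ : ENNReal.ofReal
          (3 * (((n' + 1 : ℕ) : ℝ) + 1) * Aseq (ν₂ + 2) / ψ / (y' * (1 - a) ^ 16)
            * betaC (Fin.cons c0 c' : Fin (n' + 1 + 1) → ℕ)) * ENNReal.ofReal ψ
          = ENNReal.ofReal (3 * (((n' + 1 : ℕ) : ℝ) + 1) * Aseq (ν₂ + 2 + 1)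
            * betaC (Fin.cons c0 c' : Fin (n' + 1 + 1) → ℕ)) := by
        rw [← ENNReal.ofReal_mul (by positivity)]
        congr 1
        rw [hAeq]
        field_simp
      calc _ ≤ ENNReal.ofReal
            (3 * (((n' + 1 : ℕ) : ℝ) + 1) * Aseq (ν₂ + 2) / ψ / (y' * (1 - a) ^ 16)
              * betaC (Fin.cons c0 c' : Fin (n' + 1 + 1) → ℕ))
            * IM R (Fin.cons c0 c') (units R) (map (Fin.succEmb (n' + 1)) (Dset c'))
            * ENNReal.ofReal ψ := by
            gcongr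
        _ = ENNReal.ofReal (3 * (((n' + 1 : ℕ) : ℝ) + 1) * Aseq (ν₂ + 2 + 1)
              * betaC (Fin.cons c0 c' : Fin (n' + 1 + 1) → ℕ))
            * IM R (Fin.cons c0 c') (units R) (map (Fin.succEmb (n' + 1)) (Dset c')) := by
            rw [← hinvψ]
            ring
        _ ≤ _ := by
            gcongr ENNReal.ofReal ?_ * _
            refine mul_le_mul_of_nonneg_right ?_ hβ0
            have hA3 := Aseq_pos (ν₂ + 2 + 1)
            refine mul_le_mul_of_nonneg_right ?_ hA3.le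
            push_cast
            linarith


theorem Aseq_three : Aseq 3 = 4 * ((12 / 5) * 5 ^ 16) := by
  have : Aseq 3 = Aseq 2 * Arho 3 := rfl
  rw [this]
  have h2 : Aseq 2 = 4 := rfl
  rw [h2]
  unfold Arho Ay
  norm_num

theorem Aseq_four : Aseq 4 = 4 * ((12 / 5) * 5 ^ 16) * ((40 / 21) * (21 / 11) ^ 16) := by
  have : Aseq 4 = Aseq 3 * Arho 4 := rfl
  rw [this, Aseq_three]
  unfold Arho Ay
  norm_num

/-- The ratio bound for `ν ≥ 5`. -/
theorem Arho_le {N : ℕ} (hN : 5 ≤ N) :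
    Arho N ≤ ((N : ℝ) * ((N : ℝ) + 1) / ((N : ℝ) - 1) ^ 2)
      * (((N : ℝ) - 3) / ((N : ℝ) - 4)) ^ 16 := by
  have hr : (5 : ℝ) ≤ N := by exact_mod_cast hN
  have hy := Ay_pos (ν := N) (by omega)
  have h1 := one_lt_mul_Ay (ν := N) (by omega)
  have hy2 : (N : ℝ) - 3 ≤ (N : ℝ) * Ay N := by
    unfold Ay
    have e : (N : ℝ) * (((N : ℝ) - 1) / ((N : ℝ) + 1) * (1 - 1 / (2 * (N : ℝ))))
        = ((N : ℝ) - 1) * (2 * (N : ℝ) - 1) / (2 * ((N : ℝ) + 1)) := by
      have : (N : ℝ) ≠ 0 := by positivity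
      field_simp
    rw [e, le_div_iff₀ (by positivity)]
    nlinarith
  have ha : 1 / ((N : ℝ) * Ay N) ≤ 1 / ((N : ℝ) - 3) :=
    one_div_le_one_div_of_le (by linarith) hy2
  have h1a : ((N : ℝ) - 4) / ((N : ℝ) - 3) ≤ 1 - 1 / ((N : ℝ) * Ay N) := by
    have e : ((N : ℝ) - 4) / ((N : ℝ) - 3) = 1 - 1 / ((N : ℝ) - 3) := by
      have : (N : ℝ) - 3 ≠ 0 := by linarith
      field_simp
      ring
    rw [e]
    linarith
  have h14 : 0 < ((N : ℝ) - 4) / ((N : ℝ) - 3) := div_pos (by linarith) (by linarith)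
  have hpow : (((N : ℝ) - 4) / ((N : ℝ) - 3)) ^ 16 ≤ (1 - 1 / ((N : ℝ) * Ay N)) ^ 16 :=
    pow_le_pow_left₀ h14.le h1a 16
  have hy3 : ((N : ℝ) - 1) ^ 2 / ((N : ℝ) * ((N : ℝ) + 1)) ≤ Ay N := by
    unfold Ay
    have e : ((N : ℝ) - 1) / ((N : ℝ) + 1) * (1 - 1 / (2 * (N : ℝ)))
        = ((N : ℝ) - 1) * (2 * (N : ℝ) - 1) / (2 * (N : ℝ) * ((N : ℝ) + 1)) := by
      have : (N : ℝ) ≠ 0 := by positivity
      field_simp
    rw [e, div_le_div_iff₀ (by positivity) (by positivity)]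
    have h5 : 0 < (N : ℝ) := by positivity
    have h6 : 0 < (N : ℝ) + 1 := by positivity
    have h7 : 0 < (N : ℝ) - 1 := by linarith
    have h8 : 0 < (N : ℝ) * ((N : ℝ) + 1) * ((N : ℝ) - 1) := by positivity
    nlinarith
  have h15 : 0 < ((N : ℝ) - 1) ^ 2 / ((N : ℝ) * ((N : ℝ) + 1)) := by
    have h7 : 0 < (N : ℝ) - 1 := by linarith
    positivity
  unfold Arho
  rw [show ((N : ℝ) * ((N : ℝ) + 1) / ((N : ℝ) - 1) ^ 2) * (((N : ℝ) - 3) / ((N : ℝ) - 4)) ^ 16
      = 1 / ((((N : ℝ) - 1) ^ 2 / ((N : ℝ) * ((N : ℝ) + 1))) * (((N : ℝ) - 4) / ((N : ℝ) - 3)) ^ 16) by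
    have h7 : (N : ℝ) - 1 ≠ 0 := by linarith
    have h8 : (N : ℝ) - 3 ≠ 0 := by linarith
    have h9 : (N : ℝ) - 4 ≠ 0 := by linarith
    have h10 : (N : ℝ) ≠ 0 := by positivity
    have h11 : (N : ℝ) + 1 ≠ 0 := by positivity
    field_simp]
  refine one_div_le_one_div_of_le (by positivity) ?_
  exact mul_le_mul hy3 hpow (by positivity) hy.le

theorem Aseq_ge_four (ν : ℕ) : Aseq (ν + 4)
    ≤ 2 * 10 ^ 15 * (((ν + 4 : ℕ) : ℝ) ^ 2 * (((ν + 4 : ℕ) : ℝ) + 1) * (((ν + 4 : ℕ) : ℝ) - 3) ^ 16) := by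
  induction ν with
  | zero =>
    rw [Aseq_four]
    norm_num
  | succ ν ih =>
    have h1 : Aseq (ν + 1 + 4) = Aseq (ν + 4) * Arho (ν + 1 + 4) := rfl
    rw [h1]
    have h2 := Arho_le (N := ν + 1 + 4) (by omega)
    have h3 := Arho_pos (ν := ν + 1 + 4) (by omega)
    have hnn : (0 : ℝ) ≤ ν := by positivity
    set N : ℝ := ((ν + 1 + 4 : ℕ) : ℝ) with hN
    have hN' : ((ν + 4 : ℕ) : ℝ) = N - 1 := by
      rw [hN]
      push_cast
      ring
    rw [hN'] at ih
    have hN5 : 5 ≤ N := by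
      rw [hN]
      push_cast
      linarith
    have hpos : 0 ≤ 2 * 10 ^ 15 * ((N - 1) ^ 2 * ((N - 1) + 1) * ((N - 1) - 3) ^ 16) := by
      have : 0 < N - 1 - 3 := by linarith
      have : 0 < N - 1 := by linarith
      positivity
    calc Aseq (ν + 4) * Arho (ν + 1 + 4)
        ≤ (2 * 10 ^ 15 * ((N - 1) ^ 2 * ((N - 1) + 1) * ((N - 1) - 3) ^ 16)) * Arho (ν + 1 + 4) :=
          mul_le_mul_of_nonneg_right ih h3.le
      _ ≤ (2 * 10 ^ 15 * ((N - 1) ^ 2 * ((N - 1) + 1) * ((N - 1) - 3) ^ 16))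
          * ((N * (N + 1) / (N - 1) ^ 2) * ((N - 3) / (N - 4)) ^ 16) :=
          mul_le_mul_of_nonneg_left h2 hpos
      _ = _ := by
          have h7 : N - 1 ≠ 0 := by linarith
          have h8 : N - 3 ≠ 0 := by linarith
          have h9 : N - 4 ≠ 0 := by linarith
          have e : N - 1 - 3 = N - 4 := by ring
          have e2 : N - 1 + 1 = N := by ring
          rw [e, e2]
          field_simp

theorem Aseq_le (ν : ℕ) : Aseq ν ≤ 10 ^ 17 * ((ν : ℝ) + 1) ^ 19 := by
  rcases Nat.lt_or_ge ν 4 with h | h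
  · have hone : (1 : ℝ) ≤ ((ν : ℝ) + 1) ^ 19 := by
      have : (1 : ℝ) ≤ (ν : ℝ) + 1 := by
        have : (0 : ℝ) ≤ ν := by positivity
        linarith
      exact one_le_pow₀ this
    have hA : Aseq ν ≤ 10 ^ 17 := by
      interval_cases ν
      · simp [Aseq]; norm_num
      · simp [Aseq]; norm_num
      · simp [Aseq]; norm_num
      · rw [Aseq_three]; norm_num
    calc Aseq ν ≤ 10 ^ 17 := hA
      _ = 10 ^ 17 * 1 := (mul_one _).symm
      _ ≤ _ := mul_le_mul_of_nonneg_left hone (by positivity)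
  · obtain ⟨ν', rfl⟩ : ∃ ν', ν = ν' + 4 := ⟨ν - 4, by omega⟩
    refine (Aseq_ge_four ν').trans ?_
    set N : ℝ := ((ν' + 4 : ℕ) : ℝ) with hN
    have hN4 : 4 ≤ N := by
      rw [hN]
      push_cast
      have : (0 : ℝ) ≤ ν' := by positivity
      linarith
    have h1 : N ^ 2 ≤ (N + 1) ^ 2 := pow_le_pow_left₀ (by linarith) (by linarith) 2
    have h2 : (N - 3) ^ 16 ≤ (N + 1) ^ 16 := pow_le_pow_left₀ (by linarith) (by linarith) 16
    have h3 : N ^ 2 * (N + 1) * (N - 3) ^ 16 ≤ (N + 1) ^ 19 := by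
      calc N ^ 2 * (N + 1) * (N - 3) ^ 16 ≤ (N + 1) ^ 2 * (N + 1) * (N + 1) ^ 16 := by
            have : 0 ≤ N - 3 := by linarith
            gcongr
        _ = (N + 1) ^ 19 := by ring
    have h4 : 0 ≤ (N + 1) ^ 19 := by positivity
    nlinarith


theorem card_tabs_sorted (hm : 0 < m) (hn : 0 < n) (r : Fin m → ℕ) (c : Fin n → ℕ)
    (hr : ∀ i, 0 < r i) (hc : ∀ j, 0 < c j) (hsum : ∑ i, r i = ∑ j, c j) (ν : ℕ)
    (hreg : RegFirst ν c) (hOK : ∀ j, c j = 1 ∨ LevelOK (c j)) :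
    ((tabs r c).card : ℝ≥0∞)
      ≤ ENNReal.ofReal (((m : ℝ) + 1) ^ 16 * ((n : ℝ) + 1) ^ 16 * (3 * ((n : ℝ) + 1) * Aseq ν)
          * betaC c) * Ihat r c := by
  have h1 := main_all (m := m) m le_rfl ν n c hn hc hreg hOK r hsum ∅ (by simp)
  have hk0 : ((kS r ∅ : ℕ) : ℝ) = 0 := by simp [kS]
  rw [hk0] at h1
  set D := Dset c with hD
  have hDc : ∀ j ∈ D, c j ≤ 1 := fun j hj => by
    have := (mem_filter.1 hj).2
    omega
  have hA := Aseq_pos ν
  have hβc := betaC_nonneg c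
  have hβr := betaC_nonneg r
  set K : ℝ := 3 * ((n : ℝ) + 1) * Aseq ν with hK
  have hK0 : 0 ≤ K := by positivity
  have htr := beta_IM_transpose r c hr hc hsum ∅ D
  have htr0 := beta_IM_transpose r c hr hc hsum ∅ ∅
  have hch := IM_chain hm c r hr hsum.symm ∅ D (Finset.empty_subset _) hDc ∅
  have hk0' : ((kS c ∅ : ℕ) : ℝ) = 0 := by simp [kS]
  rw [hk0'] at hch
  set q : ℝ := (kS c D : ℝ) with hq
  have hq0 : 0 ≤ q := by positivity
  have hqn : q ≤ n := by
    rw [hq]
    exact_mod_cast kS_le_card c D hDc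
  have hbound : IM c r D ∅ ≤ ENNReal.ofReal (((n : ℝ) + 1) ^ 16) * IM c r ∅ ∅ := by
    have hq1 : (0 : ℝ) < q + 1 := by linarith
    have h3 : ENNReal.ofReal ((q + 1) ^ 16) * ENNReal.ofReal (((0 + 1) / (q + 1)) ^ 16) = 1 := by
      rw [← ENNReal.ofReal_mul (by positivity), ← mul_pow]
      have : (q + 1) * ((0 + 1) / (q + 1)) = 1 := by
        field_simp
        ring
      rw [this]
      simp
    calc IM c r D ∅ = ENNReal.ofReal ((q + 1) ^ 16) * (ENNReal.ofReal (((0 + 1) / (q + 1)) ^ 16) * IM c r D ∅) := by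
          rw [← mul_assoc, h3, one_mul]
      _ ≤ ENNReal.ofReal ((q + 1) ^ 16) * IM c r ∅ ∅ := by gcongr
      _ ≤ _ := by
          gcongr
  have hm1 : (0 : ℝ) < (m : ℝ) + 1 := by positivity
  have hinv : ENNReal.ofReal (((m : ℝ) + 1) ^ 16) * ENNReal.ofReal (((0 + 1) / ((m : ℝ) + 1)) ^ 16) = 1 := by
    rw [← ENNReal.ofReal_mul (by positivity), ← mul_pow]
    have : ((m : ℝ) + 1) * ((0 + 1) / ((m : ℝ) + 1)) = 1 := by
      field_simp
      ring
    rw [this]
    simp
  have hIM0 : IM r c ∅ ∅ = Ihat r c := IM_empty r c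
  rw [hIM0] at htr0
  calc ((tabs r c).card : ℝ≥0∞)
      = ENNReal.ofReal (((m : ℝ) + 1) ^ 16) * (((tabs r c).card : ℝ≥0∞)
          * ENNReal.ofReal (((0 + 1) / ((m : ℝ) + 1)) ^ 16)) := by
        rw [mul_left_comm, hinv, mul_one]
    _ ≤ ENNReal.ofReal (((m : ℝ) + 1) ^ 16) * (ENNReal.ofReal (K * betaC c) * IM r c ∅ D) := by
        gcongr
    _ = ENNReal.ofReal (((m : ℝ) + 1) ^ 16) * (ENNReal.ofReal K * (ENNReal.ofReal (betaC c) * IM r c ∅ D)) := by
        rw [ENNReal.ofReal_mul hK0]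
        ring
    _ = ENNReal.ofReal (((m : ℝ) + 1) ^ 16) * (ENNReal.ofReal K * (ENNReal.ofReal (betaC r) * IM c r D ∅)) := by
        rw [htr]
    _ ≤ ENNReal.ofReal (((m : ℝ) + 1) ^ 16) * (ENNReal.ofReal K * (ENNReal.ofReal (betaC r)
          * (ENNReal.ofReal (((n : ℝ) + 1) ^ 16) * IM c r ∅ ∅))) := by
        gcongr
    _ = ENNReal.ofReal (((m : ℝ) + 1) ^ 16) * ENNReal.ofReal K * ENNReal.ofReal (((n : ℝ) + 1) ^ 16)
          * (ENNReal.ofReal (betaC r) * IM c r ∅ ∅) := by ring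
    _ = ENNReal.ofReal (((m : ℝ) + 1) ^ 16) * ENNReal.ofReal K * ENNReal.ofReal (((n : ℝ) + 1) ^ 16)
          * (ENNReal.ofReal (betaC c) * Ihat r c) := by rw [htr0]
    _ = _ := by
        rw [← ENNReal.ofReal_mul (by positivity), ← ENNReal.ofReal_mul (by positivity), ← mul_assoc,
          ← ENNReal.ofReal_mul (by positivity)]
        congr 2
        ring

/-- Every column order can be brought to the order of the induction. -/
theorem exists_regFirst (c : Fin n → ℕ) (hc : ∀ j, 0 < c j) :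
    ∃ (σ : Equiv.Perm (Fin n)) (ν : ℕ), RegFirst ν (c ∘ σ) := by
  classical
  set B : ℕ := ∑ j, c j + 1 with hB
  set f : Fin n → ℕ := fun j => if c j = 1 then B else c j with hf
  set σ := Tuple.sort f with hσ
  have hmono : Monotone (f ∘ σ) := Tuple.monotone_sort f
  have hlt : ∀ j, c j ≠ 1 → c j < B := by
    intro j _
    have : c j ≤ ∑ j, c j := Finset.single_le_sum (f := c) (fun _ _ => Nat.zero_le _) (mem_univ j)
    omega
  set d : Fin n → ℕ := c ∘ σ with hd
  have hfd : ∀ j, f (σ j) = if d j = 1 then B else d j := fun j => rfl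
  -- a unit column is followed by unit columns only
  have hup : ∀ j j', j ≤ j' → d j = 1 → d j' = 1 := by
    intro j j' hjj hj
    by_contra hne
    have h1 := hmono hjj
    simp only [Function.comp, hfd] at h1
    rw [if_pos hj, if_neg hne] at h1
    have := hlt (σ j') hne
    simp only [hd, Function.comp] at h1
    omega
  set R : Finset (Fin n) := univ.filter fun j => d j ≠ 1 with hR
  refine ⟨σ, R.card, ?_, ?_, ?_, ?_⟩
  · calc R.card ≤ (univ : Finset (Fin n)).card := Finset.card_le_card (Finset.filter_subset _ _)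
      _ = n := by simp
  · intro j hj
    have hne : d j ≠ 1 := by
      intro h1
      -- all regular positions lie strictly before `j`
      have hsub : R ⊆ (univ.filter fun l : Fin n => (l : ℕ) < j) := by
        intro l hl
        have hl' := (mem_filter.1 hl).2
        refine mem_filter.2 ⟨mem_univ _, ?_⟩
        by_contra hlj
        exact hl' (hup j l (Fin.le_def.2 (not_lt.1 hlj)) h1)
      have hcard := Finset.card_le_card hsub
      rw [Fin.card_filter_val_lt] at hcard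
      have := min_le_right n (j : ℕ)
      omega
    have h5 : 0 < d j := hc (σ j)
    show 2 ≤ d j
    omega
  · intro j hj
    by_contra hne
    -- all positions up to `j` are regular
    have hsub : (univ.filter fun l : Fin n => (l : ℕ) < (j : ℕ) + 1) ⊆ R := by
      intro l hl
      have hl' := (mem_filter.1 hl).2
      refine mem_filter.2 ⟨mem_univ _, fun h1 => hne (hup l j ?_ h1)⟩
      simp only [Fin.le_def]
      omega
    have hcard := Finset.card_le_card hsub
    rw [Fin.card_filter_val_lt] at hcard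
    have h6 : min n ((j : ℕ) + 1) = (j : ℕ) + 1 := min_eq_right (by have := j.2; omega)
    omega
  · intro j j' hjj hj'
    have hreg : ∀ l : Fin n, (l : ℕ) < R.card → d l ≠ 1 := by
      intro l hl h1
      have hsub : R ⊆ (univ.filter fun l' : Fin n => (l' : ℕ) < l) := by
        intro l' hl'
        have hl'' := (mem_filter.1 hl').2
        refine mem_filter.2 ⟨mem_univ _, ?_⟩
        by_contra hlj
        exact hl'' (hup l l' (Fin.le_def.2 (not_lt.1 hlj)) h1)
      have hcard := Finset.card_le_card hsub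
      rw [Fin.card_filter_val_lt] at hcard
      have := min_le_right n (l : ℕ)
      omega
    have h1 := hmono hjj
    simp only [Function.comp, hfd] at h1
    have hj1 : (j : ℕ) < R.card := lt_of_le_of_lt (Fin.le_def.1 hjj) hj'
    rw [if_neg (hreg j hj1), if_neg (hreg j' hj')] at h1
    exact h1

/-- THE MAIN THEOREM. -/
theorem card_tabs_poly (hm : 0 < m) (hn : 0 < n) (r : Fin m → ℕ) (c : Fin n → ℕ)
    (hr : ∀ i, 0 < r i) (hc : ∀ j, 0 < c j) (hsum : ∑ i, r i = ∑ j, c j)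
    (hOK : ∀ j, c j = 1 ∨ LevelOK (c j)) :
    ((tabs r c).card : ℝ≥0∞)
      ≤ ENNReal.ofReal (10 ^ 18 * ((m : ℝ) + 1) ^ 16 * ((n : ℝ) + 1) ^ 36 * betaC c) * Ihat r c := by
  obtain ⟨σ, ν, hreg⟩ := exists_regFirst c hc
  have hs : ∑ j, (c ∘ σ) j = ∑ j, c j := Equiv.sum_comp σ c
  have h := card_tabs_sorted hm hn r (c ∘ σ) hr (fun j => hc (σ j)) (by rw [hs, hsum]) ν hreg
    (fun j => hOK (σ j))
  rw [card_tabs_comp, betaC_comp, Ihat_comp] at h
  refine h.trans ?_
  gcongr ENNReal.ofReal ?_ * _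
  refine mul_le_mul_of_nonneg_right ?_ (betaC_nonneg c)
  have hνn : ν ≤ n := hreg.1
  have hνr : (ν : ℝ) ≤ n := by exact_mod_cast hνn
  have hA := Aseq_le ν
  have hm0 : (0 : ℝ) < (m : ℝ) + 1 := by positivity
  have hn0 : (0 : ℝ) < (n : ℝ) + 1 := by positivity
  have hA2 : Aseq ν ≤ 10 ^ 17 * ((n : ℝ) + 1) ^ 19 := by
    refine hA.trans ?_
    gcongr
  calc ((m : ℝ) + 1) ^ 16 * ((n : ℝ) + 1) ^ 16 * (3 * ((n : ℝ) + 1) * Aseq ν)
      ≤ ((m : ℝ) + 1) ^ 16 * ((n : ℝ) + 1) ^ 16 * (3 * ((n : ℝ) + 1) * (10 ^ 17 * ((n : ℝ) + 1) ^ 19)) := by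
        gcongr
    _ = 3 * 10 ^ 17 * ((m : ℝ) + 1) ^ 16 * ((n : ℝ) + 1) ^ 36 := by ring
    _ ≤ _ := by
        gcongr
        norm_num

end Vale.Agent.Lib.P328.CapS
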