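import Vale.Agent.Lib.P328.CapS.Rec
import Vale.Agent.Lib.P328.Cap.Step

/-!
# P328, all margins: the one column inequality in capacity form, with the small rows merged
-/

namespace Vale.Agent.Lib.P328.CapS

open Finset Vale.Agent.Lib.P328.Cap
open scoped Nat

variable {m : ℕ}

/-- The credit of one row is nonnegative. -/
theorem credit_nonneg {a b : ℕ} (h : a ≤ b) : 0 ≤ (a : ℝ) * ((b : ℝ) - a) / ((b : ℝ) - 1) := by
  rcases Nat.eq_zero_or_pos a with rfl | ha
  · simp
  · have hb : 1 ≤ b := by omega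
    have h1 : (a : ℝ) ≤ b := by exact_mod_cast h
    have h2 : (1 : ℝ) ≤ b := by exact_mod_cast hb
    exact div_nonneg (mul_nonneg (by positivity) (by linarith)) (by linarith)

/-- The credit of one row is at most its entry. -/
theorem credit_le {a b : ℕ} (h : a ≤ b) : (a : ℝ) * ((b : ℝ) - a) / ((b : ℝ) - 1) ≤ a := by
  rcases Nat.eq_zero_or_pos a with rfl | ha
  · simp
  · rcases Nat.lt_or_ge 1 b with hb | hb
    · have h2 : (2 : ℝ) ≤ b := by exact_mod_cast hb
      have h1 : (1 : ℝ) ≤ a := by exact_mod_cast ha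
      have hpos : (0 : ℝ) < (b : ℝ) - 1 := by linarith
      rw [div_le_iff₀ hpos]
      nlinarith
    · have hb1 : b = 1 := by omega
      subst hb1
      simp

theorem kS_le {R x : Fin m → ℕ} (S : Finset (Fin m)) (hx : ∀ i, x i ≤ R i) : kS x S ≤ kS R S :=
  Finset.sum_le_sum fun i _ => hx i

theorem YS_nonneg (R : Fin m → ℕ) (S : Finset (Fin m)) {x : Fin m → ℕ} (hx : ∀ i, x i ≤ R i) :
    0 ≤ YS R S x := by
  unfold YS
  refine add_nonneg (Finset.sum_nonneg fun i _ => credit_nonneg (hx i)) ?_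
  exact credit_nonneg (kS_le S hx)

/-- The credit is at most the sum of the column. -/
theorem YS_le (R : Fin m → ℕ) (S : Finset (Fin m)) {x : Fin m → ℕ} (hx : ∀ i, x i ≤ R i) :
    YS R S x ≤ ∑ i, (x i : ℝ) := by
  unfold YS
  have h1 : ∑ i ∈ univ \ S, (x i : ℝ) * ((R i : ℝ) - x i) / ((R i : ℝ) - 1)
      ≤ ∑ i ∈ univ \ S, (x i : ℝ) := Finset.sum_le_sum fun i _ => credit_le (hx i)
  have h2 := credit_le (kS_le (x := x) (R := R) S hx)
  have h3 : ∑ i ∈ univ \ S, (x i : ℝ) + (kS x S : ℝ) = ∑ i, (x i : ℝ) := by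
    unfold kS
    push_cast
    exact Finset.sum_sdiff (Finset.subset_univ S)
  linarith

/-- Per row bound. -/
theorem row_pow_ge {R : ℕ} (hR : R ≠ 1) {τ : ℝ} (hτ : 0 ≤ τ) :
    1 + (R : ℝ) * τ ≤ (1 + τ) ^ R ∧ 2 * ((R : ℝ) * τ) ≤ (1 + τ) ^ R := by
  have key : ∀ k : ℕ, 1 + (k : ℝ) * τ + (k : ℝ) * ((k : ℝ) - 1) / 2 * τ ^ 2 ≤ (1 + τ) ^ k := by
    intro k
    induction k with
    | zero => simp
    | succ k ih =>
      rw [pow_succ]
      have h1 : 0 ≤ 1 + τ := by linarith
      have h2 := mul_le_mul_of_nonneg_right ih h1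
      refine le_trans ?_ h2
      push_cast
      have hk : (0 : ℝ) ≤ k := by positivity
      rcases Nat.eq_zero_or_pos k with rfl | hkpos
      · simp
      · have hk1 : (1 : ℝ) ≤ k := by exact_mod_cast hkpos
        have h3 : 0 ≤ (k : ℝ) * ((k : ℝ) - 1) / 2 * τ ^ 3 := by
          have : (0 : ℝ) ≤ (k : ℝ) - 1 := by linarith
          positivity
        nlinarith
  rcases Nat.eq_zero_or_pos R with rfl | hpos
  · simp
  · have hR2 : 2 ≤ R := by omega
    have hR2' : (2 : ℝ) ≤ R := by exact_mod_cast hR2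
    have h := key R
    have hτ2 : 0 ≤ τ ^ 2 := by positivity
    have hRR : (R : ℝ) ^ 2 / 4 ≤ (R : ℝ) * ((R : ℝ) - 1) / 2 := by nlinarith
    have h4 : (R : ℝ) ^ 2 / 4 * τ ^ 2 ≤ (R : ℝ) * ((R : ℝ) - 1) / 2 * τ ^ 2 :=
      mul_le_mul_of_nonneg_right hRR hτ2
    have h5 : 0 ≤ (R : ℝ) * ((R : ℝ) - 1) / 2 * τ ^ 2 := by
      have : (0 : ℝ) ≤ (R : ℝ) - 1 := by linarith
      positivity
    constructor
    · linarith
    · nlinarith [sq_nonneg (1 - (R : ℝ) * τ / 2)]

/-- Products of the per row bounds. -/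
theorem prod_bound (A : Finset (Fin m)) (a s : Fin m → ℝ) (h1 : ∀ i, 1 + s i ≤ a i)
    (h2 : ∀ i, 2 * s i ≤ a i) (hs : ∀ i, 0 ≤ s i) :
    1 + ∑ i ∈ A, s i ≤ ∏ i ∈ A, a i ∧ 2 * ∑ i ∈ A, s i ≤ ∏ i ∈ A, a i := by
  induction A using Finset.induction_on with
  | empty => simp
  | insert i A hi ih =>
    rw [Finset.sum_insert hi, Finset.prod_insert hi]
    obtain ⟨ih1, ih2⟩ := ih
    set S := ∑ i ∈ A, s i with hS
    set P := ∏ i ∈ A, a i with hP
    have hS0 : 0 ≤ S := Finset.sum_nonneg fun i _ => hs i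
    have hP1 : 1 ≤ P := by linarith
    have hsi := hs i
    have hai1 := h1 i
    have hai2 := h2 i
    have hai0 : 0 ≤ a i := by linarith
    have hmain : (1 + s i) * (1 + S) ≤ a i * P :=
      mul_le_mul hai1 ih1 (by linarith) hai0
    constructor
    · nlinarith
    · by_cases h3 : 1 ≤ s i
      · have : (2 * s i) * (1 + S) ≤ a i * P := mul_le_mul hai2 ih1 (by linarith) hai0
        nlinarith
      · by_cases h4 : 1 ≤ S
        · have : (1 + s i) * (2 * S) ≤ a i * P := mul_le_mul hai1 ih2 (by linarith) hai0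
          nlinarith
        · push Not at h3 h4
          nlinarith [mul_nonneg (by linarith : 0 ≤ 1 - s i) (by linarith : 0 ≤ 1 - S)]

theorem mem_lev_one {R x : Fin m → ℕ} (hx : x ∈ lev R 1) :
    ∃ i, 0 < R i ∧ x = Pi.single i 1 := by
  obtain ⟨h1, h2⟩ := mem_lev.1 hx
  have hne : ∃ i, x i ≠ 0 := by
    by_contra hcon
    push Not at hcon
    simp [hcon] at h2
  obtain ⟨i, hi⟩ := hne
  have hrest : ∀ j, j ≠ i → x j = 0 := by
    intro j hj
    by_contra hne2
    have h3 : ∑ k ∈ ({i, j} : Finset (Fin m)), x k ≤ ∑ k, x k :=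
      Finset.sum_le_sum_of_subset (Finset.subset_univ _)
    rw [Finset.sum_pair (Ne.symm hj)] at h3
    omega
  have hxi : x i = 1 := by
    have h3 : x i ≤ ∑ k, x k := Finset.single_le_sum (f := x) (fun _ _ => Nat.zero_le _) (mem_univ i)
    omega
  refine ⟨i, ?_, ?_⟩
  · have := h1 i
    omega
  · funext j
    by_cases hj : j = i
    · subst hj
      simp [hxi]
    · simp [Pi.single_eq_of_ne hj, hrest j hj]

theorem Ypp_single (R : Fin m → ℕ) (hR : ∀ i, R i ≠ 1) {i : Fin m} (hi : 0 < R i) :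
    Ypp R (Pi.single i 1) = 1 := by
  unfold Ypp
  rw [Finset.sum_eq_single i]
  · have h2 : (2 : ℝ) ≤ R i := by
      have : 2 ≤ R i := by
        have := hR i
        omega
      exact_mod_cast this
    have h3 : (R i : ℝ) - 1 ≠ 0 := by
      intro h
      linarith
    simp only [Pi.single_eq_same, Nat.cast_one, one_mul]
    exact div_self h3
  · intro j _ hj
    simp [Pi.single_eq_of_ne hj]
  · simp

theorem wt_single (R : Fin m → ℕ) (p : Fin m → ℝ) (h1 : ∀ i, p i < 1) (i : Fin m) (hi : 0 < R i) :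
    wt R p (Pi.single i 1) = (R i : ℝ) * (p i / (1 - p i)) * ∏ j, (1 - p j) ^ R j := by
  unfold wt
  have hterm : ∀ j, bw (R j) (p j) ((Pi.single i 1 : Fin m → ℕ) j)
      = (if j = i then (R i : ℝ) * (p i / (1 - p i)) else 1) * (1 - p j) ^ R j := by
    intro j
    unfold bw
    by_cases hj : j = i
    · subst hj
      have hne : 1 - p j ≠ 0 := by
        have := h1 j
        intro h
        linarith
      obtain ⟨r, hr⟩ : ∃ r, R j = r + 1 := ⟨R j - 1, by omega⟩
      rw [hr]
      simp only [Pi.single_eq_same, if_true, Nat.choose_one_right, pow_one, Nat.add_sub_cancel]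
      rw [pow_succ]
      field_simp
    · rw [Pi.single_eq_of_ne hj]
      simp [hj]
  rw [Finset.prod_congr rfl fun j _ => hterm j, Finset.prod_mul_distrib, Finset.prod_ite_eq']
  simp

/-- Level one needs no mean condition: at most one half. -/
theorem F1_le (R : Fin m → ℕ) (p : Fin m → ℝ) (hR : ∀ i, R i ≠ 1) (h0 : ∀ i, 0 < p i)
    (h1 : ∀ i, p i < 1) : ∑ x ∈ lev R 1, Ypp R x * wt R p x ≤ 1 / 2 := by
  set τ : Fin m → ℝ := fun i => p i / (1 - p i) with hτ
  have hq : ∀ i, 0 < 1 - p i := fun i => by linarith [h1 i]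
  have hτ0 : ∀ i, 0 ≤ τ i := fun i => by
    have := h0 i
    have := hq i
    simp only [hτ]
    positivity
  have hsum : ∑ x ∈ lev R 1, Ypp R x * wt R p x
      = ∑ i ∈ univ.filter (fun i => 0 < R i), (R i : ℝ) * τ i * ∏ j, (1 - p j) ^ R j := by
    symm
    refine Finset.sum_bij (fun i _ => (Pi.single i 1 : Fin m → ℕ)) ?_ ?_ ?_ ?_
    · intro i hi
      have hi' := (Finset.mem_filter.1 hi).2
      refine mem_lev.2 ⟨?_, ?_⟩
      · intro j
        by_cases hj : j = i
        · subst hj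
          simp only [Pi.single_eq_same]
          exact hi'
        · simp [Pi.single_eq_of_ne hj]
      · simp
    · intro i _ j _ hij
      by_contra hne
      have := congrFun hij i
      simp [Pi.single_eq_of_ne hne] at this
    · intro x hx
      obtain ⟨i, hi, rfl⟩ := mem_lev_one hx
      exact ⟨i, Finset.mem_filter.2 ⟨mem_univ i, hi⟩, rfl⟩
    · intro i hi
      have hi' := (Finset.mem_filter.1 hi).2
      rw [Ypp_single R hR hi', one_mul, wt_single R p h1 i hi']
  rw [hsum, ← Finset.sum_mul]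
  have hfil : ∑ i ∈ univ.filter (fun i => 0 < R i), (R i : ℝ) * τ i = ∑ i, (R i : ℝ) * τ i := by
    refine Finset.sum_subset (Finset.subset_univ _) ?_
    intro i _ hi
    have : R i = 0 := by
      by_contra hne
      exact hi (Finset.mem_filter.2 ⟨mem_univ i, Nat.pos_of_ne_zero hne⟩)
    simp [this]
  rw [hfil]
  have hb := prod_bound (univ : Finset (Fin m)) (fun i => (1 + τ i) ^ R i) (fun i => (R i : ℝ) * τ i)
    (fun i => (row_pow_ge (hR i) (hτ0 i)).1) (fun i => (row_pow_ge (hR i) (hτ0 i)).2)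
    (fun i => mul_nonneg (by positivity) (hτ0 i))
  have hinv : (∏ i, (1 + τ i) ^ R i) * ∏ j, (1 - p j) ^ R j = 1 := by
    rw [← Finset.prod_mul_distrib]
    refine Finset.prod_eq_one fun i _ => ?_
    rw [← mul_pow]
    have hne := (hq i).ne'
    have : (1 + τ i) * (1 - p i) = 1 := by
      simp only [hτ]
      field_simp
      ring
    rw [this, one_pow]
  have hQ : 0 < ∏ j, (1 - p j) ^ R j := Finset.prod_pos fun j _ => pow_pos (hq j) _
  have h2 := hb.2
  have h3 := mul_le_mul_of_nonneg_right h2 hQ.le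
  rw [hinv] at h3
  linarith

theorem kappa_eq (c : ℕ) :
    kappa c = Real.exp (-(c : ℝ)) * (c : ℝ) ^ (c + 1) / ((c ! : ℕ) : ℝ) := by
  unfold kappa piC
  rw [pow_succ]
  ring

theorem kappa_nonneg (c : ℕ) : 0 ≤ kappa c := by
  rw [kappa_eq]
  positivity

theorem kappa_mono {c : ℕ} (hc : 1 ≤ c) : kappa c ≤ kappa (c + 1) := by
  rw [kappa_eq, kappa_eq]
  have hc0 : (0 : ℝ) < c := by exact_mod_cast hc
  have hc1 : (0 : ℝ) < (c : ℝ) + 1 := by linarith
  -- the key: `c ^ (c+1) ≤ exp (-1) * (c+1) ^ (c+1)`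
  have hbase : (c : ℝ) / ((c : ℝ) + 1) ≤ Real.exp (-(1 / ((c : ℝ) + 1))) := by
    have := Real.add_one_le_exp (-(1 / ((c : ℝ) + 1)))
    have h2 : -(1 / ((c : ℝ) + 1)) + 1 = (c : ℝ) / ((c : ℝ) + 1) := by
      field_simp
      ring
    linarith
  have hpow := pow_le_pow_left₀ (by positivity) hbase (c + 1)
  rw [← Real.exp_nat_mul, div_pow] at hpow
  have h3 : ((c + 1 : ℕ) : ℝ) * (-(1 / ((c : ℝ) + 1))) = -1 := by
    push_cast
    field_simp
  rw [h3, div_le_iff₀ (by positivity)] at hpow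
  have hfac : (((c + 1)! : ℕ) : ℝ) = ((c : ℝ) + 1) * ((c ! : ℕ) : ℝ) := by
    rw [Nat.factorial_succ]
    push_cast
    ring
  have hcf : (0 : ℝ) < ((c ! : ℕ) : ℝ) := by exact_mod_cast Nat.factorial_pos c
  rw [hfac]
  have hexp : Real.exp (-((c + 1 : ℕ) : ℝ)) = Real.exp (-(c : ℝ)) * Real.exp (-1) := by
    rw [← Real.exp_add]
    congr 1
    push_cast
    ring
  rw [hexp, div_le_div_iff₀ hcf (by positivity)]
  have hE : 0 < Real.exp (-(c : ℝ)) := Real.exp_pos _
  have hpow2 : ((c + 1 + 1 : ℕ) : ℝ) = (c : ℝ) + 1 + 1 := by push_cast; ring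
  have : ((c : ℝ) + 1) ^ (c + 1 + 1) = ((c : ℝ) + 1) * ((c : ℝ) + 1) ^ (c + 1) := by ring
  push_cast
  rw [this]
  calc Real.exp (-(c : ℝ)) * (c : ℝ) ^ (c + 1) * (((c : ℝ) + 1) * ((c ! : ℕ) : ℝ))
      ≤ Real.exp (-(c : ℝ)) * (Real.exp (-1) * ((c : ℝ) + 1) ^ (c + 1))
          * (((c : ℝ) + 1) * ((c ! : ℕ) : ℝ)) := by
        refine mul_le_mul_of_nonneg_right ?_ (by positivity)
        exact mul_le_mul_of_nonneg_left hpow hE.le
    _ = _ := by ring

theorem half_le_kappa_two : (1 / 2 : ℝ) ≤ kappa 2 := by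
  unfold kappa piC
  have he : Real.exp 1 < 2.7182818286 := Real.exp_one_lt_d9
  have he0 : 0 < Real.exp 1 := Real.exp_pos 1
  have hsq : Real.exp 2 = Real.exp 1 * Real.exp 1 := by
    rw [← Real.exp_add]
    norm_num
  have h8 : Real.exp 2 ≤ 8 := by
    rw [hsq]
    nlinarith
  have hinv : Real.exp (-((2 : ℕ) : ℝ)) = (Real.exp 2)⁻¹ := by
    rw [← Real.exp_neg]
    norm_num
  rw [hinv]
  have he2 : 0 < Real.exp 2 := Real.exp_pos 2
  norm_num [Nat.factorial]
  have h9 : (8 : ℝ)⁻¹ ≤ (Real.exp 2)⁻¹ := inv_anti₀ he2 h8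
  linarith

/-- The term in terms of the binomial weights at an arbitrary point. -/
theorem tm_eq_wt (R : Fin m → ℕ) (t Si : Fin m → ℝ) (ht : ∀ i, 0 < t i) (hSi : ∀ i, 0 < Si i)
    {s : ℝ} (hs : 0 < s) {c : ℕ} {x : Fin m → ℕ} (hx : x ∈ lev R c) :
    tm R t Si x = wt R (fun i => t i * s / (t i * s + Si i)) x
      * ((∏ i, (t i * s + Si i) ^ R i) / s ^ c) := by
  have h1 := wt_saddle R t Si ht hSi hs (mem_lev.1 hx).1
  rw [(mem_lev.1 hx).2] at h1
  have hsc : s ^ c ≠ 0 := by positivity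
  rw [mul_div_assoc', eq_div_iff hsc, h1]

theorem saddle_prob (t Si : Fin m → ℝ) (ht : ∀ i, 0 < t i) (hSi : ∀ i, 0 < Si i) {s : ℝ}
    (hs : 0 < s) (i : Fin m) :
    0 < t i * s / (t i * s + Si i) ∧ t i * s / (t i * s + Si i) < 1 := by
  have h2 := ht i
  have h3 := hSi i
  constructor
  · positivity
  · rw [div_lt_one (by positivity)]
    linarith

/-- Capacity form of `PBL`: all rows not of sum one, any `s > 0`. -/
theorem pb_cap {c : ℕ} (hc : PBL c) (R : Fin m → ℕ) (hR : ∀ i, R i ≠ 1) (t Si : Fin m → ℝ)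
    (ht : ∀ i, 0 < t i) (hSi : ∀ i, 0 < Si i) {s : ℝ} (hs : 0 < s) :
    ∑ x ∈ lev R c, Ypp R x * tm R t Si x
      ≤ kappa c * ((∏ i, (t i * s + Si i) ^ R i) / s ^ c) := by
  have hP : 0 < ∏ i, (t i * s + Si i) ^ R i :=
    Finset.prod_pos fun i _ => by
      have h2 := ht i
      have h3 := hSi i
      positivity
  have hk := kappa_nonneg c
  have hRHS : 0 ≤ kappa c * ((∏ i, (t i * s + Si i) ^ R i) / s ^ c) := by positivity
  by_cases h0 : c = 0
  · subst h0
    refine le_trans (le_of_eq ?_) hRHS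
    refine Finset.sum_eq_zero fun x hx => ?_
    have hx0 : ∀ i, x i = 0 := by
      intro i
      have := (mem_lev.1 hx).2
      exact (Finset.sum_eq_zero_iff.1 this) i (mem_univ i)
    simp [Ypp, hx0]
  by_cases hC : c < ∑ i, R i
  · obtain ⟨s0, hs0, hmean⟩ := exists_saddle R t Si ht hSi c (Nat.pos_of_ne_zero h0) hC
    have hpb := hc m R (fun i => t i * s0 / (t i * s0 + Si i)) hR
      (fun i => (saddle_prob t Si ht hSi hs0 i).1) (fun i => (saddle_prob t Si ht hSi hs0 i).2) hmean
    have hterm : ∀ x ∈ lev R c, Ypp R x * tm R t Si x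
        = (Ypp R x * wt R (fun i => t i * s0 / (t i * s0 + Si i)) x)
          * ((∏ i, (t i * s0 + Si i) ^ R i) / s0 ^ c) := by
      intro x hx
      rw [tm_eq_wt R t Si ht hSi hs0 hx]
      ring
    rw [Finset.sum_congr rfl hterm, ← Finset.sum_mul]
    have hmin := saddle_min R t Si ht hSi c hs0 hs hmean
    have hP0 : 0 < ∏ i, (t i * s0 + Si i) ^ R i :=
      Finset.prod_pos fun i _ => by
        have h2 := ht i
        have h3 := hSi i
        positivity
    have hpos0 : 0 ≤ (∏ i, (t i * s0 + Si i) ^ R i) / s0 ^ c := by positivity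
    exact (mul_le_mul_of_nonneg_right hpb hpos0).trans (mul_le_mul_of_nonneg_left hmin hk)
  · refine le_trans (le_of_eq ?_) hRHS
    refine Finset.sum_eq_zero fun x hx => ?_
    obtain ⟨h1, h2⟩ := mem_lev.1 hx
    have hxR : x = R := by
      have hle : ∑ i, R i ≤ ∑ i, x i := by omega
      have := (Finset.sum_eq_sum_iff_of_le (s := univ) (f := x) (g := R) fun i _ => h1 i).1
        (le_antisymm (Finset.sum_le_sum fun i _ => h1 i) hle)
      funext i
      exact this i (mem_univ i)
    subst hxR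
    simp [Ypp]

/-- Capacity form of `F1_le`. -/
theorem pb_cap_one (R : Fin m → ℕ) (hR : ∀ i, R i ≠ 1) (t Si : Fin m → ℝ)
    (ht : ∀ i, 0 < t i) (hSi : ∀ i, 0 < Si i) {s : ℝ} (hs : 0 < s) :
    ∑ x ∈ lev R 1, Ypp R x * tm R t Si x
      ≤ (1 / 2) * ((∏ i, (t i * s + Si i) ^ R i) / s ^ 1) := by
  have hF := F1_le R (fun i => t i * s / (t i * s + Si i)) hR
    (fun i => (saddle_prob t Si ht hSi hs i).1) (fun i => (saddle_prob t Si ht hSi hs i).2)
  have hterm : ∀ x ∈ lev R 1, Ypp R x * tm R t Si x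
      = (Ypp R x * wt R (fun i => t i * s / (t i * s + Si i)) x)
        * ((∏ i, (t i * s + Si i) ^ R i) / s ^ 1) := by
    intro x hx
    rw [tm_eq_wt R t Si ht hSi hs hx]
    ring
  rw [Finset.sum_congr rfl hterm, ← Finset.sum_mul]
  have hP : 0 < ∏ i, (t i * s + Si i) ^ R i :=
    Finset.prod_pos fun i _ => by
      have h2 := ht i
      have h3 := hSi i
      positivity
  exact mul_le_mul_of_nonneg_right hF (by positivity)

/-- Sum over the level of `R`, with a unit row `i0`, split by the value at `i0`. -/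
theorem lev_unit_split (R : Fin m → ℕ) (i0 : Fin m) (hi0 : R i0 = 1) (c : ℕ) (f : (Fin m → ℕ) → ℝ) :
    ∑ x ∈ lev R (c + 1), f x = ∑ x ∈ lev (Function.update R i0 0) (c + 1), f x
      + ∑ y ∈ lev (Function.update R i0 0) c, f (Function.update y i0 1) := by
  classical
  have hT : ∀ x : Fin m → ℕ, ∑ i, x i = x i0 + ∑ i ∈ univ.erase i0, x i := fun x =>
    (Finset.add_sum_erase univ x (mem_univ i0)).symm
  have hTu : ∀ (x : Fin m → ℕ) (v : ℕ),
      ∑ i ∈ univ.erase i0, (Function.update x i0 v) i = ∑ i ∈ univ.erase i0, x i := by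
    intro x v
    refine Finset.sum_congr rfl fun i hi => ?_
    rw [Function.update_of_ne (Finset.ne_of_mem_erase hi)]
  rw [← Finset.sum_filter_add_sum_filter_not (lev R (c + 1)) (fun x => x i0 = 0)]
  congr 1
  · refine Finset.sum_congr ?_ fun _ _ => rfl
    ext x
    simp only [Finset.mem_filter, mem_lev]
    constructor
    · rintro ⟨⟨h1, h2⟩, h3⟩
      refine ⟨fun i => ?_, h2⟩
      by_cases hi : i = i0
      · subst hi
        simp [h3]
      · simp [Function.update_of_ne hi, h1 i]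
    · rintro ⟨h1, h2⟩
      have h3 : x i0 = 0 := by
        have := h1 i0
        simpa using this
      refine ⟨⟨fun i => ?_, h2⟩, h3⟩
      by_cases hi : i = i0
      · subst hi
        simp [h3]
      · simpa [Function.update_of_ne hi] using h1 i
  · refine Finset.sum_nbij' (i := fun x => Function.update x i0 0)
      (j := fun y => Function.update y i0 1) ?_ ?_ ?_ ?_ ?_
    · intro x hx
      obtain ⟨⟨h1, h2⟩, h3⟩ : ((∀ i, x i ≤ R i) ∧ ∑ i, x i = c + 1) ∧ ¬ x i0 = 0 := by
        simpa [Finset.mem_filter, mem_lev] using hx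
      refine mem_lev.2 ⟨fun i => ?_, ?_⟩
      · by_cases hi : i = i0
        · subst hi
          simp
        · simp [Function.update_of_ne hi, h1 i]
      · rw [hT, hTu]
        have h4 := h1 i0
        have h5 := hT x
        simp only [Function.update_self]
        omega
    · intro y hy
      obtain ⟨h1, h2⟩ := mem_lev.1 hy
      have h3 : y i0 = 0 := by
        have := h1 i0
        simpa using this
      refine Finset.mem_filter.2 ⟨mem_lev.2 ⟨fun i => ?_, ?_⟩, by simp⟩
      · by_cases hi : i = i0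
        · subst hi
          simp [hi0]
        · simpa [Function.update_of_ne hi] using h1 i
      · rw [hT, hTu]
        have h5 := hT y
        simp only [Function.update_self]
        omega
    · intro x hx
      obtain ⟨⟨h1, h2⟩, h3⟩ : ((∀ i, x i ≤ R i) ∧ ∑ i, x i = c + 1) ∧ ¬ x i0 = 0 := by
        simpa [Finset.mem_filter, mem_lev] using hx
      have h4 := h1 i0
      have h5 : x i0 = 1 := by omega
      funext i
      by_cases hi : i = i0
      · subst hi
        simp [h5]
      · simp [Function.update_of_ne hi]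
    · intro y hy
      obtain ⟨h1, h2⟩ := mem_lev.1 hy
      have h3 : y i0 = 0 := by
        have := h1 i0
        simpa using this
      funext i
      by_cases hi : i = i0
      · subst hi
        simp [h3]
      · simp [Function.update_of_ne hi]
    · intro x hx
      obtain ⟨⟨h1, h2⟩, h3⟩ : ((∀ i, x i ≤ R i) ∧ ∑ i, x i = c + 1) ∧ ¬ x i0 = 0 := by
        simpa [Finset.mem_filter, mem_lev] using hx
      have h4 := h1 i0
      have h5 : x i0 = 1 := by omega
      congr 1
      funext i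
      by_cases hi : i = i0
      · subst hi
        simp [h5]
      · simp [Function.update_of_ne hi]

theorem Ypp_update_zero (R : Fin m → ℕ) (i0 : Fin m) (hi0 : R i0 = 1) {x : Fin m → ℕ}
    (hx : x i0 = 0) : Ypp R x = Ypp (Function.update R i0 0) x := by
  unfold Ypp
  refine Finset.sum_congr rfl fun i _ => ?_
  by_cases hi : i = i0
  · subst hi
    simp [hx]
  · rw [Function.update_of_ne hi]

theorem Ypp_update_one (R : Fin m → ℕ) (i0 : Fin m) (hi0 : R i0 = 1) {y : Fin m → ℕ}
    (hy : y i0 = 0) : Ypp R (Function.update y i0 1) = Ypp (Function.update R i0 0) y := by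
  unfold Ypp
  refine Finset.sum_congr rfl fun i _ => ?_
  by_cases hi : i = i0
  · subst hi
    simp [hy, hi0]
  · rw [Function.update_of_ne hi, Function.update_of_ne hi]

theorem tm_update_zero (R : Fin m → ℕ) (i0 : Fin m) (hi0 : R i0 = 1) (t Si : Fin m → ℝ)
    {x : Fin m → ℕ} (hx : x i0 = 0) :
    tm R t Si x = Si i0 * tm (Function.update R i0 0) t Si x := by
  unfold tm
  rw [← Finset.mul_prod_erase univ _ (mem_univ i0),
    ← Finset.mul_prod_erase (a := i0) univ (fun i => (((Function.update R i0 0) i).choose (x i) : ℝ)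
      * t i ^ x i * Si i ^ ((Function.update R i0 0) i - x i)) (mem_univ i0)]
  have hrest : ∏ i ∈ univ.erase i0, ((R i).choose (x i) : ℝ) * t i ^ x i * Si i ^ (R i - x i)
      = ∏ i ∈ univ.erase i0, (((Function.update R i0 0) i).choose (x i) : ℝ)
        * t i ^ x i * Si i ^ ((Function.update R i0 0) i - x i) := by
    refine Finset.prod_congr rfl fun i hi => ?_
    rw [Function.update_of_ne (Finset.ne_of_mem_erase hi)]
  rw [hrest]
  simp [hx, hi0]

theorem tm_update_one (R : Fin m → ℕ) (i0 : Fin m) (hi0 : R i0 = 1) (t Si : Fin m → ℝ)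
    {y : Fin m → ℕ} (hy : y i0 = 0) :
    tm R t Si (Function.update y i0 1) = t i0 * tm (Function.update R i0 0) t Si y := by
  unfold tm
  rw [← Finset.mul_prod_erase univ _ (mem_univ i0),
    ← Finset.mul_prod_erase (a := i0) univ (fun i => (((Function.update R i0 0) i).choose (y i) : ℝ)
      * t i ^ y i * Si i ^ ((Function.update R i0 0) i - y i)) (mem_univ i0)]
  have hrest : ∏ i ∈ univ.erase i0, ((R i).choose ((Function.update y i0 1) i) : ℝ)
        * t i ^ (Function.update y i0 1) i * Si i ^ (R i - (Function.update y i0 1) i)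
      = ∏ i ∈ univ.erase i0, (((Function.update R i0 0) i).choose (y i) : ℝ)
        * t i ^ y i * Si i ^ ((Function.update R i0 0) i - y i) := by
    refine Finset.prod_congr rfl fun i hi => ?_
    have hne := Finset.ne_of_mem_erase hi
    rw [Function.update_of_ne hne, Function.update_of_ne hne]
  rw [hrest]
  simp [hy, hi0]

/-- One row of sum one added: it has credit zero and costs only `kappa (c-1) ≤ kappa c`. -/
theorem pb_cap_unit {c : ℕ} (hc : 2 ≤ c) (hL : LevelOK c) (R : Fin m → ℕ) (i0 : Fin m)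
    (hi0 : R i0 = 1) (hR : ∀ i, i ≠ i0 → R i ≠ 1) (t Si : Fin m → ℝ)
    (ht : ∀ i, 0 < t i) (hSi : ∀ i, 0 < Si i) {s : ℝ} (hs : 0 < s) :
    ∑ x ∈ lev R c, Ypp R x * tm R t Si x
      ≤ kappa c * ((∏ i, (t i * s + Si i) ^ R i) / s ^ c) := by
  obtain ⟨c', rfl⟩ : ∃ c', c = c' + 1 := ⟨c - 1, by omega⟩
  set R0 : Fin m → ℕ := Function.update R i0 0 with hR0
  have hR0ne : ∀ i, R0 i ≠ 1 := by
    intro i
    by_cases hi : i = i0
    · subst hi
      simp [hR0]
    · simp only [hR0, Function.update_of_ne hi]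
      exact hR i hi
  have hA0 : ∀ (l : ℕ), ∑ x ∈ lev R0 l, Ypp R x * tm R t Si x
      = Si i0 * ∑ x ∈ lev R0 l, Ypp R0 x * tm R0 t Si x := by
    intro l
    rw [Finset.mul_sum]
    refine Finset.sum_congr rfl fun x hx => ?_
    have hx0 : x i0 = 0 := by
      have := (mem_lev.1 hx).1 i0
      simpa [hR0] using this
    rw [Ypp_update_zero R i0 hi0 hx0, tm_update_zero R i0 hi0 t Si hx0]
    ring
  have hA1 : ∑ y ∈ lev R0 c', Ypp R (Function.update y i0 1) * tm R t Si (Function.update y i0 1)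
      = t i0 * ∑ y ∈ lev R0 c', Ypp R0 y * tm R0 t Si y := by
    rw [Finset.mul_sum]
    refine Finset.sum_congr rfl fun y hy => ?_
    have hy0 : y i0 = 0 := by
      have := (mem_lev.1 hy).1 i0
      simpa [hR0] using this
    rw [Ypp_update_one R i0 hi0 hy0, tm_update_one R i0 hi0 t Si hy0]
    ring
  rw [lev_unit_split R i0 hi0 c' (fun x => Ypp R x * tm R t Si x), hA0, hA1]
  set P : ℝ := ∏ i, (t i * s + Si i) ^ R0 i with hP
  have hPpos : 0 < P := Finset.prod_pos fun i _ => by
    have h2 := ht i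
    have h3 := hSi i
    positivity
  have hfull : ∏ i, (t i * s + Si i) ^ R i = (t i0 * s + Si i0) * P := by
    rw [hP, ← Finset.mul_prod_erase univ _ (mem_univ i0),
      ← Finset.mul_prod_erase (a := i0) univ (fun i => (t i * s + Si i) ^ R0 i) (mem_univ i0)]
    have hrest : ∏ i ∈ univ.erase i0, (t i * s + Si i) ^ R i
        = ∏ i ∈ univ.erase i0, (t i * s + Si i) ^ R0 i := by
      refine Finset.prod_congr rfl fun i hi => ?_
      simp only [hR0, Function.update_of_ne (Finset.ne_of_mem_erase hi)]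
    rw [hrest]
    simp [hR0, hi0]
  rw [hfull]
  have hk : 0 ≤ kappa (c' + 1) := kappa_nonneg _
  have hb1 : ∑ x ∈ lev R0 (c' + 1), Ypp R0 x * tm R0 t Si x ≤ kappa (c' + 1) * (P / s ^ (c' + 1)) :=
    pb_cap hL.1 R0 hR0ne t Si ht hSi hs
  have hb2 : ∑ y ∈ lev R0 c', Ypp R0 y * tm R0 t Si y ≤ kappa (c' + 1) * (P / s ^ c') := by
    have hc'1 : 1 ≤ c' := by omega
    rcases hL.2 with h2 | h2
    · have hc1 : c' = 1 := by omega
      subst hc1
      have := pb_cap_one R0 hR0ne t Si ht hSi hs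
      refine this.trans ?_
      exact mul_le_mul_of_nonneg_right half_le_kappa_two (by positivity)
    · have h3 : PBL c' := by simpa using h2
      have := pb_cap h3 R0 hR0ne t Si ht hSi hs
      refine this.trans ?_
      exact mul_le_mul_of_nonneg_right (kappa_mono hc'1) (by positivity)
  have ht0 := ht i0
  have hS0 := hSi i0
  have h1 := mul_le_mul_of_nonneg_left hb1 hS0.le
  have h2 := mul_le_mul_of_nonneg_left hb2 ht0.le
  have heq : kappa (c' + 1) * ((t i0 * s + Si i0) * P / s ^ (c' + 1))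
      = Si i0 * (kappa (c' + 1) * (P / s ^ (c' + 1))) + t i0 * (kappa (c' + 1) * (P / s ^ c')) := by
    have hsne : s ≠ 0 := hs.ne'
    field_simp
    ring
  rw [heq]
  linarith

/-- The merged margin. -/
def Rm (R : Fin m → ℕ) (S : Finset (Fin m)) (i0 : Fin m) : Fin m → ℕ :=
  fun i => if i = i0 then kS R S else if i ∈ S then 0 else R i

/-- The merged vector. -/
def xm (S : Finset (Fin m)) (i0 : Fin m) (x : Fin m → ℕ) : Fin m → ℕ :=
  fun i => if i = i0 then kS x S else if i ∈ S then 0 else x i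

theorem xm_eq_Rm (R : Fin m → ℕ) (S : Finset (Fin m)) (i0 : Fin m) : xm S i0 R = Rm R S i0 := rfl

theorem sum_split (S : Finset (Fin m)) {M : Type*} [AddCommMonoid M] (f : Fin m → M) :
    ∑ i, f i = ∑ i ∈ S, f i + ∑ i ∈ univ \ S, f i := by
  rw [add_comm, Finset.sum_sdiff (Finset.subset_univ S)]

theorem prod_split (S : Finset (Fin m)) {M : Type*} [CommMonoid M] (f : Fin m → M) :
    ∏ i, f i = (∏ i ∈ S, f i) * ∏ i ∈ univ \ S, f i := by
  rw [mul_comm, Finset.prod_sdiff (Finset.subset_univ S)]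

theorem sum_xm (S : Finset (Fin m)) {i0 : Fin m} (hi0 : i0 ∈ S) (x : Fin m → ℕ) :
    ∑ i, xm S i0 x i = ∑ i, x i := by
  rw [sum_split S (xm S i0 x), sum_split S x]
  congr 1
  · rw [Finset.sum_eq_single_of_mem i0 hi0]
    · simp [xm, kS]
    · intro i hi hne
      simp [xm, hne, hi]
  · refine Finset.sum_congr rfl fun i hi => ?_
    have hi' : i ∉ S := (Finset.mem_sdiff.1 hi).2
    have hne : i ≠ i0 := fun h => hi' (h ▸ hi0)
    simp [xm, hne, hi']

/-- The product over `S` of the terms of `tm` on a fibre. -/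
theorem tm_eq_fibre (R : Fin m → ℕ) (S : Finset (Fin m)) (hS : ∀ i ∈ S, R i ≤ 1) {i0 : Fin m}
    (hi0 : i0 ∈ S) (t Si : Fin m → ℝ) (ht1 : ∀ i ∈ S, t i = 1)
    (hSi : ∀ i ∈ S, Si i = Si i0) {x : Fin m → ℕ} (hx : ∀ i, x i ≤ R i) :
    tm R t Si x = (∏ i ∈ univ \ S, ((R i).choose (xm S i0 x i) : ℝ) * t i ^ xm S i0 x i
        * Si i ^ (R i - xm S i0 x i)) * Si i0 ^ (kS R S - xm S i0 x i0) := by
  have hxm0 : xm S i0 x i0 = kS x S := by simp [xm]
  unfold tm
  rw [prod_split S, mul_comm]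
  congr 1
  · refine Finset.prod_congr rfl fun i hi => ?_
    have hi' : i ∉ S := (Finset.mem_sdiff.1 hi).2
    have hne : i ≠ i0 := fun h => hi' (h ▸ hi0)
    simp [xm, hne, hi']
  · have h1 : ∀ i ∈ S, ((R i).choose (x i) : ℝ) * t i ^ x i * Si i ^ (R i - x i)
        = Si i0 ^ (R i - x i) := by
      intro i hi
      have hRi := hS i hi
      have hxi := hx i
      have hch : (R i).choose (x i) = 1 := by
        have h1 : x i = 0 ∨ x i = R i := by omega
        rcases h1 with h1 | h1
        · rw [h1, Nat.choose_zero_right]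
        · rw [h1, Nat.choose_self]
      rw [hch, ht1 i hi, hSi i hi]
      simp
    rw [Finset.prod_congr rfl h1, Finset.prod_pow_eq_pow_sum, hxm0]
    congr 1
    exact Finset.sum_tsub_distrib S fun i _ => hx i

/-- The term of `tm` for the merged row. -/
theorem tm_Rm (R : Fin m → ℕ) (S : Finset (Fin m)) {i0 : Fin m}
    (hi0 : i0 ∈ S) (t Si : Fin m → ℝ) (ht1 : ∀ i ∈ S, t i = 1) {y : Fin m → ℕ}
    (hy : ∀ i ∈ S, i ≠ i0 → y i = 0) :
    tm (Rm R S i0) t Si y = ((kS R S).choose (y i0) : ℝ)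
      * ((∏ i ∈ univ \ S, ((R i).choose (y i) : ℝ) * t i ^ y i * Si i ^ (R i - y i))
        * Si i0 ^ (kS R S - y i0)) := by
  unfold tm
  rw [prod_split S]
  have h1 : ∏ i ∈ S, (((Rm R S i0) i).choose (y i) : ℝ) * t i ^ y i
        * Si i ^ ((Rm R S i0) i - y i)
      = ((kS R S).choose (y i0) : ℝ) * Si i0 ^ (kS R S - y i0) := by
    rw [Finset.prod_eq_single_of_mem i0 hi0]
    · simp [Rm, ht1 i0 hi0]
    · intro i hi hne
      simp [Rm, hne, hi, hy i hi hne]
  have h2 : ∏ i ∈ univ \ S, (((Rm R S i0) i).choose (y i) : ℝ) * t i ^ y i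
        * Si i ^ ((Rm R S i0) i - y i)
      = ∏ i ∈ univ \ S, ((R i).choose (y i) : ℝ) * t i ^ y i * Si i ^ (R i - y i) := by
    refine Finset.prod_congr rfl fun i hi => ?_
    have hi' : i ∉ S := (Finset.mem_sdiff.1 hi).2
    have hne : i ≠ i0 := fun h => hi' (h ▸ hi0)
    simp [Rm, hne, hi']
  rw [h1, h2]
  ring

/-- The credit of the merged margin. -/
theorem Ypp_Rm (R : Fin m → ℕ) (S : Finset (Fin m)) {i0 : Fin m} (hi0 : i0 ∈ S) (x : Fin m → ℕ) :
    Ypp (Rm R S i0) (xm S i0 x) = YS R S x := by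
  unfold Ypp YS
  rw [sum_split S, add_comm]
  congr 1
  · refine Finset.sum_congr rfl fun i hi => ?_
    have hi' : i ∉ S := (Finset.mem_sdiff.1 hi).2
    have hne : i ≠ i0 := fun h => hi' (h ▸ hi0)
    simp [Rm, xm, hne, hi']
  · rw [Finset.sum_eq_single_of_mem i0 hi0]
    · simp [Rm, xm]
    · intro i hi hne
      simp [Rm, xm, hne, hi]

/-- The number of ways of distributing the merged entry over the rows of `S`. -/
theorem fibre_card (R : Fin m → ℕ) (S : Finset (Fin m)) (hS : ∀ i ∈ S, R i ≤ 1) {i0 : Fin m}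
    (hi0 : i0 ∈ S) (c : ℕ) {y : Fin m → ℕ} (hy : y ∈ lev (Rm R S i0) c) :
    ((lev R c).filter fun x => xm S i0 x = y).card = (kS R S).choose (y i0) := by
  classical
  obtain ⟨hyR, hyc⟩ := mem_lev.1 hy
  set U := S.filter fun i => R i = 1 with hU
  have hUcard : U.card = kS R S := by
    unfold kS
    rw [hU, Finset.card_filter]
    refine Finset.sum_congr rfl fun i hi => ?_
    have h1 := hS i hi
    by_cases h : R i = 1
    · simp [h]
    · have : R i = 0 := by omega
      simp [this]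
  rw [← hUcard, ← Finset.card_powersetCard]
  have hyoff : ∀ i, i ∉ S → y i ≤ R i := by
    intro i hi
    have hne : i ≠ i0 := fun h => hi (h ▸ hi0)
    have := hyR i
    simpa [Rm, hne, hi] using this
  have hyS : ∀ i ∈ S, i ≠ i0 → y i = 0 := by
    intro i hi hne
    have := hyR i
    simpa [Rm, hne, hi] using this
  refine Finset.card_nbij' (fun x => S.filter fun i => x i = 1)
    (fun A i => if i ∈ S then (if i ∈ A then 1 else 0) else y i) ?_ ?_ ?_ ?_
  · -- forward map lands in the power set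
    intro x hx
    have hx' : x ∈ (lev R c).filter fun x => xm S i0 x = y := hx
    obtain ⟨hxl, hxy⟩ := Finset.mem_filter.1 hx'
    obtain ⟨hxR, hxc⟩ := mem_lev.1 hxl
    refine Finset.mem_coe.2 (Finset.mem_powersetCard.2 ⟨?_, ?_⟩)
    · intro i hi
      obtain ⟨hi1, hi2⟩ := Finset.mem_filter.1 hi
      refine Finset.mem_filter.2 ⟨hi1, ?_⟩
      have h1 := hS i hi1
      have h2 := hxR i
      omega
    · rw [Finset.card_filter]
      have h0 : y i0 = kS x S := by
        rw [← hxy]
        simp [xm]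
      rw [h0]
      unfold kS
      refine Finset.sum_congr rfl fun i hi => ?_
      have h1 := hS i hi
      have h2 := hxR i
      by_cases h : x i = 1
      · simp [h]
      · have : x i = 0 := by omega
        simp [this]
  · -- backward map lands in the fibre
    intro A hA
    obtain ⟨hAU, hAc⟩ := Finset.mem_powersetCard.1 (Finset.mem_coe.1 hA)
    have hAS : A ⊆ S := fun i hi => (Finset.mem_filter.1 (hAU hi)).1
    set x : Fin m → ℕ := fun i => if i ∈ S then (if i ∈ A then 1 else 0) else y i with hxdef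
    have hkx : kS x S = A.card := by
      unfold kS
      have h1 : ∀ i ∈ S, x i = if i ∈ A then 1 else 0 := by
        intro i hi
        simp [hxdef, hi]
      rw [Finset.sum_congr rfl h1, Finset.sum_ite_mem, Finset.inter_eq_right.2 hAS]
      simp
    have hxm : xm S i0 x = y := by
      funext i
      unfold xm
      by_cases h : i = i0
      · rw [if_pos h, hkx, hAc, h]
      · rw [if_neg h]
        by_cases h2 : i ∈ S
        · rw [if_pos h2, hyS i h2 h]
        · rw [if_neg h2]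
          simp [hxdef, h2]
    have hxR : ∀ i, x i ≤ R i := by
      intro i
      by_cases h2 : i ∈ S
      · by_cases h3 : i ∈ A
        · have h4 : R i = 1 := (Finset.mem_filter.1 (hAU h3)).2
          simp [hxdef, h2, h3, h4]
        · simp [hxdef, h2, h3]
      · simpa [hxdef, h2] using hyoff i h2
    have hxc : ∑ i, x i = c := by
      rw [← sum_xm S hi0 x, hxm, hyc]
    exact Finset.mem_coe.2 (Finset.mem_filter.2 ⟨mem_lev.2 ⟨hxR, hxc⟩, hxm⟩)
  · -- left inverse
    intro x hx
    obtain ⟨hxl, hxy⟩ := Finset.mem_filter.1 (Finset.mem_coe.1 hx)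
    obtain ⟨hxR, hxc⟩ := mem_lev.1 hxl
    funext i
    by_cases h2 : i ∈ S
    · have h1 := hS i h2
      have h3 := hxR i
      by_cases h : x i = 1
      · simp [h2, h]
      · have h4 : x i = 0 := by omega
        simp [h2, h4]
    · have hne : i ≠ i0 := fun h => h2 (h ▸ hi0)
      have h5 : y i = x i := by
        rw [← hxy]
        simp [xm, hne, h2]
      simp [h2, h5]
  · -- right inverse
    intro A hA
    obtain ⟨hAU, hAc⟩ := Finset.mem_powersetCard.1 (Finset.mem_coe.1 hA)
    have hAS : A ⊆ S := fun i hi => (Finset.mem_filter.1 (hAU hi)).1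
    ext i
    simp only [Finset.mem_filter]
    constructor
    · rintro ⟨h1, h2⟩
      by_contra h3
      simp [h1, h3] at h2
    · intro h1
      exact ⟨hAS h1, by simp [hAS h1, h1]⟩

/-- Merging the rows of `S` (coefficient one, equal later sums) into the row `i0`. -/
theorem merge_sum (R : Fin m → ℕ) (S : Finset (Fin m)) (hS : ∀ i ∈ S, R i ≤ 1) (i0 : Fin m)
    (hi0 : i0 ∈ S) (t Si : Fin m → ℝ) (ht1 : ∀ i ∈ S, t i = 1)
    (hSi : ∀ i ∈ S, Si i = Si i0) (c : ℕ) :
    ∑ x ∈ lev R c, YS R S x * tm R t Si x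
      = ∑ x ∈ lev (fun i => if i = i0 then kS R S else if i ∈ S then 0 else R i) c,
          Ypp (fun i => if i = i0 then kS R S else if i ∈ S then 0 else R i) x
            * tm (fun i => if i = i0 then kS R S else if i ∈ S then 0 else R i) t Si x := by
  classical
  have hR' : (fun i => if i = i0 then kS R S else if i ∈ S then 0 else R i) = Rm R S i0 := rfl
  rw [hR']
  have hmaps : ∀ x ∈ lev R c, xm S i0 x ∈ lev (Rm R S i0) c := by
    intro x hx
    obtain ⟨hxR, hxc⟩ := mem_lev.1 hx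
    refine mem_lev.2 ⟨fun i => ?_, by rw [sum_xm S hi0, hxc]⟩
    unfold xm Rm
    by_cases h : i = i0
    · simp only [if_pos h]
      exact kS_le S hxR
    · simp only [if_neg h]
      by_cases h2 : i ∈ S
      · simp [h2]
      · simpa [h2] using hxR i
  rw [← Finset.sum_fiberwise_of_maps_to hmaps]
  refine Finset.sum_congr rfl fun y hy => ?_
  obtain ⟨hyR, hyc⟩ := mem_lev.1 hy
  have hyS : ∀ i ∈ S, i ≠ i0 → y i = 0 := by
    intro i hi hne
    have := hyR i
    simpa [Rm, hne, hi] using this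
  set Q : ℝ := (∏ i ∈ univ \ S, ((R i).choose (y i) : ℝ) * t i ^ y i * Si i ^ (R i - y i))
    * Si i0 ^ (kS R S - y i0) with hQ
  have hterm : ∀ x ∈ (lev R c).filter (fun x => xm S i0 x = y),
      YS R S x * tm R t Si x = Ypp (Rm R S i0) y * Q := by
    intro x hx
    obtain ⟨hxl, hxy⟩ := Finset.mem_filter.1 hx
    obtain ⟨hxR, hxc⟩ := mem_lev.1 hxl
    rw [← Ypp_Rm R S hi0 x, hxy, tm_eq_fibre R S hS hi0 t Si ht1 hSi hxR, hxy]
  rw [Finset.sum_congr rfl hterm, Finset.sum_const, fibre_card R S hS hi0 c hy,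
    tm_Rm R S hi0 t Si ht1 hyS, nsmul_eq_mul]
  ring

/-- The one column inequality with the rows of sum at most one merged. -/
theorem col_step_S {c0 : ℕ} (hc0 : 2 ≤ c0) (hL : LevelOK c0) (R : Fin m → ℕ)
    (t Si : Fin m → ℝ) (ht : ∀ i, 0 < t i) (hSi : ∀ i, 0 < Si i)
    (ht1 : ∀ i ∈ units R, t i = 1) (hS1 : ∀ i ∈ units R, ∀ i' ∈ units R, Si i = Si i')
    {s : ℝ} (hs : 0 < s) :
    ∑ x ∈ lev R c0, YS R (units R) x * tm R t Si x
      ≤ kappa c0 * ((∏ i, (t i * s + Si i) ^ R i) / s ^ c0) := by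
  classical
  have hunits : ∀ i, i ∈ units R ↔ R i ≤ 1 := by
    intro i
    simp [units]
  by_cases hne : (units R).Nonempty
  · obtain ⟨i0, hi0⟩ := hne
    have hS : ∀ i ∈ units R, R i ≤ 1 := fun i hi => (hunits i).1 hi
    rw [merge_sum R (units R) hS i0 hi0 t Si ht1 (fun i hi => hS1 i hi i0 hi0) c0]
    have hR' : (fun i => if i = i0 then kS R (units R) else if i ∈ units R then 0 else R i)
        = Rm R (units R) i0 := rfl
    rw [hR']
    have hprod : ∏ i, (t i * s + Si i) ^ (Rm R (units R) i0) i = ∏ i, (t i * s + Si i) ^ R i := by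
      rw [prod_split (units R), prod_split (units R) fun i => (t i * s + Si i) ^ R i]
      congr 1
      · have h1 : ∀ i ∈ units R, t i * s + Si i = s + Si i0 := by
          intro i hi
          rw [ht1 i hi, hS1 i hi i0 hi0, one_mul]
        have h2 : ∏ i ∈ units R, (t i * s + Si i) ^ (Rm R (units R) i0) i
            = ∏ i ∈ units R, (s + Si i0) ^ (Rm R (units R) i0) i :=
          Finset.prod_congr rfl fun i hi => by rw [h1 i hi]
        have h3 : ∏ i ∈ units R, (t i * s + Si i) ^ R i = ∏ i ∈ units R, (s + Si i0) ^ R i :=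
          Finset.prod_congr rfl fun i hi => by rw [h1 i hi]
        rw [h2, h3, Finset.prod_pow_eq_pow_sum, Finset.prod_pow_eq_pow_sum]
        congr 1
        rw [Finset.sum_eq_single_of_mem i0 hi0]
        · simp [Rm, kS]
        · intro i hi hne
          simp [Rm, hne, hi]
      · refine Finset.prod_congr rfl fun i hi => ?_
        have hi' : i ∉ units R := (Finset.mem_sdiff.1 hi).2
        have hne : i ≠ i0 := fun h => hi' (h ▸ hi0)
        simp [Rm, hne, hi']
    rw [← hprod]
    have hoff : ∀ i, i ≠ i0 → (Rm R (units R) i0) i ≠ 1 := by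
      intro i hne
      unfold Rm
      rw [if_neg hne]
      by_cases h : i ∈ units R
      · rw [if_pos h]
        exact zero_ne_one
      · rw [if_neg h]
        intro h1
        exact h ((hunits i).2 h1.le)
    by_cases hk : kS R (units R) = 1
    · exact pb_cap_unit hc0 hL (Rm R (units R) i0) i0 (by simp [Rm, hk]) hoff t Si ht hSi hs
    · refine pb_cap hL.1 (Rm R (units R) i0) (fun i => ?_) t Si ht hSi hs
      by_cases h : i = i0
      · rw [h]
        simpa [Rm] using hk
      · exact hoff i h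
  · have hU : units R = ∅ := Finset.not_nonempty_iff_eq_empty.1 hne
    have hY : ∀ x, YS R (units R) x = Ypp R x := by
      intro x
      rw [hU]
      simp [YS, Ypp, kS]
    simp only [hY]
    refine pb_cap hL.1 R (fun i hi => ?_) t Si ht hSi hs
    have : i ∈ units R := (hunits i).2 hi.le
    rw [hU] at this
    simp at this

end Vale.Agent.Lib.P328.CapS
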