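import Vale.Agent.Lib.P328.CapS.Defs
import Vale.Agent.Lib.P328.Cap.Int

/-!
# P328, all margins: the recursion of the masked integral over one column
(the masked versions of `capa_rec_gen`, `lintegral_rec_gen`, `Ihat_rec_gen` of `Cap`)
-/

namespace Vale.Agent.Lib.P328.CapS

open Finset MeasureTheory Vale.Agent.Lib.P328.Cap
open scoped ENNReal Nat

variable {m n : ℕ}

theorem IM_empty (r : Fin m → ℕ) (c : Fin n → ℕ) : IM r c ∅ ∅ = Ihat r c := by
  have h : ∀ t : Fin n → Fin m → ℝ, mask ∅ ∅ t = t := by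
    intro t
    funext j i
    simp [mask]
  unfold IM
  simp only [h]
  rw [Ihat_eq]

theorem measurable_mask (S : Finset (Fin m)) (D : Finset (Fin n)) :
    Measurable (mask S D) := by
  refine measurable_pi_iff.2 fun j => measurable_pi_iff.2 fun i => ?_
  unfold mask
  by_cases h : i ∈ S ∨ j ∈ D
  · simp only [if_pos h]
    exact measurable_const
  · simp only [if_neg h]
    exact (measurable_pi_apply i).comp (measurable_pi_apply j)

theorem mask_pos {S : Finset (Fin m)} {D : Finset (Fin n)} {t : Fin n → Fin m → ℝ}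
    (ht : ∀ j i, 0 < t j i) : ∀ j i, 0 < mask S D t j i := by
  intro j i
  unfold mask
  by_cases h : i ∈ S ∨ j ∈ D
  · rw [if_pos h]
    exact one_pos
  · rw [if_neg h]
    exact ht j i

/-- The mask of one column (the rows of `S` only). -/
def colmask (S : Finset (Fin m)) (u : Fin m → ℝ) : Fin m → ℝ := fun i => if i ∈ S then 1 else u i

theorem colmask_pos {S : Finset (Fin m)} {u : Fin m → ℝ} (hu : ∀ i, 0 < u i) :
    ∀ i, 0 < colmask S u i := by
  intro i
  unfold colmask
  by_cases h : i ∈ S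
  · rw [if_pos h]
    exact one_pos
  · rw [if_neg h]
    exact hu i

theorem mask_cons (S : Finset (Fin m)) (D : Finset (Fin (n + 1))) (u : Fin m → ℝ)
    (t : Fin (n + 1) → Fin m → ℝ) :
    mask S (D.map (Fin.succEmb (n + 1))) (Fin.cons u t : Fin (n + 1 + 1) → Fin m → ℝ)
      = Fin.cons (colmask S u) (mask S D t) := by
  funext j i
  refine Fin.cases ?_ (fun l => ?_) j
  · have h0 : (0 : Fin (n + 1 + 1)) ∉ D.map (Fin.succEmb (n + 1)) := by
      intro h
      obtain ⟨l, -, hl⟩ := Finset.mem_map.1 h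
      exact Fin.succ_ne_zero l hl
    simp [mask, colmask, h0]
  · have h1 : l.succ ∈ D.map (Fin.succEmb (n + 1)) ↔ l ∈ D := by
      constructor
      · intro h
        obtain ⟨l', hl', hl⟩ := Finset.mem_map.1 h
        have : l' = l := Fin.succ_injective _ hl
        exact this ▸ hl'
      · intro h
        exact Finset.mem_map.2 ⟨l, h, rfl⟩
    simp [mask, h1]

/-- The capacity recursion over one column, with the one column inequality needed only for the
later sums coming from the matrix `t'`. -/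
theorem capa_rec_res (R : Fin m → ℕ) (c0 : ℕ) (c' : Fin (n + 1) → ℕ) (t0 : Fin m → ℝ)
    (t' : Fin (n + 1) → Fin m → ℝ) (ht0 : ∀ i, 0 < t0 i) (ht' : ∀ j i, 0 < t' j i)
    (W : (Fin m → ℕ) → ℝ) (hW : ∀ x ∈ lev R c0, 0 ≤ W x) (A : ℝ) (hA : 0 < A)
    (hCS : ∀ b' : Fin (n + 1) → ℝ, (∀ j, 0 < b' j) → ∀ s : ℝ, 0 < s →
      ∑ x ∈ lev R c0, W x * tm R t0 (fun i => ∑ j, t' j i * b' j) x
        ≤ A * ((∏ i, (t0 i * s + ∑ j, t' j i * b' j) ^ R i) / s ^ c0)) :
    ∑ x ∈ lev R c0, ENNReal.ofReal (W x * ∏ i, (((R i).choose (x i) : ℝ) * t0 i ^ x i))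
        * capa (fun i => R i - x i) c' t'
      ≤ ENNReal.ofReal A * capa R (Fin.cons c0 c') (Fin.cons t0 t') := by
  unfold capa
  rw [ENNReal.mul_iInf_of_ne (by simpa using hA) ENNReal.ofReal_ne_top]
  refine le_iInf fun b => ?_
  obtain ⟨b, hb⟩ := b
  set s := b 0 with hs
  have hs0 : 0 < s := hb 0
  set b' : Fin (n + 1) → ℝ := fun j => b j.succ with hb'
  have hb'0 : ∀ j, 0 < b' j := fun j => hb j.succ
  set S : Fin m → ℝ := fun i => ∑ j, t' j i * b' j with hS
  have hS0 : ∀ i, 0 < S i := fun i => by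
    refine Finset.sum_pos (fun j _ => mul_pos (ht' j i) (hb'0 j)) ⟨0, mem_univ _⟩
  set B : ℝ := ∏ j, b' j ^ c' j with hB
  have hB0 : 0 < B := Finset.prod_pos fun j _ => pow_pos (hb'0 j) _
  have hone : ∀ x ∈ lev R c0,
      ENNReal.ofReal (W x * ∏ i, (((R i).choose (x i) : ℝ) * t0 i ^ x i))
        * (⨅ b : {b : Fin (n + 1) → ℝ // ∀ j, 0 < b j},
            ENNReal.ofReal ((∏ i, (∑ j, t' j i * b.1 j) ^ (R i - x i)) / ∏ j, b.1 j ^ c' j))
      ≤ ENNReal.ofReal (W x * tm R t0 S x / B) := by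
    intro x hx
    have hY := hW x hx
    have hP0 : 0 ≤ ∏ i, (((R i).choose (x i) : ℝ) * t0 i ^ x i) :=
      Finset.prod_nonneg fun i _ => by
        have := ht0 i
        positivity
    calc _ ≤ ENNReal.ofReal (W x * ∏ i, (((R i).choose (x i) : ℝ) * t0 i ^ x i))
          * ENNReal.ofReal ((∏ i, S i ^ (R i - x i)) / B) := by
          gcongr
          exact iInf_le (fun b : {b : Fin (n + 1) → ℝ // ∀ j, 0 < b j} =>
            ENNReal.ofReal ((∏ i, (∑ j, t' j i * b.1 j) ^ (R i - x i)) / ∏ j, b.1 j ^ c' j))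
            ⟨b', hb'0⟩
      _ = ENNReal.ofReal (W x * tm R t0 S x / B) := by
          rw [← ENNReal.ofReal_mul (by positivity)]
          congr 1
          have : tm R t0 S x = (∏ i, (((R i).choose (x i) : ℝ) * t0 i ^ x i)) * ∏ i, S i ^ (R i - x i) := by
            unfold tm
            rw [Finset.prod_mul_distrib]
          rw [this]
          ring
  have hsum : ∑ x ∈ lev R c0, ENNReal.ofReal (W x * tm R t0 S x / B)
      = ENNReal.ofReal (∑ x ∈ lev R c0, W x * tm R t0 S x / B) := by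
    rw [ENNReal.ofReal_sum_of_nonneg]
    intro x hx
    have hY := hW x hx
    have htm : 0 ≤ tm R t0 S x := Finset.prod_nonneg fun i _ => by
      have := ht0 i
      have := hS0 i
      positivity
    positivity
  have hstep : ∑ x ∈ lev R c0, W x * tm R t0 S x
      ≤ A * ((∏ i, (t0 i * s + S i) ^ R i) / s ^ c0) := hCS b' hb'0 s hs0
  have hgoal : ((∏ i, (∑ j, (Fin.cons t0 t' : Fin (n + 1 + 1) → Fin m → ℝ) j i * b j) ^ R i)
        / ∏ j, b j ^ (Fin.cons c0 c' : Fin (n + 1 + 1) → ℕ) j)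
      = ((∏ i, (t0 i * s + S i) ^ R i) / s ^ c0) / B := by
    have h1 : ∀ i, ∑ j, (Fin.cons t0 t' : Fin (n + 1 + 1) → Fin m → ℝ) j i * b j = t0 i * s + S i := by
      intro i
      rw [Fin.sum_univ_succ]
      simp only [Fin.cons_zero, Fin.cons_succ]
      rfl
    simp only [h1]
    rw [Fin.prod_univ_succ, div_div]
    simp only [Fin.cons_zero, Fin.cons_succ]
    rfl
  simp only [hgoal]
  calc _ ≤ ∑ x ∈ lev R c0, ENNReal.ofReal (W x * tm R t0 S x / B) :=
        Finset.sum_le_sum hone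
    _ = ENNReal.ofReal (∑ x ∈ lev R c0, W x * tm R t0 S x / B) := hsum
    _ ≤ ENNReal.ofReal (A * ((∏ i, (t0 i * s + S i) ^ R i) / s ^ c0 / B)) := by
        apply ENNReal.ofReal_le_ofReal
        rw [← Finset.sum_div, ← mul_div_assoc]
        exact div_le_div_of_nonneg_right hstep hB0.le
    _ = _ := by
        rw [ENNReal.ofReal_mul hA.le]

/-- The moment of the column density against the masked column. -/
theorem lintegral_wcol_colmask (S : Finset (Fin m)) (x : Fin m → ℕ) (hx : ∀ i ∈ S, x i ≤ 1) :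
    ∫⁻ u : Fin m → ℝ, wcol u * ENNReal.ofReal (∏ i, colmask S u i ^ x i)
      = ((∏ i, (x i)! : ℕ) : ℝ≥0∞) := by
  classical
  set x' : Fin m → ℕ := fun i => if i ∈ S then 0 else x i with hx'
  have h1 : ∀ u : Fin m → ℝ, ∏ i, colmask S u i ^ x i = ∏ i, u i ^ x' i := by
    intro u
    refine Finset.prod_congr rfl fun i _ => ?_
    simp only [colmask, hx']
    by_cases h : i ∈ S
    · simp [h]
    · simp [h]
  simp only [h1]
  rw [lintegral_wcol_mul x']
  have h2 : ∏ i, (x' i)! = ∏ i, (x i)! := by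
    refine Finset.prod_congr rfl fun i _ => ?_
    simp only [hx']
    by_cases h : i ∈ S
    · have h3 := hx i h
      rw [if_pos h, Nat.factorial_zero]
      interval_cases (x i) <;> rfl
    · rw [if_neg h]
  rw [h2]

/-- The integrated form of the masked capacity recursion, before division. -/
theorem lintegral_rec_mask (R : Fin m → ℕ) (c0 : ℕ) (c' : Fin (n + 1) → ℕ) (S : Finset (Fin m))
    (hS : ∀ i ∈ S, R i ≤ 1) (D : Finset (Fin (n + 1)))
    (W : (Fin m → ℕ) → ℝ) (hW : ∀ x ∈ lev R c0, 0 ≤ W x) (A : ℝ) (hA : 0 < A)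
    (hCS : ∀ t Si : Fin m → ℝ, (∀ i, 0 < t i) → (∀ i, 0 < Si i) → (∀ i ∈ S, t i = 1) →
      (∀ i ∈ S, ∀ i' ∈ S, Si i = Si i') → ∀ s : ℝ, 0 < s →
      ∑ x ∈ lev R c0, W x * tm R t Si x ≤ A * ((∏ i, (t i * s + Si i) ^ R i) / s ^ c0)) :
    ∑ x ∈ lev R c0, ENNReal.ofReal (W x) * ((gx R x : ℕ) : ℝ≥0∞)
        * ∫⁻ t : Fin (n + 1) → Fin m → ℝ, wmat t * capa (fun i => R i - x i) c' (mask S D t)
      ≤ ENNReal.ofReal A
        * ∫⁻ t : Fin (n + 1 + 1) → Fin m → ℝ,
            wmat t * capa R (Fin.cons c0 c') (mask S (D.map (Fin.succEmb (n + 1))) t) := by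
  rw [lintegral_cons (E := Fin m → ℝ) (n + 1),
    ← lintegral_const_mul' _ _ ENNReal.ofReal_ne_top]
  set phi : (Fin m → ℕ) → (Fin m → ℝ) → ℝ≥0∞ :=
    fun x u => wcol u * ENNReal.ofReal (∏ i, colmask S u i ^ x i) with hphi
  set psi : (Fin m → ℕ) → (Fin (n + 1) → Fin m → ℝ) → ℝ≥0∞ :=
    fun x t => wmat t * capa (fun i => R i - x i) c' (mask S D t) with hpsi
  set kap : (Fin m → ℕ) → ℝ≥0∞ :=
    fun x => ENNReal.ofReal (W x) * ((∏ i, (R i).choose (x i) : ℕ) : ℝ≥0∞) with hkap
  have hcolm : ∀ i, Measurable fun u : Fin m → ℝ => colmask S u i := by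
    intro i
    unfold colmask
    by_cases h : i ∈ S
    · simp only [if_pos h]
      exact measurable_const
    · simp only [if_neg h]
      exact measurable_pi_apply i
  have hphim : ∀ x, Measurable (phi x) := fun x =>
    measurable_wcol.mul (Measurable.ennreal_ofReal
      (Finset.measurable_prod _ fun i _ => (hcolm i).pow_const _))
  have hpsim : ∀ x, Measurable (psi x) := fun x =>
    measurable_wmat.mul ((capa_measurable _ _).comp (measurable_mask S D))
  have hterm : ∀ x ∈ lev R c0, ENNReal.ofReal (W x) * ((gx R x : ℕ) : ℝ≥0∞) * ∫⁻ t, psi x t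
      = ∫⁻ p : (Fin m → ℝ) × (Fin (n + 1) → Fin m → ℝ), kap x * (phi x p.1 * psi x p.2)
        ∂((volume : Measure (Fin m → ℝ)).prod (volume : Measure (Fin (n + 1) → Fin m → ℝ))) := by
    intro x hx
    rw [lintegral_const_mul' _ _ (by
      simp only [hkap]
      exact ENNReal.mul_ne_top ENNReal.ofReal_ne_top (ENNReal.natCast_ne_top _))]
    have h3 := lintegral_prod_mul (μ := (volume : Measure (Fin m → ℝ)))
      (ν := (volume : Measure (Fin (n + 1) → Fin m → ℝ)))
      (f := phi x) (g := psi x) (hphim x).aemeasurable (hpsim x).aemeasurable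
    rw [h3]
    simp only [hphi]
    rw [lintegral_wcol_colmask S x fun i hi => ((mem_lev.1 hx).1 i).trans (hS i hi)]
    simp only [hkap]
    have h4 : gx R x = (∏ i, (R i).choose (x i)) * ∏ i, (x i)! := by
      unfold gx
      rw [Finset.prod_mul_distrib]
    rw [h4]
    push_cast
    ring
  refine le_trans (le_of_eq (Finset.sum_congr rfl fun x hx => hterm x hx)) ?_
  rw [← lintegral_finsetSum _ (fun x _ => by
    have h5 : Measurable fun p : (Fin m → ℝ) × (Fin (n + 1) → Fin m → ℝ) => phi x p.1 * psi x p.2 :=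
      ((hphim x).comp measurable_fst).mul ((hpsim x).comp measurable_snd)
    exact h5.const_mul _)]
  refine lintegral_mono fun p => ?_
  obtain ⟨u, t⟩ := p
  simp only
  rw [wmat_cons, mask_cons]
  by_cases hu : wcol u = 0
  · simp [hphi, hu]
  by_cases ht : wmat t = 0
  · simp [hpsi, ht]
  have hup := wcol_ne_zero_pos hu
  have htp := wmat_ne_zero_pos ht
  have hup' := colmask_pos (S := S) hup
  have htp' := mask_pos (S := S) (D := D) htp
  have hrec := capa_rec_res R c0 c' (colmask S u) (mask S D t) hup' htp' W hW A hA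
    (fun b' hb' s hs => by
      refine hCS (colmask S u) (fun i => ∑ j, mask S D t j i * b' j) hup'
        (fun i => Finset.sum_pos (fun j _ => mul_pos (htp' j i) (hb' j)) ⟨0, mem_univ _⟩) ?_ ?_ s hs
      · intro i hi
        simp [colmask, hi]
      · intro i hi i' hi'
        simp [mask, hi, hi'])
  have hterm2 : ∀ x ∈ lev R c0, kap x * (phi x u * psi x t)
      = wcol u * wmat t * (ENNReal.ofReal
          (W x * ∏ i, (((R i).choose (x i) : ℝ) * colmask S u i ^ x i))
        * capa (fun i => R i - x i) c' (mask S D t)) := by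
    intro x hx
    simp only [hkap, hphi, hpsi]
    have hY := hW x hx
    have hh : ENNReal.ofReal (W x * ∏ i, (((R i).choose (x i) : ℝ) * colmask S u i ^ x i))
        = ENNReal.ofReal (W x) * ((∏ i, (R i).choose (x i) : ℕ) : ℝ≥0∞)
          * ENNReal.ofReal (∏ i, colmask S u i ^ x i) := by
      have h9 : ∀ i, 0 ≤ colmask S u i ^ x i := fun i => pow_nonneg (hup' i).le _
      rw [Finset.prod_mul_distrib, ← mul_assoc,
        ENNReal.ofReal_mul (mul_nonneg hY (Finset.prod_nonneg fun i _ => by positivity)),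
        ENNReal.ofReal_mul hY]
      congr 2
      have h8 : ∏ i, ((R i).choose (x i) : ℝ) = ((∏ i, (R i).choose (x i) : ℕ) : ℝ) := by
        push_cast
        rfl
      rw [h8, ENNReal.ofReal_natCast]
    rw [hh]
    ring
  rw [Finset.sum_congr rfl hterm2]
  rw [← Finset.mul_sum]
  calc _ ≤ wcol u * wmat t * (ENNReal.ofReal A
        * capa R (Fin.cons c0 c') (Fin.cons (colmask S u) (mask S D t))) := by gcongr
    _ = _ := by ring

/-- The masked form of `Ihat_rec_gen`: the one column inequality is only needed for coefficients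
equal to one on `S` and for later sums `Si` constant on `S`. `D` does not touch column `0`. -/
theorem IM_rec_gen (R : Fin m → ℕ) (c0 : ℕ) (c' : Fin (n + 1) → ℕ) (S : Finset (Fin m))
    (hS : ∀ i ∈ S, R i ≤ 1) (D : Finset (Fin (n + 1)))
    (W : (Fin m → ℕ) → ℝ) (hW : ∀ x ∈ lev R c0, 0 ≤ W x) (A : ℝ) (hA : 0 < A)
    (hCS : ∀ t Si : Fin m → ℝ, (∀ i, 0 < t i) → (∀ i, 0 < Si i) → (∀ i ∈ S, t i = 1) →
      (∀ i ∈ S, ∀ i' ∈ S, Si i = Si i') → ∀ s : ℝ, 0 < s →
      ∑ x ∈ lev R c0, W x * tm R t Si x ≤ A * ((∏ i, (t i * s + Si i) ^ R i) / s ^ c0)) :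
    ∑ x ∈ lev R c0, ENNReal.ofReal (W x) * IM (fun i => R i - x i) c' S D
      ≤ ENNReal.ofReal A * IM R (Fin.cons c0 c') S (D.map (Fin.succEmb (n + 1))) := by
  have hmain := lintegral_rec_mask R c0 c' S hS D W hW A hA hCS
  set Fac : ℝ≥0∞ := ((∏ i, (R i)! : ℕ) : ℝ≥0∞) with hFac
  have hF0 : Fac ≠ 0 := by
    simp only [hFac]
    exact_mod_cast (Finset.prod_pos fun i _ => Nat.factorial_pos _).ne'
  have hFt : Fac ≠ ⊤ := ENNReal.natCast_ne_top _
  have hterm : ∀ x ∈ lev R c0, ENNReal.ofReal (W x) * IM (fun i => R i - x i) c' S D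
      = (ENNReal.ofReal (W x) * ((gx R x : ℕ) : ℝ≥0∞)
        * ∫⁻ t : Fin (n + 1) → Fin m → ℝ, wmat t * capa (fun i => R i - x i) c' (mask S D t))
          / Fac := by
    intro x hx
    have hx' := (mem_lev.1 hx).1
    unfold IM
    have hg0 : ((gx R x : ℕ) : ℝ≥0∞) ≠ 0 := by
      exact_mod_cast (gx_pos hx').ne'
    have hgt : ((gx R x : ℕ) : ℝ≥0∞) ≠ ⊤ := ENNReal.natCast_ne_top _
    have hF : Fac = ((∏ i, (R i - x i)! : ℕ) : ℝ≥0∞) * ((gx R x : ℕ) : ℝ≥0∞) := by
      simp only [hFac]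
      rw [← gx_mul hx', mul_comm]
      push_cast
      rfl
    rw [hF]
    set J := ∫⁻ t : Fin (n + 1) → Fin m → ℝ, wmat t * capa (fun i => R i - x i) c' (mask S D t)
      with hJ
    set a := ENNReal.ofReal (W x) with ha
    set g := ((gx R x : ℕ) : ℝ≥0∞) with hg
    set F := ((∏ i, (R i - x i)! : ℕ) : ℝ≥0∞) with hFF
    calc a * (J / F) = a * J / F := (mul_div_assoc _ _ _).symm
      _ = (a * J * g) / (F * g) := (ENNReal.mul_div_mul_right _ _ hg0 hgt).symm
      _ = (a * g * J) / (F * g) := by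
        congr 1
        ring
  rw [Finset.sum_congr rfl hterm]
  unfold IM
  simp only [div_eq_mul_inv]
  rw [← Finset.sum_mul, ← mul_assoc]
  gcongr

end Vale.Agent.Lib.P328.CapS
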