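import Vale.Agent.Lib.P328.CapS.Merge
import Vale.Agent.Lib.P328.Cap.Table

/-!
# P328, all margins: uniform tables, the first column against a set `L` of later columns
-/

namespace Vale.Agent.Lib.P328.CapS

open Finset Vale.Agent.Lib.P328.Cap
open scoped Nat

variable {m n : ℕ}

/-- The sum of the entries of a row in the later columns of `L`. -/
theorem tail_le {r : Fin m → ℕ} {c : Fin (n + 1) → ℕ} {T : Fin (n + 1) → Fin m → ℕ}
    (hT : T ∈ tabs r c) (L : Finset (Fin n)) (i : Fin m) :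
    ∑ l ∈ L, (T l.succ i : ℝ) ≤ (r i : ℝ) - T 0 i := by
  rw [← row_tail hT i]
  exact Finset.sum_le_sum_of_subset_of_nonneg (subset_univ L) (fun _ _ _ => Nat.cast_nonneg _)

/-- An entry of a table is at most the row sum. -/
theorem tab_entry_le {r : Fin m → ℕ} {c : Fin n → ℕ} {T : Fin n → Fin m → ℕ}
    (hT : T ∈ tabs r c) (j : Fin n) (i : Fin m) : T j i ≤ r i := by
  rw [← (mem_tabs.1 hT).2 i]
  exact Finset.single_le_sum (f := fun z => T z i) (fun _ _ => Nat.zero_le _) (mem_univ j)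

/-- `tab_moment2` with the comparison columns restricted to `L`. -/
theorem tab_moment2_L (r : Fin m → ℕ) (c : Fin (n + 1) → ℕ) (L : Finset (Fin n))
    (hL : ∀ l ∈ L, c 0 ≤ c l.succ) (i : Fin m) :
    ∑ T ∈ tabs r c, (((L.card : ℝ) + 2) * (T 0 i : ℝ) ^ 2
      - (2 * (r i : ℝ) + L.card) * (T 0 i : ℝ)) ≤ 0 := by
  have h : ∑ l ∈ L, ∑ T ∈ tabs r c,
      ((T 0 i : ℝ) ^ 2 - 2 * (T 0 i : ℝ) * (T l.succ i : ℝ) - (T 0 i : ℝ)) ≤ 0 :=
    Finset.sum_nonpos fun l hl => tab_sm r c 0 l.succ (Fin.succ_ne_zero l).symm (hL l hl) i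
  rw [Finset.sum_comm] at h
  refine le_trans (Finset.sum_le_sum fun T hT => ?_) h
  have h2 : ∑ l ∈ L, ((T 0 i : ℝ) ^ 2 - 2 * (T 0 i : ℝ) * (T l.succ i : ℝ) - (T 0 i : ℝ))
      = (L.card : ℝ) * (T 0 i : ℝ) ^ 2 - 2 * (T 0 i : ℝ) * ∑ l ∈ L, (T l.succ i : ℝ)
        - (L.card : ℝ) * (T 0 i : ℝ) := by
    rw [Finset.mul_sum, Finset.sum_sub_distrib, Finset.sum_sub_distrib]
    simp
  rw [h2]
  have h3 := tail_le hT L i
  have h4 : (0 : ℝ) ≤ T 0 i := Nat.cast_nonneg _
  have h5 := mul_le_mul_of_nonneg_left h3 h4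
  nlinarith

/-- `tab_moment1` with the comparison columns restricted to `L`. -/
theorem tab_moment1_L (r : Fin m → ℕ) (c : Fin (n + 1) → ℕ) (L : Finset (Fin n))
    (hL : ∀ l ∈ L, c 0 ≤ c l.succ) (i : Fin m) :
    ∑ T ∈ tabs r c, (((L.card : ℝ) + 1) * (T 0 i : ℝ) - (r i : ℝ)) ≤ 0 := by
  have h : ∑ l ∈ L, ∑ T ∈ tabs r c, ((T 0 i : ℝ) - (T l.succ i : ℝ)) ≤ 0 :=
    Finset.sum_nonpos fun l hl => tab_share r c 0 l.succ (Fin.succ_ne_zero l).symm (hL l hl) i
  rw [Finset.sum_comm] at h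
  refine le_trans (Finset.sum_le_sum fun T hT => ?_) h
  have h2 : ∑ l ∈ L, ((T 0 i : ℝ) - (T l.succ i : ℝ))
      = (L.card : ℝ) * (T 0 i : ℝ) - ∑ l ∈ L, (T l.succ i : ℝ) := by
    rw [Finset.sum_sub_distrib]
    simp
  rw [h2]
  have h3 := tail_le hT L i
  linarith

private theorem sum_update_add (f : Fin m → ℕ) (u : Fin m) (a : ℕ) :
    ∑ i, Function.update f u a i + f u = ∑ i, f i + a := by
  rw [← Finset.add_sum_erase univ (Function.update f u a) (mem_univ u),
    ← Finset.add_sum_erase univ f (mem_univ u)]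
  have : ∑ i ∈ univ.erase u, Function.update f u a i = ∑ i ∈ univ.erase u, f i :=
    Finset.sum_congr rfl fun i hi => Function.update_of_ne (Finset.ne_of_mem_erase hi) _ _
  rw [this, Function.update_self]
  ring

/-- The slice form of the pair bound. -/
theorem slice_pair (s : Fin m → ℕ) (ρ : ℕ) (hρ : 2 * ρ ≤ ∑ j, s j + 1) (u v : Fin m) (huv : u ≠ v)
    (hsu : s u ≤ 1) (hsv : s v ≤ 1) :
    ∑ x ∈ lev s ρ, ((x u : ℝ) * (x v : ℝ) - (x u : ℝ) * ((s v : ℝ) - (x v : ℝ))) ≤ 0 := by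
  classical
  have hx01 : ∀ x ∈ lev s ρ, x u ≤ s u ∧ x v ≤ s v := fun x hx =>
    ⟨(mem_lev.1 hx).1 u, (mem_lev.1 hx).1 v⟩
  rcases Nat.eq_zero_or_pos (s u) with h0 | h0
  · refine le_of_eq (Finset.sum_eq_zero fun x hx => ?_)
    have := (hx01 x hx).1
    have hz : x u = 0 := by omega
    simp [hz]
  rcases Nat.eq_zero_or_pos (s v) with h1 | h1
  · refine le_of_eq (Finset.sum_eq_zero fun x hx => ?_)
    have := (hx01 x hx).2
    have hz : x v = 0 := by omega
    simp [hz, h1]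
  have hu1 : s u = 1 := by omega
  have hv1 : s v = 1 := by omega
  -- only the terms with `x u = 1` count
  have e1 : ∑ x ∈ lev s ρ, ((x u : ℝ) * (x v : ℝ) - (x u : ℝ) * ((s v : ℝ) - (x v : ℝ)))
      = ∑ x ∈ (lev s ρ).filter (fun x => x u = 1), (2 * (x v : ℝ) - (s v : ℝ)) := by
    rw [Finset.sum_filter]
    refine Finset.sum_congr rfl fun x hx => ?_
    have := (hx01 x hx).1
    by_cases hxu : x u = 1
    · rw [if_pos hxu, hxu]
      push_cast
      ring
    · have hz : x u = 0 := by omega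
      rw [if_neg hxu, hz]
      simp
  rw [e1]
  rcases ρ with _ | ρ'
  · refine le_of_eq (Finset.sum_eq_zero fun x hx => ?_)
    obtain ⟨hx1, hx2⟩ := Finset.mem_filter.1 hx
    have h2 := (mem_lev.1 hx1).2
    have h3 : x u ≤ ∑ i, x i :=
      Finset.single_le_sum (f := fun z => x z) (fun _ _ => Nat.zero_le _) (mem_univ u)
    omega
  -- remove the row `u`
  set s' : Fin m → ℕ := Function.update s u 0 with hs'
  have hs'v : s' v = s v := Function.update_of_ne huv.symm _ _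
  have hsum' : ∑ i, s' i + 1 = ∑ i, s i := by
    have := sum_update_add s u 0
    rw [hu1] at this
    omega
  have key := slice_share s' ρ' (by omega) v
  refine le_trans (le_of_eq ?_) key
  refine Finset.sum_nbij' (fun x => Function.update x u 0) (fun x => Function.update x u 1)
    ?_ ?_ ?_ ?_ ?_
  · intro x hx
    obtain ⟨hx1, hx2⟩ := Finset.mem_filter.1 hx
    obtain ⟨hx3, hx4⟩ := mem_lev.1 hx1
    refine mem_lev.2 ⟨fun i => ?_, ?_⟩
    · by_cases hi : i = u
      · subst hi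
        simp [hs']
      · rw [Function.update_of_ne hi, hs', Function.update_of_ne hi]
        exact hx3 i
    · have := sum_update_add x u 0
      rw [hx2, hx4] at this
      omega
  · intro x hx
    obtain ⟨hx3, hx4⟩ := mem_lev.1 hx
    refine Finset.mem_filter.2 ⟨mem_lev.2 ⟨fun i => ?_, ?_⟩, by simp⟩
    · by_cases hi : i = u
      · subst hi
        simp [hu1]
      · rw [Function.update_of_ne hi]
        have := hx3 i
        rwa [hs', Function.update_of_ne hi] at this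
    · have := sum_update_add x u 1
      have hxu : x u = 0 := by
        have := hx3 u
        rw [hs', Function.update_self] at this
        omega
      rw [hxu, hx4] at this
      omega
  · intro x hx
    obtain ⟨hx1, hx2⟩ := Finset.mem_filter.1 hx
    funext i
    by_cases hi : i = u
    · subst hi
      simp [hx2]
    · simp [Function.update_of_ne hi]
  · intro x hx
    obtain ⟨hx3, hx4⟩ := mem_lev.1 hx
    have hxu : x u = 0 := by
      have := hx3 u
      rw [hs', Function.update_self] at this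
      omega
    funext i
    by_cases hi : i = u
    · subst hi
      simp [hxu]
    · simp [Function.update_of_ne hi]
  · intro x hx
    rw [Function.update_of_ne huv.symm, hs'v]

/-- Two rows of sum one: both in column `j1` is at most one in `j1` and the other in `j2`. -/
theorem tab_pair (r : Fin m → ℕ) (c : Fin n → ℕ) (j1 j2 : Fin n) (hne : j1 ≠ j2)
    (hc : c j1 ≤ c j2) (u v : Fin m) (huv : u ≠ v) (hu : r u = 1) (hv : r v = 1) :
    ∑ T ∈ tabs r c, ((T j1 u : ℝ) * (T j1 v : ℝ) - (T j1 u : ℝ) * (T j2 v : ℝ)) ≤ 0 := by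
  classical
  have key := two_col r c j1 j2 hne (fun x z =>
    if x u + z u ≤ 1 ∧ x v + z v ≤ 1 then ((x u : ℝ) * (x v : ℝ) - (x u : ℝ) * (z v : ℝ)) else 0)
    (by
      intro s hs
      by_cases h : s u ≤ 1 ∧ s v ≤ 1
      · refine le_trans (le_of_eq ?_) (slice_pair s (c j1) (by omega) u v huv h.1 h.2)
        refine Finset.sum_congr rfl fun x hx => ?_
        have h1 := (mem_lev.1 hx).1
        have h2 : x u + (s u - x u) ≤ 1 ∧ x v + (s v - x v) ≤ 1 := by
          have := h1 u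
          have := h1 v
          omega
        simp only [if_pos h2]
        rw [Nat.cast_sub (h1 v)]
      · refine le_of_eq (Finset.sum_eq_zero fun x hx => ?_)
        have h1 := (mem_lev.1 hx).1
        have h2 : ¬ (x u + (s u - x u) ≤ 1 ∧ x v + (s v - x v) ≤ 1) := by
          have := h1 u
          have := h1 v
          omega
        simp only [if_neg h2])
  refine le_trans (le_of_eq ?_) key
  refine Finset.sum_congr rfl fun T hT => ?_
  have hadd : ∀ i, T j1 i + T j2 i ≤ r i := by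
    intro i
    rw [← (mem_tabs.1 hT).2 i]
    have := Finset.sum_le_sum_of_subset (s := {j1, j2}) (t := univ) (f := fun j => T j i)
      (subset_univ _)
    rwa [Finset.sum_pair hne] at this
  have h2 : T j1 u + T j2 u ≤ 1 ∧ T j1 v + T j2 v ≤ 1 := by
    have := hadd u
    have := hadd v
    omega
  simp only [if_pos h2]

/-- The pair bound summed over `L`. -/
theorem tab_pair_L (r : Fin m → ℕ) (c : Fin (n + 1) → ℕ) (L : Finset (Fin n))
    (hL : ∀ l ∈ L, c 0 ≤ c l.succ) (u v : Fin m) (huv : u ≠ v) (hu : r u = 1) (hv : r v = 1) :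
    ∑ T ∈ tabs r c, (((L.card : ℝ) + 1) * ((T 0 u : ℝ) * (T 0 v : ℝ)) - (T 0 u : ℝ)) ≤ 0 := by
  have h : ∑ l ∈ L, ∑ T ∈ tabs r c,
      ((T 0 u : ℝ) * (T 0 v : ℝ) - (T 0 u : ℝ) * (T l.succ v : ℝ)) ≤ 0 :=
    Finset.sum_nonpos fun l hl =>
      tab_pair r c 0 l.succ (Fin.succ_ne_zero l).symm (hL l hl) u v huv hu hv
  rw [Finset.sum_comm] at h
  refine le_trans (Finset.sum_le_sum fun T hT => ?_) h
  have h2 : ∑ l ∈ L, ((T 0 u : ℝ) * (T 0 v : ℝ) - (T 0 u : ℝ) * (T l.succ v : ℝ))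
      = (L.card : ℝ) * ((T 0 u : ℝ) * (T 0 v : ℝ)) - (T 0 u : ℝ) * ∑ l ∈ L, (T l.succ v : ℝ) := by
    rw [Finset.mul_sum, Finset.sum_sub_distrib]
    simp
  rw [h2]
  have h3 := tail_le hT L v
  rw [hv] at h3
  push_cast at h3
  have h4 : (0 : ℝ) ≤ T 0 u := Nat.cast_nonneg _
  have h5 := mul_le_mul_of_nonneg_left h3 h4
  nlinarith

/-- Over the rows of sum at most one, only the rows of sum one count. -/
private theorem kS_units_eq (r x : Fin m → ℕ) (hx : ∀ i, x i ≤ r i) :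
    kS x (units r) = ∑ i ∈ univ.filter (fun i => r i = 1), x i := by
  unfold kS
  symm
  refine Finset.sum_subset (fun i hi => ?_) (fun i hi hi2 => ?_)
  · have := (Finset.mem_filter.1 hi).2
    exact Finset.mem_filter.2 ⟨mem_univ _, by omega⟩
  · have h1 := (Finset.mem_filter.1 hi).2
    have h2 : r i ≠ 1 := fun h => hi2 (Finset.mem_filter.2 ⟨mem_univ _, h⟩)
    have := hx i
    omega

private theorem kS_units_self (r : Fin m → ℕ) :
    kS r (units r) = (univ.filter (fun i => r i = 1)).card := by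
  rw [kS_units_eq r r (fun _ => le_rfl), Finset.card_eq_sum_ones]
  exact Finset.sum_congr rfl fun i hi => (Finset.mem_filter.1 hi).2

/-- The square of the merged entry, in terms of pairs of rows of sum one. -/
private theorem merged_sq (U : Finset (Fin m)) (x : Fin m → ℕ) (hx : ∀ i ∈ U, x i ≤ 1) :
    ((∑ i ∈ U, (x i : ℝ)) ^ 2 - ∑ i ∈ U, (x i : ℝ))
      = ∑ u ∈ U, ∑ v ∈ U.erase u, (x u : ℝ) * (x v : ℝ) := by
  classical
  have h1 : ∀ u ∈ U, ∑ v ∈ U.erase u, (x u : ℝ) * (x v : ℝ)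
      = (x u : ℝ) * ∑ i ∈ U, (x i : ℝ) - (x u : ℝ) := by
    intro u hu
    rw [← Finset.mul_sum]
    have h2 := Finset.add_sum_erase U (fun i => (x i : ℝ)) hu
    rw [← h2]
    have h3 : (x u : ℝ) * (x u : ℝ) = (x u : ℝ) := by
      have := hx u hu
      have h4 : x u = 0 ∨ x u = 1 := by omega
      rcases h4 with h4 | h4 <;> simp [h4]
    nlinarith
  rw [Finset.sum_congr rfl h1, Finset.sum_sub_distrib, ← Finset.sum_mul]
  ring

/-- The merged credit: `E[x0 (k - x0)] ≥ (1 - 1/ν) (k - 1) E[x0]`, `ν = |L| + 1`. -/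
theorem tab_merged (r : Fin m → ℕ) (c : Fin (n + 1) → ℕ) (L : Finset (Fin n))
    (hL : ∀ l ∈ L, c 0 ≤ c l.succ) (hk : 2 ≤ kS r (units r)) :
    ((L.card : ℝ) / ((L.card : ℝ) + 1)) * ∑ T ∈ tabs r c, (kS (T 0) (units r) : ℝ)
      ≤ ∑ T ∈ tabs r c, (kS (T 0) (units r) : ℝ)
          * ((kS r (units r) : ℝ) - kS (T 0) (units r)) / ((kS r (units r) : ℝ) - 1) := by
  classical
  set U := univ.filter (fun i => r i = 1) with hU
  set k := kS r (units r) with hk'
  have hkU : (U.card : ℝ) = (k : ℝ) := by rw [hk', kS_units_self]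
  have hx0 : ∀ T ∈ tabs r c, ((kS (T 0) (units r) : ℕ) : ℝ) = ∑ i ∈ U, (T 0 i : ℝ) := by
    intro T hT
    rw [kS_units_eq r (T 0) (fun i => tab_entry_le hT 0 i)]
    push_cast
    rfl
  have hle1 : ∀ T ∈ tabs r c, ∀ i ∈ U, T 0 i ≤ 1 := by
    intro T hT i hi
    have := tab_entry_le hT 0 i
    rw [(Finset.mem_filter.1 hi).2] at this
    exact this
  -- the pair bound over all ordered pairs
  have hpairs : ∑ T ∈ tabs r c, (((L.card : ℝ) + 1) * (((∑ i ∈ U, (T 0 i : ℝ)) ^ 2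
      - ∑ i ∈ U, (T 0 i : ℝ))) - ((k : ℝ) - 1) * ∑ i ∈ U, (T 0 i : ℝ)) ≤ 0 := by
    have h1 : ∑ u ∈ U, ∑ v ∈ U.erase u, ∑ T ∈ tabs r c,
        (((L.card : ℝ) + 1) * ((T 0 u : ℝ) * (T 0 v : ℝ)) - (T 0 u : ℝ)) ≤ 0 := by
      refine Finset.sum_nonpos fun u hu => Finset.sum_nonpos fun v hv => ?_
      exact tab_pair_L r c L hL u v (Finset.ne_of_mem_erase hv).symm
        (Finset.mem_filter.1 hu).2 (Finset.mem_filter.1 (Finset.mem_of_mem_erase hv)).2
    refine le_trans (le_of_eq ?_) h1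
    have h2 : ∀ u ∈ U, ∑ v ∈ U.erase u, ∑ T ∈ tabs r c,
        (((L.card : ℝ) + 1) * ((T 0 u : ℝ) * (T 0 v : ℝ)) - (T 0 u : ℝ))
        = ∑ T ∈ tabs r c, ∑ v ∈ U.erase u,
          (((L.card : ℝ) + 1) * ((T 0 u : ℝ) * (T 0 v : ℝ)) - (T 0 u : ℝ)) := by
      intro u _
      rw [Finset.sum_comm]
    rw [Finset.sum_congr rfl h2, Finset.sum_comm]
    refine Finset.sum_congr rfl fun T hT => ?_
    rw [merged_sq U (T 0) (hle1 T hT)]
    have h3 : ∀ u ∈ U, ∑ v ∈ U.erase u,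
          (((L.card : ℝ) + 1) * ((T 0 u : ℝ) * (T 0 v : ℝ)) - (T 0 u : ℝ))
        = ((L.card : ℝ) + 1) * ∑ v ∈ U.erase u, ((T 0 u : ℝ) * (T 0 v : ℝ))
          - ((k : ℝ) - 1) * (T 0 u : ℝ) := by
      intro u hu
      rw [Finset.sum_sub_distrib, ← Finset.mul_sum, Finset.sum_const, nsmul_eq_mul,
        Finset.card_erase_of_mem hu]
      have hpos : 1 ≤ U.card := Finset.card_pos.2 ⟨u, hu⟩
      rw [Nat.cast_sub hpos, hkU]
      push_cast
      ring
    rw [Finset.sum_congr rfl h3, Finset.sum_sub_distrib, ← Finset.mul_sum, ← Finset.mul_sum]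
  set A := ∑ T ∈ tabs r c, ∑ i ∈ U, (T 0 i : ℝ) with hA
  set B := ∑ T ∈ tabs r c, ((∑ i ∈ U, (T 0 i : ℝ)) ^ 2 - ∑ i ∈ U, (T 0 i : ℝ)) with hB
  have hAB : ((L.card : ℝ) + 1) * B ≤ ((k : ℝ) - 1) * A := by
    rw [Finset.sum_sub_distrib, ← Finset.mul_sum, ← Finset.mul_sum] at hpairs
    linarith
  have hk1 : (0 : ℝ) < (k : ℝ) - 1 := by
    have : (2 : ℝ) ≤ k := by exact_mod_cast hk
    linarith
  have hν : (0 : ℝ) < (L.card : ℝ) + 1 := by positivity
  have e1 : ∑ T ∈ tabs r c, (kS (T 0) (units r) : ℝ) = A :=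
    Finset.sum_congr rfl hx0
  have e2 : ∑ T ∈ tabs r c, (kS (T 0) (units r) : ℝ)
          * ((k : ℝ) - kS (T 0) (units r)) / ((k : ℝ) - 1) = A - B / ((k : ℝ) - 1) := by
    rw [hA, hB, Finset.sum_div, ← Finset.sum_sub_distrib]
    refine Finset.sum_congr rfl fun T hT => ?_
    rw [hx0 T hT]
    field_simp
    ring
  rw [e1, e2]
  have e3 : ((L.card : ℝ) / ((L.card : ℝ) + 1)) * A = A - A / ((L.card : ℝ) + 1) := by
    field_simp
    ring
  rw [e3]
  have h4 : B / ((k : ℝ) - 1) ≤ A / ((L.card : ℝ) + 1) := by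
    rw [div_le_div_iff₀ hk1 hν]
    linarith
  linarith

/-- The mean of the merged entry. -/
theorem tab_x0 (r : Fin m → ℕ) (c : Fin (n + 1) → ℕ) (L : Finset (Fin n))
    (hL : ∀ l ∈ L, c 0 ≤ c l.succ) (S : Finset (Fin m)) :
    ∑ T ∈ tabs r c, (kS (T 0) S : ℝ)
      ≤ ((kS r S : ℝ) / ((L.card : ℝ) + 1)) * ((tabs r c).card : ℝ) := by
  have hν : (0 : ℝ) < (L.card : ℝ) + 1 := by positivity
  have h1 : ∀ i, ∑ T ∈ tabs r c, (T 0 i : ℝ)
      ≤ ((r i : ℝ) / ((L.card : ℝ) + 1)) * ((tabs r c).card : ℝ) := by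
    intro i
    have := tab_moment1_L r c L hL i
    rw [Finset.sum_sub_distrib, ← Finset.mul_sum, Finset.sum_const, nsmul_eq_mul] at this
    rw [div_mul_eq_mul_div, le_div_iff₀ hν]
    linarith
  unfold kS
  push_cast
  rw [Finset.sum_comm, Finset.sum_div, Finset.sum_mul]
  exact Finset.sum_le_sum fun i _ => h1 i

/-- A row of sum at least two. -/
private theorem tab_row_credit (r : Fin m → ℕ) (c : Fin (n + 1) → ℕ) (L : Finset (Fin n))
    (hL : ∀ l ∈ L, c 0 ≤ c l.succ) (i : Fin m) (hi : 2 ≤ r i) :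
    ((L.card : ℝ) / ((L.card : ℝ) + 2)) * ∑ T ∈ tabs r c, (T 0 i : ℝ)
      ≤ ∑ T ∈ tabs r c, (T 0 i : ℝ) * ((r i : ℝ) - T 0 i) / ((r i : ℝ) - 1) := by
  have hm2 := tab_moment2_L r c L hL i
  rw [Finset.sum_sub_distrib, ← Finset.mul_sum, ← Finset.mul_sum] at hm2
  have hr : (2 : ℝ) ≤ r i := by exact_mod_cast hi
  have hr1 : (0 : ℝ) < (r i : ℝ) - 1 := by linarith
  have hN : (0 : ℝ) < (L.card : ℝ) + 2 := by positivity
  set X := ∑ T ∈ tabs r c, (T 0 i : ℝ) with hX
  set X2 := ∑ T ∈ tabs r c, (T 0 i : ℝ) ^ 2 with hX2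
  have e : ∑ T ∈ tabs r c, (T 0 i : ℝ) * ((r i : ℝ) - T 0 i) / ((r i : ℝ) - 1)
      = ((r i : ℝ) * X - X2) / ((r i : ℝ) - 1) := by
    rw [hX, hX2, Finset.mul_sum, ← Finset.sum_sub_distrib, Finset.sum_div]
    refine Finset.sum_congr rfl fun T _ => ?_
    ring
  rw [e, le_div_iff₀ hr1]
  have e2 : (L.card : ℝ) / ((L.card : ℝ) + 2) * X * ((r i : ℝ) - 1)
      = ((L.card : ℝ) * X * ((r i : ℝ) - 1)) / ((L.card : ℝ) + 2) := by
    ring
  rw [e2, div_le_iff₀ hN]
  nlinarith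

/-- The mean credit of the first column. `ν = |L| + 1` comparison columns with `c 0` smallest. -/
theorem tab_YS (r : Fin m → ℕ) (c : Fin (n + 1) → ℕ) (L : Finset (Fin n))
    (hL : ∀ l ∈ L, c 0 ≤ c l.succ) (hc0 : 2 ≤ c 0) :
    ((L.card : ℝ) / ((L.card : ℝ) + 2)) * (1 - 1 / (2 * ((L.card : ℝ) + 1))) * (c 0 : ℝ)
        * ((tabs r c).card : ℝ)
      ≤ ∑ T ∈ tabs r c, YS r (units r) (T 0) := by
  classical
  set N : ℝ := (L.card : ℝ) with hN
  have hN0 : (0 : ℝ) ≤ N := by positivity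
  set Ω : ℝ := ((tabs r c).card : ℝ) with hΩ
  have hΩ0 : (0 : ℝ) ≤ Ω := by positivity
  set C0 : ℝ := (c 0 : ℝ) with hC0
  have hC2 : (2 : ℝ) ≤ C0 := by
    rw [hC0]
    exact_mod_cast hc0
  set k := kS r (units r) with hk
  set A := ∑ T ∈ tabs r c, (kS (T 0) (units r) : ℝ) with hA
  have hcoef : (0 : ℝ) ≤ N / (N + 2) := by positivity
  -- the merged row
  have hmerged : (N / (N + 2)) * (A - C0 * Ω / (2 * (N + 1)))
      ≤ ∑ T ∈ tabs r c, (kS (T 0) (units r) : ℝ) * ((k : ℝ) - kS (T 0) (units r))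
          / ((k : ℝ) - 1) := by
    have hA0 : 0 ≤ A := Finset.sum_nonneg fun T _ => by positivity
    have hx := tab_x0 r c L hL (units r)
    rw [← hk, ← hA] at hx
    rcases Nat.lt_or_ge k 2 with h2 | h2
    · -- `k ≤ 1`: no credit, little to lose
      have hz : ∑ T ∈ tabs r c, (kS (T 0) (units r) : ℝ) * ((k : ℝ) - kS (T 0) (units r))
          / ((k : ℝ) - 1) = 0 := by
        refine Finset.sum_eq_zero fun T hT => ?_
        have hle : kS (T 0) (units r) ≤ k := Finset.sum_le_sum fun i _ => tab_entry_le hT 0 i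
        have h3 : k = 0 ∨ k = 1 := by omega
        rcases h3 with h3 | h3
        · have : kS (T 0) (units r) = 0 := by omega
          simp [this]
        · simp [h3]
      rw [hz]
      have hk1 : (k : ℝ) ≤ 1 := by
        have : k ≤ 1 := by omega
        exact_mod_cast this
      have hν : (0 : ℝ) < N + 1 := by positivity
      have h4 : A ≤ C0 * Ω / (2 * (N + 1)) := by
        refine le_trans hx ?_
        rw [div_mul_eq_mul_div, div_le_div_iff₀ hν (by positivity)]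
        nlinarith [mul_nonneg hΩ0 hν.le]
      exact mul_nonpos_of_nonneg_of_nonpos hcoef (by linarith)
    · have h5 := tab_merged r c L hL h2
      rw [← hk] at h5
      refine le_trans ?_ h5
      have h6 : N / (N + 2) ≤ N / (N + 1) :=
        div_le_div_of_nonneg_left hN0 (by positivity) (by linarith)
      have h7 : (N / (N + 2)) * A ≤ (N / (N + 1)) * A := mul_le_mul_of_nonneg_right h6 hA0
      have h8 : 0 ≤ (N / (N + 2)) * (C0 * Ω / (2 * (N + 1))) := by positivity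
      nlinarith
  -- the other rows
  have hrows : (N / (N + 2)) * ∑ i ∈ univ \ units r, ∑ T ∈ tabs r c, (T 0 i : ℝ)
      ≤ ∑ i ∈ univ \ units r, ∑ T ∈ tabs r c,
          (T 0 i : ℝ) * ((r i : ℝ) - T 0 i) / ((r i : ℝ) - 1) := by
    rw [Finset.mul_sum]
    refine Finset.sum_le_sum fun i hi => ?_
    have h2 : 2 ≤ r i := by
      have : i ∉ units r := (Finset.mem_sdiff.1 hi).2
      have h3 : ¬ r i ≤ 1 := fun h => this (Finset.mem_filter.2 ⟨mem_univ _, h⟩)
      omega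
    exact tab_row_credit r c L hL i h2
  -- the total of the first column
  have htotal : ∑ i ∈ univ \ units r, ∑ T ∈ tabs r c, (T 0 i : ℝ) + A = C0 * Ω := by
    rw [Finset.sum_comm, hA, ← Finset.sum_add_distrib]
    have : ∀ T ∈ tabs r c, ∑ i ∈ univ \ units r, (T 0 i : ℝ) + (kS (T 0) (units r) : ℝ) = C0 := by
      intro T hT
      have h1 : ((kS (T 0) (units r) : ℕ) : ℝ) = ∑ i ∈ units r, (T 0 i : ℝ) := by
        unfold kS
        push_cast
        rfl
      rw [h1, Finset.sum_sdiff (subset_univ _), hC0, ← (mem_tabs.1 hT).1 0]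
      push_cast
      rfl
    rw [Finset.sum_congr rfl this, Finset.sum_const, nsmul_eq_mul, mul_comm]
  have hYS : ∑ T ∈ tabs r c, YS r (units r) (T 0)
      = ∑ i ∈ univ \ units r, ∑ T ∈ tabs r c,
          (T 0 i : ℝ) * ((r i : ℝ) - T 0 i) / ((r i : ℝ) - 1)
        + ∑ T ∈ tabs r c, (kS (T 0) (units r) : ℝ) * ((k : ℝ) - kS (T 0) (units r))
          / ((k : ℝ) - 1) := by
    unfold YS
    rw [Finset.sum_add_distrib, Finset.sum_comm]
  rw [hYS]
  have e : (N / (N + 2)) * (1 - 1 / (2 * (N + 1))) * C0 * Ω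
      = (N / (N + 2)) * (C0 * Ω - C0 * Ω / (2 * (N + 1))) := by
    have : N + 1 ≠ 0 := by positivity
    field_simp
  rw [e]
  have e2 : (N / (N + 2)) * (C0 * Ω - C0 * Ω / (2 * (N + 1)))
      = (N / (N + 2)) * ∑ i ∈ univ \ units r, ∑ T ∈ tabs r c, (T 0 i : ℝ)
        + (N / (N + 2)) * (A - C0 * Ω / (2 * (N + 1))) := by
    rw [← htotal]
    ring
  rw [e2]
  exact add_le_add hrows hmerged

/-- The mean credit with the weight `(1 - x0 / (k + 1)) ^ e`. `y' = ν-1/ν+1 (1-1/2ν)`,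
`a = 1 / (ν y')`, needs `ν y' > 1`, i.e. `ν ≥ 3`. -/
theorem tab_YS_omega (r : Fin m → ℕ) (c : Fin (n + 1) → ℕ) (L : Finset (Fin n))
    (hL : ∀ l ∈ L, c 0 ≤ c l.succ) (hc0 : 2 ≤ c 0) (hν : 2 ≤ L.card) (e : ℕ) (y' a : ℝ)
    (hy' : y' = ((L.card : ℝ) / ((L.card : ℝ) + 2)) * (1 - 1 / (2 * ((L.card : ℝ) + 1))))
    (ha : a = 1 / (((L.card : ℝ) + 1) * y')) :
    y' * (1 - a) ^ e * (c 0 : ℝ) * ((tabs r c).card : ℝ)
      ≤ ∑ T ∈ tabs r c, YS r (units r) (T 0)
          * (1 - (kS (T 0) (units r) : ℝ) / ((kS r (units r) : ℝ) + 1)) ^ e := by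
  classical
  have hYS := tab_YS r c L hL hc0
  rw [← hy'] at hYS
  set N : ℝ := (L.card : ℝ) with hN
  have hN2 : (2 : ℝ) ≤ N := by
    rw [hN]
    exact_mod_cast hν
  set Ω : ℝ := ((tabs r c).card : ℝ) with hΩ
  have hΩ0 : (0 : ℝ) ≤ Ω := by positivity
  set C0 : ℝ := (c 0 : ℝ) with hC0
  have hC00 : (0 : ℝ) ≤ C0 := by positivity
  set k := kS r (units r) with hk
  -- the constants
  have hνy : (N + 1) * y' = N * (2 * N + 1) / (2 * (N + 2)) := by
    rw [hy']
    field_simp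
    ring
  have hνy2 : (5 : ℝ) / 4 ≤ (N + 1) * y' := by
    rw [hνy, div_le_div_iff₀ (by norm_num) (by positivity)]
    nlinarith
  have hy0 : 0 < y' := by
    have : 0 < (N + 1) * y' := by linarith
    exact (pos_iff_pos_of_mul_pos this).1 (by linarith)
  have ha0 : 0 < a := by
    rw [ha]
    positivity
  have ha1 : a ≤ 4 / 5 := by
    rw [ha, div_le_iff₀ (by linarith)]
    linarith
  have hay : a * y' = 1 / (N + 1) := by
    rw [ha]
    field_simp
  have h1a : 0 < 1 - a := by linarith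
  set M := ∑ T ∈ tabs r c, YS r (units r) (T 0) with hM
  set u : (Fin (n + 1) → Fin m → ℕ) → ℝ :=
    fun T => (kS (T 0) (units r) : ℝ) / ((k : ℝ) + 1) with hu
  have hu0 : ∀ T, 0 ≤ u T := fun T => by
    simp only [hu]
    positivity
  have hu1 : ∀ T ∈ tabs r c, u T ≤ 1 := by
    intro T hT
    have hle : kS (T 0) (units r) ≤ k := Finset.sum_le_sum fun i _ => tab_entry_le hT 0 i
    have h2 : (kS (T 0) (units r) : ℝ) ≤ k := by exact_mod_cast hle
    simp only [hu]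
    rw [div_le_one (by positivity)]
    linarith
  have hxT : ∀ T ∈ tabs r c, ∀ i, T 0 i ≤ r i := fun T hT i => tab_entry_le hT 0 i
  have hw0 : ∀ T ∈ tabs r c, 0 ≤ YS r (units r) (T 0) := fun T hT =>
    YS_nonneg r (units r) (hxT T hT)
  have hw1 : ∀ T ∈ tabs r c, YS r (units r) (T 0) ≤ C0 := by
    intro T hT
    refine le_trans (YS_le r (units r) (hxT T hT)) (le_of_eq ?_)
    rw [hC0, ← (mem_tabs.1 hT).1 0]
    push_cast
    rfl
  -- the Bernoulli step
  have hB : ∀ T ∈ tabs r c, (1 - a) ^ e * (1 + (e : ℝ) * ((a - u T) / (1 - a))) ≤ (1 - u T) ^ e := by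
    intro T hT
    have h2 : (-2 : ℝ) ≤ (a - u T) / (1 - a) := by
      rw [le_div_iff₀ h1a]
      nlinarith [hu1 T hT, hu0 T]
    have h3 := one_add_mul_le_pow h2 e
    have h4 : (1 - a) ^ e * (1 + (a - u T) / (1 - a)) ^ e = (1 - u T) ^ e := by
      rw [← mul_pow]
      congr 1
      field_simp
      ring
    rw [← h4]
    exact mul_le_mul_of_nonneg_left h3 (pow_nonneg h1a.le e)
  -- the drift is nonnegative
  have hdrift : 0 ≤ ∑ T ∈ tabs r c, YS r (units r) (T 0) * (a - u T) := by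
    have h1 : ∑ T ∈ tabs r c, YS r (units r) (T 0) * u T ≤ C0 * ∑ T ∈ tabs r c, u T := by
      rw [Finset.mul_sum]
      exact Finset.sum_le_sum fun T hT =>
        mul_le_mul_of_nonneg_right (hw1 T hT) (hu0 T)
    have h2 : ∑ T ∈ tabs r c, u T ≤ Ω / (N + 1) := by
      have hx := tab_x0 r c L hL (units r)
      rw [← hk] at hx
      simp only [hu]
      rw [← Finset.sum_div, div_le_iff₀ (by positivity)]
      refine le_trans hx ?_
      rw [div_mul_eq_mul_div, div_mul_eq_mul_div, div_le_div_iff₀ (by positivity) (by positivity)]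
      have : (0 : ℝ) ≤ k := by positivity
      nlinarith [mul_nonneg hΩ0 (by positivity : (0 : ℝ) ≤ N + 1)]
    have h3 : a * (y' * C0 * Ω) ≤ a * M := by
      refine mul_le_mul_of_nonneg_left ?_ ha0.le
      have : y' * C0 * Ω = y' * (C0) * Ω := rfl
      linarith [hYS]
    have h4 : a * (y' * C0 * Ω) = C0 * (Ω / (N + 1)) := by
      have : a * (y' * C0 * Ω) = (a * y') * C0 * Ω := by ring
      rw [this, hay]
      field_simp
    have h5 : C0 * ∑ T ∈ tabs r c, u T ≤ C0 * (Ω / (N + 1)) :=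
      mul_le_mul_of_nonneg_left h2 hC00
    have h6 : ∑ T ∈ tabs r c, YS r (units r) (T 0) * (a - u T)
        = a * M - ∑ T ∈ tabs r c, YS r (units r) (T 0) * u T := by
      rw [hM, Finset.mul_sum, ← Finset.sum_sub_distrib]
      refine Finset.sum_congr rfl fun T _ => ?_
      ring
    rw [h6]
    linarith
  -- conclusion
  have hsum : (1 - a) ^ e * M ≤ ∑ T ∈ tabs r c, YS r (units r) (T 0)
      * (1 - u T) ^ e := by
    have h1 : ∑ T ∈ tabs r c, YS r (units r) (T 0)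
          * ((1 - a) ^ e * (1 + (e : ℝ) * ((a - u T) / (1 - a))))
        ≤ ∑ T ∈ tabs r c, YS r (units r) (T 0) * (1 - u T) ^ e :=
      Finset.sum_le_sum fun T hT => mul_le_mul_of_nonneg_left (hB T hT) (hw0 T hT)
    refine le_trans ?_ h1
    have h2 : ∑ T ∈ tabs r c, YS r (units r) (T 0)
          * ((1 - a) ^ e * (1 + (e : ℝ) * ((a - u T) / (1 - a))))
        = (1 - a) ^ e * (M + ((e : ℝ) / (1 - a))
            * ∑ T ∈ tabs r c, YS r (units r) (T 0) * (a - u T)) := by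
      rw [hM, Finset.mul_sum, ← Finset.sum_add_distrib, Finset.mul_sum]
      refine Finset.sum_congr rfl fun T _ => ?_
      field_simp
    rw [h2]
    refine mul_le_mul_of_nonneg_left ?_ (pow_nonneg h1a.le e)
    have h3 : 0 ≤ ((e : ℝ) / (1 - a)) * ∑ T ∈ tabs r c, YS r (units r) (T 0) * (a - u T) :=
      mul_nonneg (by positivity) hdrift
    linarith
  refine le_trans ?_ hsum
  have h7 : (1 - a) ^ e * (y' * C0 * Ω) ≤ (1 - a) ^ e * M :=
    mul_le_mul_of_nonneg_left hYS (pow_nonneg h1a.le e)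
  calc y' * (1 - a) ^ e * C0 * Ω = (1 - a) ^ e * (y' * C0 * Ω) := by ring
    _ ≤ _ := h7

end Vale.Agent.Lib.P328.CapS
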