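import Vale.Agent.Lib.P328.CapS.Defs

/-!
# P328, all margins: the pure inequality behind the unit row lemma

`a` is a probability vector with positive entries. `∏ (b j / a j) ^ ((q + 1) a j)` is the tangent
form at `a` of `|b| ^ (q + 1)`, and `v` a vector of positive coefficients.
-/

namespace Vale.Agent.Lib.P328.CapS

open Finset

variable {n : ℕ}

/-- The tangent monomial. -/
noncomputable def tangentM (a : Fin n → ℝ) (q : ℕ) (b : Fin n → ℝ) : ℝ :=
  ∏ j, (b j / a j) ^ (((q : ℝ) + 1) * a j)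

noncomputable def tbar (a v : Fin n → ℝ) : ℝ := ∑ j, a j * v j

noncomputable def sbar (a v : Fin n → ℝ) : ℝ := ∑ j, a j * v j ^ 2

theorem nonempty_of_sum_one (w : Fin n → ℝ) (hw1 : ∑ j, w j = 1) : (univ : Finset (Fin n)).Nonempty := by
  by_contra h
  rw [not_nonempty_iff_eq_empty] at h
  rw [h] at hw1
  simp at hw1

/-- Gibbs: `log ∑ x ≥ ∑ w log (x / w)`. -/
theorem log_sum_ge (w x : Fin n → ℝ) (hw : ∀ j, 0 < w j) (hw1 : ∑ j, w j = 1)
    (hx : ∀ j, 0 < x j) : ∑ j, w j * Real.log (x j / w j) ≤ Real.log (∑ j, x j) := by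
  have hne := nonempty_of_sum_one w hw1
  have hX : 0 < ∑ j, x j := Finset.sum_pos (fun j _ => hx j) hne
  set X := ∑ j, x j with hXdef
  have h1 : ∀ j, w j * (Real.log (x j / w j) - Real.log X) ≤ x j / X - w j := by
    intro j
    have hwj := hw j
    have hxj := hx j
    have hy : 0 < x j / (w j * X) := by positivity
    have h2 := Real.log_le_sub_one_of_pos hy
    have h3 : Real.log (x j / (w j * X)) = Real.log (x j / w j) - Real.log X := by
      rw [← div_div, Real.log_div (by positivity) hX.ne']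
    rw [h3] at h2
    have h4 : w j * (Real.log (x j / w j) - Real.log X) ≤ w j * (x j / (w j * X) - 1) :=
      mul_le_mul_of_nonneg_left h2 hwj.le
    have h5 : w j * (x j / (w j * X) - 1) = x j / X - w j := by
      field_simp
    linarith
  have h2 := Finset.sum_le_sum fun j (_ : j ∈ (univ : Finset (Fin n))) => h1 j
  have h3 : ∑ j, (x j / X - w j) = 0 := by
    rw [Finset.sum_sub_distrib, hw1, ← Finset.sum_div, ← hXdef, div_self hX.ne']
    ring
  have h4 : ∑ j, w j * (Real.log (x j / w j) - Real.log X)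
      = ∑ j, w j * Real.log (x j / w j) - Real.log X := by
    simp only [mul_sub]
    rw [Finset.sum_sub_distrib, ← Finset.sum_mul, hw1, one_mul]
  rw [h3, h4] at h2
  linarith

/-- The solution `T` of `∑ a (q + 1) v / (q T + v) = 1`. -/
theorem exists_T (a v : Fin n → ℝ) (ha : ∀ j, 0 < a j) (hsum : ∑ j, a j = 1)
    (hv : ∀ j, 0 < v j) (q : ℕ) :
    ∃ T : ℝ, 0 < T ∧ ∑ j, a j * ((q : ℝ) + 1) * v j / ((q : ℝ) * T + v j) = 1 := by
  have hne := nonempty_of_sum_one a hsum
  obtain ⟨j0, -, hj0⟩ := Finset.exists_min_image univ v hne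
  obtain ⟨j1, -, hj1⟩ := Finset.exists_max_image univ v hne
  have hle : v j0 ≤ v j1 := hj0 j1 (mem_univ _)
  have hq0 : (0 : ℝ) ≤ q := Nat.cast_nonneg q
  set g : ℝ → ℝ := fun T => ∑ j, a j * ((q : ℝ) + 1) * v j / ((q : ℝ) * T + v j) with hg
  have hcont : ContinuousOn g (Set.Icc (v j0) (v j1)) := by
    refine continuousOn_finsetSum _ fun j _ => ?_
    refine ContinuousOn.div continuousOn_const (by fun_prop) ?_
    intro T hT
    have : 0 < T := lt_of_lt_of_le (hv j0) hT.1
    have := hv j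
    positivity
  have hg0 : 1 ≤ g (v j0) := by
    rw [← hsum]
    refine Finset.sum_le_sum fun j _ => ?_
    have hd : 0 < (q : ℝ) * v j0 + v j := by have := hv j0; have := hv j; positivity
    rw [le_div_iff₀ hd]
    have h1 := hj0 j (mem_univ _)
    have h2 := ha j
    nlinarith [mul_le_mul_of_nonneg_left h1 (mul_nonneg h2.le hq0)]
  have hg1 : g (v j1) ≤ 1 := by
    rw [← hsum]
    refine Finset.sum_le_sum fun j _ => ?_
    have hd : 0 < (q : ℝ) * v j1 + v j := by have := hv j1; have := hv j; positivity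
    rw [div_le_iff₀ hd]
    have h1 := hj1 j (mem_univ _)
    have h2 := ha j
    nlinarith [mul_le_mul_of_nonneg_left h1 (mul_nonneg h2.le hq0)]
  obtain ⟨T, hT, hTeq⟩ := intermediate_value_Icc' hle hcont ⟨hg1, hg0⟩
  exact ⟨T, lt_of_lt_of_le (hv j0) hT.1, hTeq⟩

/-- `T` bounds the ratio of `|b| ^ q ⟨v, b⟩` to the tangent monomial. -/
theorem T_le_ratio (a v : Fin n → ℝ) (ha : ∀ j, 0 < a j) (hsum : ∑ j, a j = 1)
    (hv : ∀ j, 0 < v j) (q : ℕ) (hq : 1 ≤ q) (T : ℝ) (hT : 0 < T)
    (hTeq : ∑ j, a j * ((q : ℝ) + 1) * v j / ((q : ℝ) * T + v j) = 1)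
    (b : Fin n → ℝ) (hb : ∀ j, 0 < b j) :
    T * tangentM a q b ≤ (∑ j, b j) ^ q * ∑ j, v j * b j := by
  have hne := nonempty_of_sum_one a hsum
  have hq1 : (1 : ℝ) ≤ q := by exact_mod_cast hq
  have hq0 : (0 : ℝ) < q := by linarith
  have hD : ∀ j, 0 < (q : ℝ) * T + v j := fun j => by have := hv j; positivity
  set rho : Fin n → ℝ := fun j => a j * ((q : ℝ) + 1) * v j / ((q : ℝ) * T + v j) with hrho
  set pi' : Fin n → ℝ := fun j => a j * ((q : ℝ) + 1) * T / ((q : ℝ) * T + v j) with hpi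
  have hrho_pos : ∀ j, 0 < rho j := fun j => by
    have := ha j; have := hv j; have := hD j; simp only [hrho]; positivity
  have hpi_pos : ∀ j, 0 < pi' j := fun j => by
    have := ha j; have := hD j; simp only [hpi]; positivity
  have hcomb : ∀ j, (q : ℝ) * pi' j + rho j = ((q : ℝ) + 1) * a j := by
    intro j
    have := hD j
    simp only [hrho, hpi]
    field_simp
  have hrho1 : ∑ j, rho j = 1 := hTeq
  have hpi1 : ∑ j, pi' j = 1 := by
    have h1 : ∑ j, ((q : ℝ) * pi' j + rho j) = ∑ j, ((q : ℝ) + 1) * a j :=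
      Finset.sum_congr rfl fun j _ => hcomb j
    rw [Finset.sum_add_distrib, ← Finset.mul_sum, ← Finset.mul_sum, hsum, hrho1] at h1
    have : (q : ℝ) * ∑ j, pi' j = q := by linarith
    exact mul_left_cancel₀ hq0.ne' (by rw [this, mul_one])
  have hb0 : 0 < ∑ j, b j := Finset.sum_pos (fun j _ => hb j) hne
  have hvb0 : 0 < ∑ j, v j * b j :=
    Finset.sum_pos (fun j _ => mul_pos (hv j) (hb j)) hne
  have hG1 := log_sum_ge pi' b hpi_pos hpi1 hb
  have hG2 := log_sum_ge rho (fun j => v j * b j) hrho_pos hrho1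
    (fun j => mul_pos (hv j) (hb j))
  have hG3 := log_sum_ge a pi' ha hsum hpi_pos
  rw [hpi1, Real.log_one] at hG3
  have hlogtan : Real.log (tangentM a q b)
      = ∑ j, ((q : ℝ) + 1) * a j * (Real.log (b j) - Real.log (a j)) := by
    unfold tangentM
    rw [Real.log_prod (fun j _ => (Real.rpow_pos_of_pos (div_pos (hb j) (ha j)) _).ne')]
    refine Finset.sum_congr rfl fun j _ => ?_
    rw [Real.log_rpow (div_pos (hb j) (ha j)), Real.log_div (hb j).ne' (ha j).ne']
  have htan : 0 < tangentM a q b :=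
    Finset.prod_pos fun j _ => Real.rpow_pos_of_pos (div_pos (hb j) (ha j)) _
  have hmain : Real.log (T * tangentM a q b) ≤ Real.log ((∑ j, b j) ^ q * ∑ j, v j * b j) := by
    rw [Real.log_mul hT.ne' htan.ne', Real.log_mul (by positivity) hvb0.ne', Real.log_pow, hlogtan]
    -- rewrite the three Gibbs inequalities with separated logs
    have e1 : ∑ j, pi' j * Real.log (b j / pi' j)
        = ∑ j, pi' j * (Real.log (b j) - Real.log (pi' j)) := by
      refine Finset.sum_congr rfl fun j _ => ?_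
      rw [Real.log_div (hb j).ne' (hpi_pos j).ne']
    have e2 : ∑ j, rho j * Real.log (v j * b j / rho j)
        = ∑ j, rho j * (Real.log (b j) + Real.log T - Real.log (pi' j)) := by
      refine Finset.sum_congr rfl fun j _ => ?_
      have h1 : v j * b j / rho j = b j * T / pi' j := by
        have := hD j
        have := ha j
        have := hv j
        have := hb j
        simp only [hrho, hpi]
        field_simp
      rw [h1, Real.log_div (mul_pos (hb j) hT).ne' (hpi_pos j).ne',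
        Real.log_mul (hb j).ne' hT.ne']
    have e3 : ∑ j, a j * Real.log (pi' j / a j)
        = ∑ j, a j * (Real.log (pi' j) - Real.log (a j)) := by
      refine Finset.sum_congr rfl fun j _ => ?_
      rw [Real.log_div (hpi_pos j).ne' (ha j).ne']
    rw [e1] at hG1
    rw [e2] at hG2
    rw [e3] at hG3
    have key : ∑ j, ((q : ℝ) + 1) * a j * (Real.log (b j) - Real.log (a j))
        + ∑ j, rho j * Real.log T
        = (q : ℝ) * ∑ j, pi' j * (Real.log (b j) - Real.log (pi' j))
          + ∑ j, rho j * (Real.log (b j) + Real.log T - Real.log (pi' j))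
          + ((q : ℝ) + 1) * ∑ j, a j * (Real.log (pi' j) - Real.log (a j)) := by
      rw [Finset.mul_sum, Finset.mul_sum, ← Finset.sum_add_distrib, ← Finset.sum_add_distrib,
        ← Finset.sum_add_distrib]
      refine Finset.sum_congr rfl fun j _ => ?_
      have h := hcomb j
      have : ((q : ℝ) + 1) * a j * (Real.log (b j) - Real.log (a j))
          + rho j * Real.log T
          = ((q : ℝ) * pi' j + rho j) * (Real.log (b j) - Real.log (pi' j))
            + rho j * Real.log T
            + ((q : ℝ) + 1) * a j * (Real.log (pi' j) - Real.log (a j)) := by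
        rw [h]; ring
      rw [this]; ring
    have hT2 : ∑ j, rho j * Real.log T = Real.log T := by
      rw [← Finset.sum_mul, hrho1, one_mul]
    rw [hT2] at key
    have hq2 : (0 : ℝ) ≤ (q : ℝ) + 1 := by positivity
    have h1 := mul_le_mul_of_nonneg_left hG1 hq0.le
    have h3 := mul_le_mul_of_nonneg_left hG3 hq2
    rw [mul_zero] at h3
    linarith
  exact (Real.log_le_log_iff (by positivity) (by positivity)).1 hmain

/-- The comparison at a larger `A`. -/
theorem T_key (a v : Fin n → ℝ) (ha : ∀ j, 0 < a j)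
    (hv : ∀ j, 0 < v j) (q : ℕ) (T : ℝ) (hT : 0 < T)
    (hTeq : ∑ j, a j * ((q : ℝ) + 1) * v j / ((q : ℝ) * T + v j) = 1)
    (A : ℝ) (hA : 0 < A) (hAT : (q : ℝ) * T ≤ A) :
    ((q : ℝ) + 1) * (tbar a v * A - sbar a v) ≤ A ^ 2 := by
  have hq0 : (0 : ℝ) ≤ q := Nat.cast_nonneg q
  have h1 : ∀ j, ((q : ℝ) + 1) * (a j * v j * A - a j * v j ^ 2)
      ≤ A ^ 2 * (a j * ((q : ℝ) + 1) * v j / ((q : ℝ) * T + v j)) := by
    intro j
    have hvj := hv j
    have haj := ha j
    have hd : 0 < (q : ℝ) * T + v j := by positivity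
    have hd2 : 0 < A + v j := by positivity
    have h2 : 1 / (A + v j) ≤ 1 / ((q : ℝ) * T + v j) :=
      one_div_le_one_div_of_le hd (by linarith)
    have h3 : (A - v j) ≤ A ^ 2 * (1 / (A + v j)) := by
      rw [mul_one_div, le_div_iff₀ hd2]
      nlinarith [sq_nonneg (v j)]
    have h4 : A ^ 2 * (1 / (A + v j)) ≤ A ^ 2 * (1 / ((q : ℝ) * T + v j)) :=
      mul_le_mul_of_nonneg_left h2 (by positivity)
    have h5 : (A - v j) ≤ A ^ 2 * (1 / ((q : ℝ) * T + v j)) := h3.trans h4
    have h6 : 0 ≤ ((q : ℝ) + 1) * a j * v j := by positivity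
    have h7 := mul_le_mul_of_nonneg_left h5 h6
    calc ((q : ℝ) + 1) * (a j * v j * A - a j * v j ^ 2)
        = ((q : ℝ) + 1) * a j * v j * (A - v j) := by ring
      _ ≤ ((q : ℝ) + 1) * a j * v j * (A ^ 2 * (1 / ((q : ℝ) * T + v j))) := h7
      _ = _ := by
        ring
  have h2 := Finset.sum_le_sum fun j (_ : j ∈ (univ : Finset (Fin n))) => h1 j
  rw [← Finset.mul_sum, ← Finset.mul_sum, hTeq, mul_one, Finset.sum_sub_distrib,
    ← Finset.sum_mul] at h2
  exact h2

/-- The lower bound for `T`. -/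
theorem T_ge (a v : Fin n → ℝ) (ha : ∀ j, 0 < a j) (hsum : ∑ j, a j = 1)
    (hv : ∀ j, 0 < v j) (q : ℕ) (hq : 1 ≤ q) (T : ℝ) (hT : 0 < T)
    (hTeq : ∑ j, a j * ((q : ℝ) + 1) * v j / ((q : ℝ) * T + v j) = 1) :
    tbar a v - (4 / (q : ℝ)) * (sbar a v / tbar a v) ≤ T := by
  have hne := nonempty_of_sum_one a hsum
  have hq1 : (1 : ℝ) ≤ q := by exact_mod_cast hq
  have hq0 : (0 : ℝ) < q := by linarith
  have ht : 0 < tbar a v := Finset.sum_pos (fun j _ => mul_pos (ha j) (hv j)) hne
  have hs : 0 < sbar a v := Finset.sum_pos (fun j _ => mul_pos (ha j) (pow_pos (hv j) 2)) hne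
  set tb := tbar a v with htb
  set sb := sbar a v with hsb
  have hform : (4 / (q : ℝ)) * (sb / tb) = 4 * sb / ((q : ℝ) * tb) := by
    field_simp
  rw [hform]
  by_cases hc : tb / 2 ≤ T
  · have hA : 0 < (q : ℝ) * T := by positivity
    have h1 := T_key a v ha hv q T hT hTeq _ hA le_rfl
    rw [← htb, ← hsb] at h1
    -- `q T (tb - T) ≤ sb`
    have h2 : (q : ℝ) * T * (tb - T) ≤ sb := by
      by_contra hcon
      push Not at hcon
      have hTT : 0 < T * T := by positivity
      nlinarith [mul_pos hq0 hTT]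
    have h3 : tb - T ≤ 4 * sb / ((q : ℝ) * tb) := by
      rw [le_div_iff₀ (by positivity)]
      by_cases h0 : tb - T ≤ 0
      · have : (tb - T) * ((q : ℝ) * tb) ≤ 0 :=
          mul_nonpos_of_nonpos_of_nonneg h0 (by positivity)
        linarith
      · push Not at h0
        have h4 : tb ≤ 2 * T := by linarith
        have h5 : (q : ℝ) * tb * (tb - T) ≤ (q : ℝ) * (2 * T) * (tb - T) := by
          apply mul_le_mul_of_nonneg_right _ h0.le
          exact mul_le_mul_of_nonneg_left h4 hq0.le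
        nlinarith
    linarith
  · push Not at hc
    have hA : 0 < (q : ℝ) * (tb / 2) := by positivity
    have h1 := T_key a v ha hv q T hT hTeq _ hA
      (mul_le_mul_of_nonneg_left hc.le hq0.le)
    rw [← htb, ← hsb] at h1
    have h2 : (q : ℝ) * tb ^ 2 ≤ 4 * sb := by
      have hqtb : 0 ≤ (q : ℝ) * tb ^ 2 := by positivity
      have h3 : (q : ℝ) * tb ^ 2 * ((q : ℝ) + 2) ≤ 4 * sb * ((q : ℝ) + 1) := by
        nlinarith
      have h4 : (q : ℝ) * tb ^ 2 * ((q : ℝ) + 1) ≤ (q : ℝ) * tb ^ 2 * ((q : ℝ) + 2) :=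
        mul_le_mul_of_nonneg_left (by linarith) hqtb
      have h5 : (0 : ℝ) < (q : ℝ) + 1 := by positivity
      exact le_of_mul_le_mul_right (h4.trans h3) h5
    have h3 : tb ≤ 4 * sb / ((q : ℝ) * tb) := by
      rw [le_div_iff₀ (by positivity)]
      nlinarith
    linarith

/-- First bound: the mean of `v`, large `q`. -/
theorem u1_L (a v : Fin n → ℝ) (ha : ∀ j, 0 < a j) (hsum : ∑ j, a j = 1)
    (hv : ∀ j, 0 < v j) (q : ℕ) (hq : 1 ≤ q) (b : Fin n → ℝ) (hb : ∀ j, 0 < b j) :
    (tbar a v - (4 / (q : ℝ)) * (sbar a v / tbar a v)) * tangentM a q b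
      ≤ (∑ j, b j) ^ q * ∑ j, v j * b j := by
  obtain ⟨T, hT, hTeq⟩ := exists_T a v ha hsum hv q
  have h1 := T_ge a v ha hsum hv q hq T hT hTeq
  have h2 := T_le_ratio a v ha hsum hv q hq T hT hTeq b hb
  have htan : 0 ≤ tangentM a q b :=
    Finset.prod_nonneg fun j _ => (Real.rpow_pos_of_pos (div_pos (hb j) (ha j)) _).le
  exact (mul_le_mul_of_nonneg_right h1 htan).trans h2

/-- Second bound: the geometric mean of `v`, all `q`. -/
theorem u1_G (a v : Fin n → ℝ) (ha : ∀ j, 0 < a j) (hsum : ∑ j, a j = 1)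
    (hv : ∀ j, 0 < v j) (q : ℕ) (b : Fin n → ℝ) (hb : ∀ j, 0 < b j) :
    (∏ j, v j ^ a j) * tangentM a q b ≤ (∑ j, b j) ^ q * ∑ j, v j * b j := by
  have hne := nonempty_of_sum_one a hsum
  have hb0 : 0 < ∑ j, b j := Finset.sum_pos (fun j _ => hb j) hne
  have hvb0 : 0 < ∑ j, v j * b j :=
    Finset.sum_pos (fun j _ => mul_pos (hv j) (hb j)) hne
  have hG1 := log_sum_ge a b ha hsum hb
  have hG2 := log_sum_ge a (fun j => v j * b j) ha hsum (fun j => mul_pos (hv j) (hb j))
  have htan : 0 < tangentM a q b :=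
    Finset.prod_pos fun j _ => Real.rpow_pos_of_pos (div_pos (hb j) (ha j)) _
  have hprod : 0 < ∏ j, v j ^ a j :=
    Finset.prod_pos fun j _ => Real.rpow_pos_of_pos (hv j) _
  have hlogtan : Real.log (tangentM a q b)
      = ∑ j, ((q : ℝ) + 1) * a j * Real.log (b j / a j) := by
    unfold tangentM
    rw [Real.log_prod (fun j _ => (Real.rpow_pos_of_pos (div_pos (hb j) (ha j)) _).ne')]
    refine Finset.sum_congr rfl fun j _ => ?_
    rw [Real.log_rpow (div_pos (hb j) (ha j))]
  have hlogprod : Real.log (∏ j, v j ^ a j) = ∑ j, a j * Real.log (v j) := by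
    rw [Real.log_prod (fun j _ => (Real.rpow_pos_of_pos (hv j) _).ne')]
    refine Finset.sum_congr rfl fun j _ => ?_
    rw [Real.log_rpow (hv j)]
  have hmain : Real.log ((∏ j, v j ^ a j) * tangentM a q b)
      ≤ Real.log ((∑ j, b j) ^ q * ∑ j, v j * b j) := by
    rw [Real.log_mul hprod.ne' htan.ne', Real.log_mul (by positivity) hvb0.ne', Real.log_pow,
      hlogtan, hlogprod]
    have e2 : ∑ j, a j * Real.log (v j * b j / a j)
        = ∑ j, a j * Real.log (v j) + ∑ j, a j * Real.log (b j / a j) := by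
      rw [← Finset.sum_add_distrib]
      refine Finset.sum_congr rfl fun j _ => ?_
      rw [mul_div_assoc, Real.log_mul (hv j).ne' (div_pos (hb j) (ha j)).ne']
      ring
    have e3 : ∑ j, ((q : ℝ) + 1) * a j * Real.log (b j / a j)
        = ((q : ℝ) + 1) * ∑ j, a j * Real.log (b j / a j) := by
      rw [Finset.mul_sum]
      exact Finset.sum_congr rfl fun j _ => by ring
    rw [e3]
    rw [e2] at hG2
    have h1 := mul_le_mul_of_nonneg_left hG1 (Nat.cast_nonneg q : (0 : ℝ) ≤ q)
    linarith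
  exact (Real.log_le_log_iff (by positivity) (by positivity)).1 hmain

end Vale.Agent.Lib.P328.CapS
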